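import Vale.Agent.P087.ConjY

/-! # P087: bounds for the free Fisher information -/

namespace Vale.Agent.P087

open InnerProductSpace ContinuousLinearMap

variable {H : Type} [NormedAddCommGroup H] [InnerProductSpace ℂ H] [CompleteSpace H]

theorem ConjA_KK_le {ι : Type} (Ω : H) (Z : ι → H →L[ℂ] H) {v : H} (hv : v ∈ KK Ω Z) :
    v ∈ L2 Ω Z := by
  refine closure_mono ?_ hv
  intro u hu
  let S : Subalgebra ℂ (H →L[ℂ] H) :=
    Subalgebra.centralizer ℂ (Set.range Z ∪ star '' Set.range Z).centralizer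
  have hZ : ∀ c, Z c ∈ S := fun c =>
    Set.subset_centralizer_centralizer (S := Set.range Z ∪ star '' Set.range Z) (Or.inl ⟨c, rfl⟩)
  have : ∃ x ∈ S, x Ω = u := Submodule.span_induction
    (fun _ ⟨w, hw⟩ => ⟨_, word_mem hZ w, hw⟩) ⟨0, zero_mem _, rfl⟩
    (fun _ _ _ _ ⟨p, hp, e⟩ ⟨q, hq, e'⟩ => ⟨p + q, add_mem hp hq, by simp [e, e']⟩)
    (fun c _ _ ⟨p, hp, e⟩ => ⟨c • p, S.smul_mem hp c, by simp [e]⟩) hu
  obtain ⟨x, hx, e⟩ := this
  exact ⟨x, hx, e⟩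

omit [CompleteSpace H] in
theorem ConjA_inner_proj {K : Submodule ℂ H} [K.HasOrthogonalProjection] {u : H} (hu : u ∈ K)
    (v : H) : inner ℂ u (K.starProjection v) = inner ℂ u v := by
  rw [← Submodule.inner_starProjection_left_eq_right, Submodule.starProjection_eq_self_iff.2 hu]

/-- projecting solutions of the conjugate relations onto `KK` gives conjugate variables -/
theorem fisher_le {ι : Type} [Fintype ι] [DecidableEq ι] {Ω : H} {Z : ι → H →L[ℂ] H}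
    (hZ : ∀ c, star (Z c) = Z c) {φ : ι → ℝ}
    (h : ∀ j, ∃ η, Rel Ω Z j η ∧ ‖(KK Ω Z).starProjection η‖ ^ 2 ≤ φ j) :
    fisher Ω Z ≤ ENNReal.ofReal (∑ j, φ j) := by
  choose η hη hφ using h
  refine iInf_le_of_le (fun j => (KK Ω Z).starProjection (η j)) (iInf_le_of_le ?_
    (ENNReal.ofReal_le_ofReal (Finset.sum_le_sum fun j _ => hφ j)))
  refine fun j => ⟨ConjA_KK_le Ω Z (Submodule.starProjection_apply_mem _ _), fun w => ?_⟩
  rw [← hη j w, ← inner_star_left (word Z w), ← inner_star_left (word Z w), star_word hZ,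
    ConjA_inner_proj (mem_KK Ω Z _)]

/-- free Cramér–Rao inequality (use the conjugate relation for `w = [j]`) -/
theorem le_fisher {ι : Type} [Fintype ι] [DecidableEq ι] {Ω : H} {Z : ι → H →L[ℂ] H}
    (hΩ : ‖Ω‖ = 1) (hZ : ∀ c, star (Z c) = Z c) {C : ℝ} (h : ∀ j, ‖Z j Ω‖ ^ 2 ≤ C) :
    ENNReal.ofReal (Fintype.card ι / C) ≤ fisher Ω Z := by
  refine le_iInf fun ξ => le_iInf fun hξ => ENNReal.ofReal_le_ofReal ?_
  have h1 : ∀ j, 1 / C ≤ ‖ξ j‖ ^ 2 := fun j => by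
    have e := (hξ j).2 [j]
    have e1 : tau Ω 1 = 1 := by
      rw [tau, one_apply_eq_self, inner_self_eq_norm_sq_to_K, hΩ]; simp
    rw [dsum_cons, if_pos rfl, dsum_nil, word_cons, word_nil, mul_one, e1, ← inner_star_left,
      hZ] at e
    have e2 := norm_inner_le_norm (𝕜 := ℂ) (Z j Ω) (ξ j)
    rw [e] at e2
    simp only [mul_one, add_zero, norm_one] at e2
    have e3 : 1 ≤ ‖Z j Ω‖ ^ 2 * ‖ξ j‖ ^ 2 := by rw [← mul_pow]; exact one_le_pow₀ e2
    have e4 : 1 ≤ C * ‖ξ j‖ ^ 2 := e3.trans (mul_le_mul_of_nonneg_right (h j) (by positivity))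
    have hC : 0 < C := by
      by_contra hC
      nlinarith [sq_nonneg ‖ξ j‖]
    rw [div_le_iff₀ hC]; linarith
  calc (Fintype.card ι : ℝ) / C = ∑ _j : ι, 1 / C := by simp [div_eq_mul_inv]
    _ ≤ _ := Finset.sum_le_sum fun j _ => h1 j

namespace Fk

variable {κ : Type} [DecidableEq κ] (F : Fk H (Ix κ ⊕ Ix κ))

theorem ConjA_ll {L : Type} [DecidableEq L] (F : Fk H L) (a b : L) (x y : H) :
    inner ℂ (F.l a x) (F.l b y) = if a = b then inner ℂ x y else 0 := by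
  rw [← inner_star_right, ← mul_apply_eq_comp, F.ll]
  split_ifs <;> simp

theorem ConjA_sl {L : Type} [DecidableEq L] (F : Fk H L) {a b : L} (h : a ≠ b) (x : H) :
    F.s a (F.l b x) = F.l a (F.l b x) := by
  rw [s, _root_.add_apply, ← mul_apply_eq_comp (star _), F.ll, if_neg h]; simp

theorem ConjA_s3 {L : Type} [DecidableEq L] (F : Fk H L) {a b c : L} (hab : a ≠ b) (hbc : b ≠ c) :
    (F.s a * F.s b * F.s c) F.Ω = F.l a (F.l b (F.l c F.Ω)) := by
  rw [mul_apply_eq_comp, mul_apply_eq_comp, sΩ, ← F.lr0, F.ConjA_sl hbc, F.ConjA_sl hab]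

theorem ConjA_Ωl {L : Type} [DecidableEq L] (F : Fk H L) (a : L) (x : H) :
    inner ℂ F.Ω (F.l a x) = 0 := by
  rw [← inner_star_left, F.lΩ, inner_zero_left]

theorem ConjA_m1 (p : κ × κ × κ) : m1 F.g p F.Ω = F.l (.inl (.inl (0, p.1)))
    (F.l (.inl (.inl (1, p.2.1))) (F.l (.inl (.inl (2, p.2.2))) F.Ω)) :=
  F.ConjA_s3 (by simp) (by simp)

theorem ConjA_m2 (p : κ × κ × κ) : m2 F.g p F.Ω = F.l (.inl (.inl (2, p.2.2)))
    (F.l (.inl (.inl (1, p.2.1))) (F.l (.inl (.inl (0, p.1))) F.Ω)) :=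
  F.ConjA_s3 (by simp) (by simp)

theorem ConjA_inner_pp (p : Bool × κ × κ × κ) :
    inner ℂ (pp F.g (.inr p) F.Ω) (pp F.g (.inr p) F.Ω) = 2 := by
  have h02 : (0 : Fin 3) ≠ 2 := by decide
  rcases p with ⟨_ | _, p⟩
  · simp only [pp, _root_.smul_apply, _root_.sub_apply, ConjA_m1, ConjA_m2, inner_smul_left,
      inner_smul_right, inner_sub_left, inner_sub_right, ConjA_ll, F.inner_Ω]
    simp [h02, h02.symm]
    linear_combination (-2 : ℂ) * Complex.I_mul_I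
  · simp only [pp, _root_.add_apply, ConjA_m1, ConjA_m2, inner_add_left, inner_add_right,
      ConjA_ll, F.inner_Ω]
    simp [h02, h02.symm]
    norm_num

theorem ConjA_norm_pp (p : Bool × κ × κ × κ) : ‖pp F.g (.inr p) F.Ω‖ ^ 2 = 2 := by
  rw [← inner_self_eq_norm_sq (𝕜 := ℂ), F.ConjA_inner_pp p]
  simp

theorem ConjA_orth (t : ℝ) (c : Ix κ) {b : H →L[ℂ] H} (hb : b ∈ F.B) :
    inner ℂ (F.N t c F.Ω) (b F.Ω) = 0 := by
  rw [NΩ, inner_star_left, ← mul_apply_eq_comp, F.R_comm t c hb, mul_apply_eq_comp, RΩ]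
  simp

theorem ConjA_norm_N {t : ℝ} (ht : 0 ≤ t) (c : Ix κ) : ‖F.N t c F.Ω‖ ^ 2 = eps c + t := by
  have : inner ℂ (F.N t c F.Ω) (F.N t c F.Ω) = ((eps c + t : ℝ) : ℂ) := by
    rw [NΩ, inner_star_left, ← mul_apply_eq_comp, F.RR ht, if_pos rfl, _root_.smul_apply,
      one_apply_eq_self, inner_smul_right, F.inner_Ω, mul_one]
  rw [← inner_self_eq_norm_sq (𝕜 := ℂ), this]
  simp

omit [DecidableEq κ] in
theorem ConjA_eps (c : Ix κ) : 0 ≤ eps c := by
  rcases c with y | p <;> simp [eps]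

theorem ConjA_rel {t : ℝ} (ht : 0 < t) (c : Ix κ) :
    Rel F.Ω (F.Z t) c ((((eps c + t)⁻¹ : ℝ) : ℂ) • F.N t c F.Ω) := by
  have h0 : (eps c + t : ℝ) ≠ 0 := by have := ConjA_eps c; positivity
  rw [NΩ, ← _root_.smul_apply]
  refine rel_of_comm (by simp [F.RΩ]) fun c' => ?_
  have h := congrArg star (F.RZ ht.le c c')
  rw [star_mul, star_add, star_mul, star_Z] at h
  rw [mul_smul_comm, h, smul_add, smul_mul_assoc]
  congr 1
  split_ifs
  · rw [star_smul, star_P, smul_smul, Complex.star_def, Complex.conj_ofReal, ← Complex.ofReal_mul,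
      inv_mul_cancel₀ h0, Complex.ofReal_one, one_smul, P]
  · simp

theorem tau_pp (c : Ix κ) : tau F.Ω (pp F.g c) = 0 := by
  rcases c with y | ⟨_ | _, p⟩
  · simp [pp]
  · simp only [pp, tau, _root_.smul_apply, _root_.sub_apply, ConjA_m1, ConjA_m2, inner_smul_right,
      inner_sub_right, ConjA_Ωl, sub_zero, mul_zero]
  · simp only [pp, tau, _root_.add_apply, ConjA_m1, ConjA_m2, inner_add_right, ConjA_Ωl, add_zero]

theorem norm_ZΩ {t : ℝ} (ht : 0 ≤ t) (c : Ix κ) : ‖F.Z t c F.Ω‖ ^ 2 ≤ 3 + t := by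
  have h1 := F.ConjA_orth t c (F.sig_mem_B c)
  have h2 := norm_add_sq (𝕜 := ℂ) (F.N t c F.Ω) (sig F.g c F.Ω)
  rw [h1, F.ConjA_norm_N ht] at h2
  rw [Z_eq, _root_.add_apply, add_comm, h2]
  rcases c with y | p
  · simp only [sig, g, norm_sΩ, eps, map_zero]; linarith
  · simp only [sig, ConjA_norm_pp, eps, map_zero]; linarith

/-- the candidate `η = N_c Ω / (ε_c + t)` -/
theorem conjN {t : ℝ} (ht : 0 < t) (c : Ix κ) :
    ∃ η, Rel F.Ω (F.Z t) c η ∧ ‖η‖ ^ 2 ≤ 1 / (eps c + t) := by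
  refine ⟨_, F.ConjA_rel ht c, le_of_eq ?_⟩
  have h0 : (0 : ℝ) < eps c + t := by have := ConjA_eps c; positivity
  rw [norm_smul, mul_pow, F.ConjA_norm_N ht.le, Complex.norm_real, Real.norm_eq_abs, sq_abs]
  field_simp

/-- the same candidate, when the signal has small projection -/
theorem conjA {t : ℝ} (ht : 0 < t) (p : Bool × κ × κ × κ)
    (h : ‖(KK F.Ω (F.Z t)).starProjection (pp F.g (.inr p) F.Ω)‖ ≤ 1) :
    ∃ η, Rel F.Ω (F.Z t) (.inr p) η ∧
      ‖(KK F.Ω (F.Z t)).starProjection η‖ ^ 2 ≤ 1 / (1 + t) - 1 / (1 + t) ^ 2 := by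
  refine ⟨_, F.ConjA_rel ht _, ?_⟩
  have hZ : F.Z t (.inr p) F.Ω ∈ KK F.Ω (F.Z t) := by simpa using mem_KK F.Ω (F.Z t) [.inr p]
  have e1 : F.N t (.inr p) F.Ω = F.Z t (.inr p) F.Ω - pp F.g (.inr p) F.Ω := by
    rw [Z_eq]; simp [sig]
  have e2 : inner ℂ (F.Z t (.inr p) F.Ω) ((KK F.Ω (F.Z t)).starProjection (pp F.g (.inr p) F.Ω))
      = 2 := by
    rw [ConjA_inner_proj hZ, Z_eq, _root_.add_apply, inner_add_left,
      F.ConjA_orth t _ (F.pp_mem_B _), add_zero]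
    exact F.ConjA_inner_pp p
  have e3 := norm_sub_sq (𝕜 := ℂ) (F.Z t (.inr p) F.Ω)
    ((KK F.Ω (F.Z t)).starProjection (pp F.g (.inr p) F.Ω))
  rw [e2] at e3
  have e4 := F.norm_ZΩ ht.le (.inr p)
  have e5 : ‖(KK F.Ω (F.Z t)).starProjection (pp F.g (.inr p) F.Ω)‖ ^ 2 ≤ 1 :=
    pow_le_one₀ (norm_nonneg _) h
  have e6 : RCLike.re (2 : ℂ) = 2 := by simp
  rw [map_smul, e1, map_sub, Submodule.starProjection_eq_self_iff.2 hZ, norm_smul, mul_pow, e3,
    Complex.norm_real, Real.norm_eq_abs, sq_abs, e6]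
  have e7 : 1 / (1 + t) - 1 / (1 + t) ^ 2 = (1 + t)⁻¹ ^ 2 * t := by field_simp; ring
  rw [e7]
  exact mul_le_mul_of_nonneg_left (by linarith) (by positivity)

end Fk

end Vale.Agent.P087
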