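import Vale.Agent.P087.Sys

/-! # P087: a bounded solution of the conjugate relations for the variables `U, V, W` -/

namespace Vale.Agent.P087

open InnerProductSpace ContinuousLinearMap

variable {H : Type} [NormedAddCommGroup H] [InnerProductSpace ℂ H] [CompleteSpace H]

theorem rel_of_comm {ι : Type} [DecidableEq ι] {Ω : H} {Z : ι → H →L[ℂ] H} {j : ι}
    {T : H →L[ℂ] H} (hT : star T Ω = 0)
    (h : ∀ c, Z c * T = T * Z c + if c = j then rankOne ℂ Ω Ω else 0) : Rel Ω Z j (T Ω) := by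
  intro w
  have := deriv_word (fun x => x * T - T * x) (by simp) (fun a b => by noncomm_ring)
    (X := Z) (j := j) (e := rankOne ℂ Ω Ω) (fun c => by simp [h]) w
  have h2 := congrArg (tauL Ω) this
  rw [map_dsum, map_sub] at h2
  simp only [tauL_apply] at h2
  rw [tau_mul Ω T, hT, inner_zero_left, sub_zero] at h2
  exact h2.trans (dsum_congr fun g k _ => by simp [tau, mul_comm])

namespace Fk

variable {κ : Type} [Fintype κ] [DecidableEq κ] (F : Fk H (Ix κ ⊕ Ix κ))

/-- `E` is the commutator of `Z (inr p)` with an operator commuting with the other variables -/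
def ConjY_Lift (t : ℝ) (p : Bool × κ × κ × κ) (E : H →L[ℂ] H) (C : ℝ) : Prop :=
  ∃ T : H →L[ℂ] H, (∀ c, F.Z t c * T - T * F.Z t c = if c = .inr p then E else 0) ∧
    star T F.Ω = 0 ∧ ‖T‖ ≤ C

omit [Fintype κ] in
theorem ConjY_add {t : ℝ} {p : Bool × κ × κ × κ} {E E' : H →L[ℂ] H} {C C' : ℝ}
    (h : F.ConjY_Lift t p E C) (h' : F.ConjY_Lift t p E' C') :
    F.ConjY_Lift t p (E + E') (C + C') := by
  obtain ⟨T, h1, h2, h3⟩ := h
  obtain ⟨T', h1', h2', h3'⟩ := h'
  refine ⟨T + T', fun c => ?_, by simp [h2, h2'], (norm_add_le _ _).trans (add_le_add h3 h3')⟩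
  rw [show F.Z t c * (T + T') - (T + T') * F.Z t c =
    (F.Z t c * T - T * F.Z t c) + (F.Z t c * T' - T' * F.Z t c) by noncomm_ring, h1, h1']
  split_ifs <;> simp

omit [Fintype κ] in
theorem ConjY_smul {t : ℝ} {p : Bool × κ × κ × κ} {E : H →L[ℂ] H} {C : ℝ} {z : ℂ} (hz : ‖z‖ = 1)
    (h : F.ConjY_Lift t p E C) : F.ConjY_Lift t p (z • E) C := by
  obtain ⟨T, h1, h2, h3⟩ := h
  refine ⟨z • T, fun c => ?_, by simp [h2], by rwa [norm_smul, hz, one_mul]⟩
  rw [mul_smul_comm, smul_mul_assoc, ← smul_sub, h1]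
  split_ifs <;> simp

omit [Fintype κ] in
theorem ConjY_ite {t : ℝ} {p : Bool × κ × κ × κ} {E : H →L[ℂ] H} (q : Prop) [Decidable q]
    (h : F.ConjY_Lift t p E 4) : F.ConjY_Lift t p (if q then E else 0) 4 := by
  split_ifs
  · exact h
  · exact ⟨0, fun c => by simp, by simp, by simp⟩

omit [Fintype κ] in
theorem ConjY_comm (t : ℝ) (x c : Ix κ) : F.Z t c * F.r (.inl x) - F.r (.inl x) * F.Z t c =
    (if c = x then F.P else 0) + (pp F.g c * F.r (.inl x) - F.r (.inl x) * pp F.g c) := by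
  have h1 := F.sr (.inl c) (.inl x)
  have h2 := F.sr (.inr c) (.inl x)
  simp only [Sum.inl.injEq] at h1
  simp only [reduceCtorEq, if_false, add_zero] at h2
  simp only [Z, flow, XX, g, S, add_mul, mul_add, smul_mul_assoc, mul_smul_comm, h1, h2]
  abel

omit [Fintype κ] in
theorem ConjY_base (t : ℝ) (p : Bool × κ × κ × κ) {u v : H →L[ℂ] H}
    (hu : ∀ x ∈ F.M, u * x = x * u) (hv : ∀ x ∈ F.M, v * x = x * v)
    (h0 : star (F.r (.inl (.inr p))) (star u F.Ω) = 0) (hn : ‖u‖ * ‖v‖ ≤ 4) :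
    F.ConjY_Lift t p (u * F.P * v) 4 := by
  refine ⟨u * F.r (.inl (.inr p)) * v, fun c => ?_, ?_, ?_⟩
  · have h1 := F.ConjY_comm t (.inr p) c
    rw [F.B_comm (F.pp_mem_B c) (x := .inl (.inr p)) (by simp), sub_self, add_zero] at h1
    have h2 : F.Z t c * (u * F.r (.inl (.inr p)) * v) - u * F.r (.inl (.inr p)) * v * F.Z t c =
        u * (F.Z t c * F.r (.inl (.inr p)) - F.r (.inl (.inr p)) * F.Z t c) * v := by
      rw [← mul_assoc, ← mul_assoc, ← hu _ (F.Z_mem t c), mul_assoc _ v, hv _ (F.Z_mem t c)]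
      noncomm_ring
    rw [h2, h1]
    split_ifs <;> simp
  · rw [star_mul, star_mul, mul_apply_eq_comp, mul_apply_eq_comp, h0, map_zero]
  · refine (norm_mul_le _ _).trans (le_trans ?_ hn)
    refine mul_le_mul_of_nonneg_right ((norm_mul_le _ _).trans ?_) (norm_nonneg _)
    exact mul_le_of_le_one_right (norm_nonneg _) (F.norm_r _)

omit [Fintype κ] in
theorem ConjY_three (t : ℝ) (p : Bool × κ × κ × κ) (a b e y : Fin 3 × κ) :
    F.ConjY_Lift t p (F.g (.inl a) * F.g (.inl b) * F.g (.inl e) * F.r (.inl (.inl y)) -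
      F.r (.inl (.inl y)) * (F.g (.inl a) * F.g (.inl b) * F.g (.inl e))) 12 := by
  have dP : ∀ x, F.d x * F.P = F.s x * F.P := fun x => by
    ext v
    simp [P_apply, dΩ]
  have Pd : ∀ x, F.P * F.d x = F.P * F.s x := fun x => by
    have := congrArg star (dP x)
    rwa [star_mul, star_mul, star_P, star_d, star_s] at this
  have hd : ∀ z, ∀ x ∈ F.M, F.d z * x = x * F.d z := fun z x hx => F.comm_d hx z
  have hdd : ∀ z z', ∀ x ∈ F.M, F.d z * F.d z' * x = x * (F.d z * F.d z') := fun z z' x hx => by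
    rw [mul_assoc, hd _ _ hx, ← mul_assoc, hd _ _ hx, mul_assoc]
  have h1 : ∀ x ∈ F.M, (1 : H →L[ℂ] H) * x = x * 1 := fun x _ => by rw [one_mul, mul_one]
  have n1 : ‖(1 : H →L[ℂ] H)‖ ≤ 1 := norm_id_le
  have nd : ∀ z z', ‖F.d z‖ * ‖F.d z'‖ ≤ 4 := fun z z' => by
    have := mul_le_mul (F.norm_d z) (F.norm_d z') (norm_nonneg _) (by norm_num)
    linarith
  have ndd : ∀ z z', ‖F.d z * F.d z'‖ ≤ 4 := fun z z' => (norm_mul_le _ _).trans (nd z z')
  have rs0 : ∀ (z : Fin 3 × κ) (v : H), star (F.r (.inl (.inr p))) (F.s (.inl (.inl z)) v) =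
      F.s (.inl (.inl z)) (star (F.r (.inl (.inr p))) v) := fun z v => by
    rw [← mul_apply_eq_comp, F.rs, if_neg (by simp), add_zero, mul_apply_eq_comp]
  have l1 := F.ConjY_base t p h1 (hdd (.inl (.inl e)) (.inl (.inl b))) (by simp [F.rΩ])
    ((mul_le_of_le_one_left (norm_nonneg _) n1).trans (ndd _ _))
  have l2 := F.ConjY_base t p (hd (.inl (.inl a))) (hd (.inl (.inl e)))
    (by rw [star_d, dΩ, rs0, F.rΩ, map_zero]) (nd _ _)
  have l3 := F.ConjY_base t p (hdd (.inl (.inl b)) (.inl (.inl a))) h1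
    (by rw [star_mul, star_d, star_d, mul_apply_eq_comp, dΩ, ← mul_apply_eq_comp (F.d _), ← F.sd,
      mul_apply_eq_comp, dΩ, rs0, rs0, F.rΩ, map_zero, map_zero])
    ((mul_le_of_le_one_right (norm_nonneg _) n1).trans (ndd _ _))
  rw [one_mul, ← mul_assoc, Pd, mul_assoc, F.sd, ← mul_assoc, Pd] at l1
  rw [dP, mul_assoc, Pd, ← mul_assoc] at l2
  rw [mul_one, mul_assoc, dP, ← mul_assoc, ← F.sd, mul_assoc, dP, ← mul_assoc] at l3
  have key := F.ConjY_add (F.ConjY_add (F.ConjY_ite (a = y) l1) (F.ConjY_ite (b = y) l2))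
    (F.ConjY_ite (e = y) l3)
  have hs : ∀ z : Fin 3 × κ, F.s (.inl (.inl z)) * F.r (.inl (.inl y)) -
      F.r (.inl (.inl y)) * F.s (.inl (.inl z)) = if z = y then F.P else 0 := fun z => by
    rw [F.sr]
    simp
  have e1 : F.g (.inl a) * F.g (.inl b) * F.g (.inl e) * F.r (.inl (.inl y)) -
      F.r (.inl (.inl y)) * (F.g (.inl a) * F.g (.inl b) * F.g (.inl e)) =
      (if a = y then F.P else 0) * F.s (.inl (.inl b)) * F.s (.inl (.inl e)) +
        F.s (.inl (.inl a)) * (if b = y then F.P else 0) * F.s (.inl (.inl e)) +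
        F.s (.inl (.inl a)) * F.s (.inl (.inl b)) * (if e = y then F.P else 0) := by
    rw [← hs, ← hs, ← hs]
    simp only [g]
    noncomm_ring
  rw [e1, show (12 : ℝ) = 4 + 4 + 4 by norm_num]
  simpa only [ite_mul, mul_ite, zero_mul, mul_zero] using key

omit [Fintype κ] in
theorem ConjY_pp (t : ℝ) (p : Bool × κ × κ × κ) (y : Fin 3 × κ) :
    F.ConjY_Lift t p (pp F.g (.inr p) * F.r (.inl (.inl y)) -
      F.r (.inl (.inl y)) * pp F.g (.inr p)) 24 := by
  have h1 := F.ConjY_three t p (0, p.2.1) (1, p.2.2.1) (2, p.2.2.2) y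
  have h2 := F.ConjY_three t p (2, p.2.2.2) (1, p.2.2.1) (0, p.2.1) y
  rw [show (24 : ℝ) = 12 + 12 by norm_num]
  obtain ⟨_ | _, q⟩ := p
  · have h3 := F.ConjY_smul Complex.norm_I
      (F.ConjY_add h1 (F.ConjY_smul (z := -1) (by simp) h2))
    have e : ∀ A B R : H →L[ℂ] H, Complex.I • (A - B) * R - R * Complex.I • (A - B) =
        Complex.I • (A * R - R * A + (-1 : ℂ) • (B * R - R * B)) := fun A B R => by
      rw [smul_mul_assoc, mul_smul_comm, ← smul_sub, neg_one_smul]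
      congr 1
      noncomm_ring
    simp only [pp, m1, m2, e]
    exact h3
  · have h3 := F.ConjY_add h1 h2
    have e : ∀ A B R : H →L[ℂ] H, (A + B) * R - R * (A + B) =
        A * R - R * A + (B * R - R * B) := fun A B R => by noncomm_ring
    simp only [pp, m1, m2, e]
    exact h3

theorem conjY (t : ℝ) (y : Fin 3 × κ) :
    ∃ η, Rel F.Ω (F.Z t) (.inl y) η ∧ ‖η‖ ≤ 1 + 48 * (Fintype.card κ : ℝ) ^ 3 := by
  choose T h1 h2 h3 using fun p => F.ConjY_pp t p y
  refine ⟨(F.r (.inl (.inl y)) - ∑ p, T p) F.Ω, rel_of_comm ?_ fun c => ?_, ?_⟩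
  · rw [star_sub, star_sum, _root_.sub_apply, _root_.sum_apply, F.rΩ,
      Finset.sum_eq_zero fun p _ => h2 p, sub_zero]
  · have e1 : F.Z t c * (∑ p, T p) - (∑ p, T p) * F.Z t c =
        pp F.g c * F.r (.inl (.inl y)) - F.r (.inl (.inl y)) * pp F.g c := by
      rw [Finset.mul_sum, Finset.sum_mul, ← Finset.sum_sub_distrib]
      simp only [h1]
      rcases c with z | q
      · simp [pp]
      · simp
    have e2 := F.ConjY_comm t (.inl y) c
    rw [← e1] at e2
    rw [← sub_eq_iff_eq_add', mul_sub, sub_mul]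
    change _ = if c = .inl y then F.P else 0
    rw [← sub_eq_iff_eq_add] at e2
    rw [← e2]
    abel
  · refine (le_opNorm _ _).trans ?_
    rw [F.norm_Ω, mul_one]
    refine (norm_sub_le _ _).trans (add_le_add (F.norm_r _) ((norm_sum_le _ _).trans ?_))
    refine (Finset.sum_le_sum fun p _ => h3 p).trans (le_of_eq ?_)
    simp only [Finset.sum_const, Finset.card_univ, Fintype.card_prod, Fintype.card_bool,
      nsmul_eq_mul]
    push_cast
    ring

end Fk

end Vale.Agent.P087
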