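import Mathlib

/-! # P087: noncommutative formal power series -/

namespace Vale.Agent.P087

/-- noncommutative power series -/
def Ser (ι : Type) : Type := List ι → ℂ

namespace Ser

variable {ι : Type}

noncomputable instance : AddCommGroup (Ser ι) := inferInstanceAs (AddCommGroup (List ι → ℂ))
noncomputable instance : Module ℂ (Ser ι) := inferInstanceAs (Module ℂ (List ι → ℂ))

/-- left derivative -/
def dv (c : ι) (f : Ser ι) : Ser ι := fun u => f (c :: u)

/-- convolution -/
noncomputable def conv (f g : Ser ι) : List ι → ℂ
  | [] => f [] * g []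
  | c :: w => f [] * g (c :: w) + conv (dv c f) g w

/-- unit -/
def unit : Ser ι
  | [] => 1
  | _ :: _ => 0

theorem add_apply (f g : Ser ι) (w : List ι) : (f + g) w = f w + g w := rfl
theorem sub_apply (f g : Ser ι) (w : List ι) : (f - g) w = f w - g w := rfl
theorem smul_apply (a : ℂ) (f : Ser ι) (w : List ι) : (a • f) w = a * f w := rfl
theorem zero_apply (w : List ι) : (0 : Ser ι) w = 0 := rfl
theorem sum_apply {κ : Type*} (s : Finset κ) (f : κ → Ser ι) (w : List ι) :
    (∑ i ∈ s, f i) w = ∑ i ∈ s, f i w := Finset.sum_apply w s f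

theorem conv_add_left (f f' g : Ser ι) (w : List ι) :
    conv (f + f') g w = conv f g w + conv f' g w := by
  induction w generalizing f f' with
  | nil => simp only [conv, add_apply]; ring
  | cons c w ih =>
    have := ih (dv c f) (dv c f')
    simp only [conv, add_apply]
    rw [show dv c (f + f') = dv c f + dv c f' from rfl, this]; ring
theorem conv_add_right (f g g' : Ser ι) (w : List ι) :
    conv f (g + g') w = conv f g w + conv f g' w := by
  induction w generalizing f with
  | nil => simp only [conv, add_apply]; ring
  | cons c w ih => simp only [conv, add_apply, ih]; ring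
theorem conv_smul_left (a : ℂ) (f g : Ser ι) (w : List ι) :
    conv (a • f) g w = a * conv f g w := by
  induction w generalizing f with
  | nil => simp only [conv, smul_apply]; ring
  | cons c w ih =>
    have := ih (dv c f)
    simp only [conv, smul_apply]
    rw [show dv c (a • f) = a • dv c f from rfl, this]; ring
theorem conv_smul_right (a : ℂ) (f g : Ser ι) (w : List ι) :
    conv f (a • g) w = a * conv f g w := by
  induction w generalizing f with
  | nil => simp only [conv, smul_apply]; ring
  | cons c w ih => simp only [conv, smul_apply, ih]; ring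
theorem conv_zero_left (g : Ser ι) (w : List ι) : conv 0 g w = 0 := by
  simpa using conv_smul_left 0 0 g w
theorem conv_zero_right (g : Ser ι) (w : List ι) : conv g 0 w = 0 := by
  simpa using conv_smul_right 0 g 0 w
theorem conv_assoc (f g h : Ser ι) (w : List ι) :
    conv (conv f g) h w = conv f (conv g h) w := by
  induction w generalizing f g with
  | nil => simp only [conv]; ring
  | cons c w ih =>
    have e : dv c (conv f g) =
        HAdd.hAdd (α := Ser ι) (β := Ser ι) (f [] • dv c g) (conv (dv c f) g) := rfl
    have e1 := conv_add_left (f [] • dv c g) (conv (dv c f) g) h w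
    rw [conv_smul_left, ih] at e1
    simp only [conv]
    rw [e]
    refine (congrArg _ e1).trans ?_
    ring
theorem conv_unit_left (g : Ser ι) (w : List ι) : conv unit g w = g w := by
  cases w with
  | nil => simp [conv, unit]
  | cons c w =>
    simp only [conv]
    rw [show dv c unit = 0 from rfl, conv_zero_left]; simp [unit]
theorem conv_unit_right (f : Ser ι) (w : List ι) : conv f unit w = f w := by
  induction w generalizing f with
  | nil => simp [conv, unit]
  | cons c w ih => simp [conv, unit, ih, dv]

noncomputable instance : Ring (Ser ι) where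
  __ := (inferInstance : AddCommGroup (Ser ι))
  mul := conv
  one := unit
  mul_assoc f g h := funext (conv_assoc f g h)
  one_mul g := funext (conv_unit_left g)
  mul_one g := funext (conv_unit_right g)
  zero_mul g := funext (conv_zero_left g)
  mul_zero g := funext (conv_zero_right g)
  left_distrib f g h := funext (conv_add_right f g h)
  right_distrib f g h := funext (conv_add_left f g h)

instance : IsScalarTower ℂ (Ser ι) (Ser ι) := ⟨fun a f g => funext (conv_smul_left a f g)⟩
instance : SMulCommClass ℂ (Ser ι) (Ser ι) :=
  ⟨fun a f g => funext fun w => (conv_smul_right a f g w).symm⟩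

theorem mul_nil (f g : Ser ι) : (f * g) [] = f [] * g [] := rfl
theorem mul_cons (f g : Ser ι) (c : ι) (w : List ι) :
    (f * g) (c :: w) = f [] * g (c :: w) + (dv c f * g) w := rfl
theorem one_nil : (1 : Ser ι) [] = 1 := rfl
theorem one_cons (c : ι) (w : List ι) : (1 : Ser ι) (c :: w) = 0 := rfl

variable [DecidableEq ι]

/-- the variables -/
def x (c : ι) : Ser ι := fun w => if w = [c] then 1 else 0

theorem x_mul_nil (c : ι) (f : Ser ι) : (x c * f) [] = 0 := by simp [mul_nil, x]
theorem x_mul_cons (c e : ι) (f : Ser ι) (w : List ι) :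
    (x c * f) (e :: w) = if e = c then f w else 0 := by
  have : dv e (x c) = if e = c then 1 else 0 := by
    funext u
    cases u <;> split_ifs with h <;> simp [dv, x, h, one_nil, one_cons, zero_apply]
  rw [mul_cons, this]
  split_ifs <;> simp [x, zero_apply]

theorem eq_sum [Fintype ι] (f : Ser ι) : f = f [] • 1 + ∑ c, x c * dv c f := by
  funext w
  cases w with
  | nil => simp [add_apply, smul_apply, sum_apply, one_nil, x_mul_nil]
  | cons c w => simp [add_apply, smul_apply, sum_apply, one_cons, x_mul_cons, dv]

/-- vanishing below degree `j` -/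
def Z (j : ℕ) (f : Ser ι) : Prop := ∀ w : List ι, w.length < j → f w = 0

omit [DecidableEq ι] in
theorem Z.zero (f : Ser ι) : Z 0 f := fun _ h => absurd h (Nat.not_lt_zero _)
omit [DecidableEq ι] in
theorem Z.mono {i j : ℕ} {f : Ser ι} (h : Z j f) (hij : i ≤ j) : Z i f :=
  fun w hw => h w (hw.trans_le hij)
omit [DecidableEq ι] in
theorem Z.add {j : ℕ} {f g : Ser ι} (h : Z j f) (h' : Z j g) : Z j (f + g) :=
  fun w hw => by rw [add_apply, h w hw, h' w hw, add_zero]
omit [DecidableEq ι] in
theorem Z.sub {j : ℕ} {f g : Ser ι} (h : Z j f) (h' : Z j g) : Z j (f - g) :=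
  fun w hw => by rw [sub_apply, h w hw, h' w hw, sub_zero]
omit [DecidableEq ι] in
theorem Z.symm {j : ℕ} {f g : Ser ι} (h : Z j (f - g)) : Z j (g - f) :=
  fun w hw => by rw [sub_apply, sub_eq_zero.1 (h w hw), sub_self]
omit [DecidableEq ι] in
theorem Z.smul {j : ℕ} {f : Ser ι} (h : Z j f) (a : ℂ) : Z j (a • f) :=
  fun w hw => by rw [smul_apply, h w hw, mul_zero]
omit [DecidableEq ι] in
theorem Z.sum {κ : Type*} {j : ℕ} (s : Finset κ) {f : κ → Ser ι} (h : ∀ i, Z j (f i)) :
    Z j (∑ i ∈ s, f i) :=
  fun w hw => by rw [sum_apply]; exact Finset.sum_eq_zero fun i _ => h i w hw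
omit [DecidableEq ι] in
theorem Z.mul_left {j : ℕ} {g : Ser ι} (h : Z j g) (f : Ser ι) : Z j (f * g) := by
  intro w
  induction w generalizing f with
  | nil => intro hw; rw [mul_nil, h _ hw, mul_zero]
  | cons c w ih =>
    intro hw
    rw [mul_cons, h _ hw, ih _ (lt_trans (by simp) hw), mul_zero, add_zero]
omit [DecidableEq ι] in
theorem Z.mul_right {j : ℕ} {f : Ser ι} (h : Z j f) (g : Ser ι) : Z j (f * g) := by
  intro w
  induction w generalizing f j with
  | nil => intro hw; rw [mul_nil, h _ hw, zero_mul]
  | cons c w ih =>
    intro hw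
    obtain ⟨j, rfl⟩ : ∃ i, j = i + 1 := ⟨j - 1, by simp at hw; omega⟩
    rw [mul_cons, h _ (by simp), ih (f := dv c f) (j := j)
      (fun u hu => h (c :: u) (by simpa using hu)) (by simpa using hw), zero_mul, add_zero]
theorem Z.x_mul {j : ℕ} {f : Ser ι} (h : Z j f) (c : ι) : Z (j + 1) (x c * f) := by
  intro w hw
  cases w with
  | nil => exact x_mul_nil _ _
  | cons e w => rw [x_mul_cons, h w (by simpa using hw), ite_self]

end Ser

end Vale.Agent.P087
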