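import Vale.Agent.P087.Sys
import Vale.Agent.P087.Ser

/-! # P087: the signal is invisible at high noise -/

namespace Vale.Agent.P087

open InnerProductSpace ContinuousLinearMap Ser

variable {H : Type} [NormedAddCommGroup H] [InnerProductSpace ℂ H] [CompleteSpace H] {ι : Type}

/-- the series `w ↦ ⟨v, Z_{w reversed} y⟩` -/
noncomputable def sr (Z : ι → H →L[ℂ] H) (y : H) : H →ₛₗ[starRingEnd ℂ] Ser ι where
  toFun v := fun w => inner ℂ v (word Z w.reverse y)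
  map_add' _ _ := funext fun _ => inner_add_left _ _ _
  map_smul' _ _ := funext fun _ => inner_smul_left _ _ _

omit [CompleteSpace H] in
theorem sr_apply (Z : ι → H →L[ℂ] H) (y v : H) (w : List ι) :
    sr Z y v w = inner ℂ v (word Z w.reverse y) := rfl
omit [CompleteSpace H] in
theorem dv_sr (Z : ι → H →L[ℂ] H) (y v : H) (c : ι) : dv c (sr Z y v) = sr Z (Z c y) v :=
  funext fun w => by simp [dv, sr_apply]

theorem Lam_le [Fintype ι] {A : Type*} [Mul A] (a : ι → A) {α β γ : ℝ} (m : ℕ)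
    {f f1 f2 f3 : A → ℝ} (h : ∀ b, f b ≤ α * f1 b + β * f2 b + γ * f3 b) (b : A) :
    (Lam a)^[m] f b ≤ α * (Lam a)^[m] f1 b + β * (Lam a)^[m] f2 b + γ * (Lam a)^[m] f3 b := by
  induction m generalizing f f1 f2 f3 with
  | zero => exact h b
  | succ m ih =>
    refine ih fun b => ?_
    simp only [Lam, Finset.mul_sum, ← Finset.sum_add_distrib]
    exact Finset.sum_le_sum fun c _ => h _

variable [DecidableEq ι] {Ω : H} {Z a R : ι → H →L[ℂ] H} {σ : ι → ℝ}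

theorem sr_star (hRZ : ∀ c c', R c * Z c' = Z c' * R c +
      if c' = c then ((σ c : ℝ) : ℂ) • rankOne ℂ Ω Ω else 0) (c : ι) (v y : H) :
    sr Z y (star (R c) v) = sr Z (R c y) v + (σ c : ℂ) • (sr Z y Ω * (x c * sr Z Ω v)) := by
  funext w
  induction w generalizing y with
  | nil =>
    rw [Ser.add_apply, Ser.smul_apply, mul_nil, x_mul_nil]
    simp [sr_apply, inner_star_left]
  | cons e w ih =>
    have h1 := congrArg (fun T : H →L[ℂ] H => inner ℂ v (word Z w.reverse (T y))) (hRZ c e)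
    have h2 : ∀ y v, sr Z y v (e :: w) = sr Z (Z e y) v w := fun y v =>
      congrFun (dv_sr Z y v e) w
    rw [h2, ih, Ser.add_apply, Ser.add_apply, Ser.smul_apply, Ser.smul_apply, mul_cons, dv_sr, h2,
      x_mul_cons]
    simp only [sr_apply]
    split_ifs at h1 ⊢ <;> simp at h1 ⊢ <;> rw [h1] <;> ring

variable [Fintype ι]

/-- the approximating operators -/
noncomputable def Wop (Ω : H) (a R : ι → H →L[ℂ] H) (σ : ι → ℝ) : ℕ → (H →L[ℂ] H) → H →L[ℂ] H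
  | 0, _ => 0
  | d + 1, b => starRingEnd ℂ (tau Ω b) • 1 + ∑ c, (((σ c)⁻¹ : ℝ) : ℂ) •
      (star (R c) * (Wop Ω a R σ d (a c * b) - Wop Ω a R σ d (a c) * Wop Ω a R σ d b))

/-- the corresponding series -/
noncomputable def Eser (Ω : H) (a : ι → H →L[ℂ] H) (M : Ser ι) : ℕ → (H →L[ℂ] H) → Ser ι
  | 0, _ => 0
  | d + 1, b => tau Ω b • 1 +
      M * ∑ c, x c * (Eser Ω a M d (a c * b) - Eser Ω a M d (a c) * Eser Ω a M d b)

theorem sr_W (hσ : ∀ c, σ c ≠ 0)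
    (hS : ∀ c v, sr Z Ω (star (R c) v) = (σ c : ℂ) • (sr Z Ω Ω * (x c * sr Z Ω v))) (d : ℕ)
    (b : H →L[ℂ] H) (v : H) :
    sr Z Ω (Wop Ω a R σ d b v) = Eser Ω a (sr Z Ω Ω) d b * sr Z Ω v := by
  induction d generalizing b v with
  | zero => simp [Wop, Eser]
  | succ d ih =>
    simp only [Wop, Eser, _root_.add_apply, _root_.smul_apply, _root_.sum_apply, mul_apply_eq_comp,
      _root_.sub_apply, map_add, map_sum, map_smulₛₗ, hS, map_sub (sr Z Ω), ih, add_mul,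
      smul_mul_assoc, one_mul, Finset.mul_sum, Finset.sum_mul, Complex.conj_conj, smul_smul,
      Complex.conj_ofReal]
    congr 1
    refine Finset.sum_congr rfl fun c _ => ?_
    rw [← Complex.ofReal_mul, inv_mul_cancel₀ (hσ c)]
    simp [mul_assoc, sub_mul]

omit [CompleteSpace H] in
theorem Z_E {B : Set (H →L[ℂ] H)} (h1 : 1 ∈ B) (hB : ∀ c, ∀ b ∈ B, a c * b ∈ B)
    {F : (H →L[ℂ] H) → Ser ι} {D : ι → Ser ι} (hΩ : tau Ω 1 = 1)
    (hF : ∀ b ∈ B, F b = tau Ω b • 1 + ∑ c, x c * (F (a c * b) + D c * F b)) (d : ℕ) :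
    ∀ b ∈ B, Ser.Z d (F b - Eser Ω a (F 1) d b * F 1) := by
  induction d with
  | zero => exact fun _ _ => Z.zero _
  | succ d ih =>
    intro b hb
    set E := Eser Ω a (F 1) d
    set M := F 1 with hM
    set G := tau Ω b • 1 + ∑ c, x c * ((E (a c * b) - E (a c) * E b) * M) with hG
    have e1 : Eser Ω a M (d + 1) b * M = M * G := by
      simp only [Eser, hG, add_mul, mul_add, smul_mul_assoc, mul_smul_comm, one_mul, mul_one,
        mul_assoc, Finset.sum_mul]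
      rfl
    have e2 : M * G = G + ∑ c, x c * ((F (a c) + D c * M) * G) := by
      have := hF 1 h1
      simp only [hΩ, one_smul, mul_one] at this
      conv_lhs => rw [hM, this, add_mul, one_mul, Finset.sum_mul]
      simp only [mul_assoc, hM]
    have e3 : F b - M * G = ∑ c, x c * ((D c + E (a c)) * (F b - M * G) +
        ((F (a c * b) - E (a c * b) * M) - (F (a c) - E (a c) * M) * G -
          E (a c) * (F b - E b * M))) := by
      conv_lhs => rw [e2, hF b hb]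
      nth_rewrite 1 [hG]
      rw [add_assoc, add_sub_add_left_eq_sub, ← Finset.sum_add_distrib, ← Finset.sum_sub_distrib]
      refine Finset.sum_congr rfl fun c _ => ?_
      noncomm_ring
    rw [e1]
    have key : ∀ j ≤ d + 1, Ser.Z j (F b - M * G) := fun j => by
      induction j with
      | zero => exact fun _ => Z.zero _
      | succ j ihj =>
        intro hj
        have ha : ∀ c, a c ∈ B := fun c => by simpa using hB c 1 h1
        rw [e3]
        exact Z.sum _ fun c => Z.x_mul (((ihj (by omega)).mul_left _).add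
          ((((ih _ (hB c b hb)).sub ((ih _ (ha c)).mul_right _)).sub
            ((ih b hb).mul_left _)).mono (by omega))) c
    exact key _ le_rfl

theorem norm_sum_sq {t : ℝ} (ht : 0 < t) (hσ : ∀ c, t ≤ σ c)
    (hRR : ∀ c c', R c * star (R c') = if c = c' then ((σ c : ℝ) : ℂ) • 1 else 0) (u : ι → H) :
    ‖∑ c, (((σ c)⁻¹ : ℝ) : ℂ) • star (R c) (u c)‖ ^ 2 ≤ t⁻¹ * ∑ c, ‖u c‖ ^ 2 := by
  have h : ∀ c c', inner ℂ (star (R c) (u c)) (star (R c') (u c')) =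
      if c = c' then ((σ c * ‖u c‖ ^ 2 : ℝ) : ℂ) else 0 := fun c c' => by
    rw [inner_star_left, ← mul_apply_eq_comp, hRR]
    split_ifs with e
    · subst e; simp [inner_self_eq_norm_sq_to_K]
    · simp
  rw [← inner_self_eq_norm_sq (𝕜 := ℂ), sum_inner, map_sum, Finset.mul_sum]
  refine Finset.sum_le_sum fun c _ => ?_
  simp only [inner_sum, inner_smul_left, inner_smul_right, h, mul_ite, mul_zero, Finset.sum_ite_eq,
    Finset.mem_univ, if_true, Complex.conj_ofReal, ← Complex.ofReal_mul, RCLike.re_to_complex,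
    Complex.ofReal_re]
  have h0 := ht.trans_le (hσ c)
  rw [inv_mul_cancel_left₀ h0.ne']
  gcongr
  exact hσ c

theorem W_step {t ρ : ℝ} (ht : 0 < t) (hσ : ∀ c, t ≤ σ c)
    (hRR : ∀ c c', R c * star (R c') = if c = c' then ((σ c : ℝ) : ℂ) • 1 else 0) {d : ℕ}
    (h : ∀ u, ∑ c, ‖Wop Ω a R σ d (a c) u‖ ^ 2 ≤ 4 * ρ * ‖u‖ ^ 2) (v : H) (b : H →L[ℂ] H) :
    ‖Wop Ω a R σ (d + 1) b v‖ ^ 2 ≤ 2 * ‖v‖ ^ 2 * ‖tau Ω b‖ ^ 2 +
      4 * t⁻¹ * Lam a (fun b => ‖Wop Ω a R σ d b v‖ ^ 2) b +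
      16 * ρ * t⁻¹ * ‖Wop Ω a R σ d b v‖ ^ 2 := by
  have h2 : ∀ p q : H, ‖p + q‖ ^ 2 ≤ 2 * ‖p‖ ^ 2 + 2 * ‖q‖ ^ 2 := fun p q => by
    nlinarith [norm_add_le p q, norm_nonneg (p + q), sq_nonneg (‖p‖ - ‖q‖)]
  have h3 := norm_sum_sq ht hσ hRR
    fun c => Wop Ω a R σ d (a c * b) v - Wop Ω a R σ d (a c) (Wop Ω a R σ d b v)
  have h4 : ∑ c, ‖Wop Ω a R σ d (a c * b) v - Wop Ω a R σ d (a c) (Wop Ω a R σ d b v)‖ ^ 2 ≤
      2 * Lam a (fun b => ‖Wop Ω a R σ d b v‖ ^ 2) b +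
        2 * ∑ c, ‖Wop Ω a R σ d (a c) (Wop Ω a R σ d b v)‖ ^ 2 := by
    simp only [Lam, Finset.mul_sum, ← Finset.sum_add_distrib]
    exact Finset.sum_le_sum fun c _ => by simpa [sub_eq_add_neg] using h2 _ (-_)
  have h5 := mul_le_mul_of_nonneg_left (h4.trans (add_le_add le_rfl
    (mul_le_mul_of_nonneg_left (h _) zero_le_two))) (inv_pos.2 ht).le
  simp only [Wop, _root_.add_apply, _root_.smul_apply, _root_.sum_apply, mul_apply_eq_comp,
    _root_.sub_apply, one_apply_eq_self]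
  refine (h2 _ _).trans ?_
  rw [norm_smul, RCLike.norm_conj]
  linarith

theorem W_bound {t ρ : ℝ} (ht : 0 < t) (hσ : ∀ c, t ≤ σ c)
    (hRR : ∀ c c', R c * star (R c') = if c = c' then ((σ c : ℝ) : ℂ) • 1 else 0) (hρ : 0 ≤ ρ)
    (hm1 : ∀ m, (Lam a)^[m] (fun b => ‖tau Ω b‖ ^ 2) 1 ≤ ρ ^ m) (h40 : 40 * ρ ≤ t) (d : ℕ)
    (b : H →L[ℂ] H) (C : ℝ) (hb : ∀ m, (Lam a)^[m] (fun b => ‖tau Ω b‖ ^ 2) b ≤ C * ρ ^ m)
    (m : ℕ) (v : H) :
    (Lam a)^[m] (fun b => ‖Wop Ω a R σ d b v‖ ^ 2) b ≤ 4 * C * ρ ^ m * ‖v‖ ^ 2 := by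
  have hC : 0 ≤ C := by simpa using (sq_nonneg _).trans (hb 0)
  induction d generalizing b C m v with
  | zero =>
    refine (Lam_le a (α := 0) (β := 0) (γ := 0) m (f1 := 0) (f2 := 0) (f3 := 0)
      (fun b => by simp [Wop]) b).trans ?_
    simp only [zero_mul, add_zero]
    positivity
  | succ d ih =>
    have h := fun u => ih 1 1 (by simpa using hm1) 1 u zero_le_one
    refine (Lam_le a m (W_step ht hσ hRR (ρ := ρ) (fun u => by simpa [Lam] using h u) v) b).trans ?_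
    have h1 := ih b C hb (m + 1) v hC
    have h2 := ih b C hb m v hC
    rw [Function.iterate_succ_apply] at h1
    have h3 : ρ * t⁻¹ ≤ 1 / 40 := by rw [← div_eq_mul_inv, div_le_iff₀ ht]; linarith
    have h4 : 0 ≤ C * ρ ^ m * ‖v‖ ^ 2 := by positivity
    calc _ ≤ 2 * ‖v‖ ^ 2 * (C * ρ ^ m) + 4 * t⁻¹ * (4 * C * ρ ^ (m + 1) * ‖v‖ ^ 2) +
          16 * ρ * t⁻¹ * (4 * C * ρ ^ m * ‖v‖ ^ 2) := by gcongr; exact hb m
      _ = (2 + 80 * (ρ * t⁻¹)) * (C * ρ ^ m * ‖v‖ ^ 2) := by ring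
      _ ≤ _ := by nlinarith

omit [DecidableEq ι] [Fintype ι] in
theorem proj_le_of {ξ : H} (h : ∀ d : ℕ, ∃ v : H, ‖v‖ ≤ 1 ∧
      ∀ w : List ι, w.length < d → inner ℂ ξ (word Z w Ω) = inner ℂ v (word Z w Ω)) :
    ‖(KK Ω Z).starProjection ξ‖ ≤ 1 := by
  have h1 : ∀ p ∈ Submodule.span ℂ (Set.range fun w => word Z w Ω), ∃ d : ℕ, ∀ v : H,
      (∀ w : List ι, w.length < d → inner ℂ ξ (word Z w Ω) = inner ℂ v (word Z w Ω)) →
        inner ℂ ξ p = inner ℂ v p := fun p hp => by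
    refine Submodule.span_induction ?_ ⟨0, by simp⟩ ?_ ?_ hp
    · rintro _ ⟨w, rfl⟩
      exact ⟨w.length + 1, fun v hv => hv w (Nat.lt_succ_self _)⟩
    · rintro p q - - ⟨d, hd⟩ ⟨e, he⟩
      exact ⟨d + e, fun v hv => by
        rw [inner_add_right, inner_add_right, hd v fun w hw => hv w (by omega),
          he v fun w hw => hv w (by omega)]⟩
    · rintro c p - ⟨d, hd⟩
      exact ⟨d, fun v hv => by rw [inner_smul_right, inner_smul_right, hd v hv]⟩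
  have hc : IsClosed {p : H | ‖inner ℂ ξ p‖ ≤ ‖p‖} := isClosed_le (by fun_prop) (by fun_prop)
  have h2 : ‖inner ℂ ξ ((KK Ω Z).starProjection ξ)‖ ≤ ‖(KK Ω Z).starProjection ξ‖ := by
    refine closure_minimal (fun p hp => ?_) hc ((KK Ω Z).starProjection_apply_mem ξ)
    obtain ⟨d, hd⟩ := h1 p hp
    obtain ⟨v, hv, hw⟩ := h d
    rw [Set.mem_ofPred_eq, hd v hw]
    exact (norm_inner_le_norm _ _).trans (mul_le_of_le_one_left (norm_nonneg _) hv)
  have h3 : inner ℂ ξ ((KK Ω Z).starProjection ξ) =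
      inner ℂ ((KK Ω Z).starProjection ξ) ((KK Ω Z).starProjection ξ) := by
    rw [Submodule.inner_starProjection_left_eq_right,
      Submodule.starProjection_eq_self_iff.2 ((KK Ω Z).starProjection_apply_mem ξ)]
  rw [h3, inner_self_eq_norm_sq_to_K, norm_pow, RCLike.norm_ofReal, abs_norm] at h2
  nlinarith [norm_nonneg ((KK Ω Z).starProjection ξ)]

theorem cum {t ρ C : ℝ} {B : Set (H →L[ℂ] H)} (hΩ : ‖Ω‖ = 1)
    (hRZ : ∀ c c', R c * Z c' = Z c' * R c +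
      if c' = c then ((σ c : ℝ) : ℂ) • rankOne ℂ Ω Ω else 0)
    (hRΩ : ∀ c, R c Ω = 0) (hN : ∀ c, star (Z c - a c) Ω = star (R c) Ω)
    (hRR : ∀ c c', R c * star (R c') = if c = c' then ((σ c : ℝ) : ℂ) • 1 else 0)
    (hσ : ∀ c, t ≤ σ c) (ht : 0 < t) (h1 : 1 ∈ B) (hB : ∀ c, ∀ b ∈ B, a c * b ∈ B)
    (hRB : ∀ c, ∀ b ∈ B, R c * b = b * R c)
    (htr : ∀ c, ∀ b ∈ B, ∀ w, tau Ω (b * word Z w * Z c) = tau Ω (Z c * (b * word Z w)))
    (hρ : 0 ≤ ρ) (hm1 : ∀ m, (Lam a)^[m] (fun b => ‖tau Ω b‖ ^ 2) 1 ≤ ρ ^ m)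
    {b : H →L[ℂ] H} (hb : b ∈ B) (hmb : ∀ m, (Lam a)^[m] (fun b => ‖tau Ω b‖ ^ 2) b ≤ C * ρ ^ m)
    (hb0 : tau Ω b = 0) (h40 : 40 * ρ ≤ t) (h80 : 80 * C * ρ ≤ t) :
    ‖(KK Ω Z).starProjection (star b Ω)‖ ≤ 1 := by
  have hS : ∀ c v, sr Z Ω (star (R c) v) = (σ c : ℂ) • (sr Z Ω Ω * (x c * sr Z Ω v)) :=
    fun c v => by
      rw [sr_star hRZ, hRΩ, add_eq_right]
      exact funext fun w => by simp [sr_apply, Ser.zero_apply]
  have hF : ∀ b ∈ B, sr Z Ω (star b Ω) = tau Ω b • 1 + ∑ c, x c * (sr Z Ω (star (a c * b) Ω) +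
      ((σ c : ℂ) • (sr Z Ω Ω * x c)) * sr Z Ω (star b Ω)) := fun b hb => by
    refine (eq_sum _).trans (congrArg₂ _ ?_ (Finset.sum_congr rfl fun c _ => congrArg _ ?_))
    · simp [sr_apply, inner_star_left, tau]
    · rw [smul_mul_assoc, mul_assoc, ← hS, dv_sr]
      funext w
      have e := tau_mul Ω (Z c - a c) (b * word Z w.reverse)
      rw [hN, inner_star_left, ← mul_apply_eq_comp, ← mul_assoc (R c), hRB c b hb, sub_mul, tau_sub,
        ← htr c b hb, sub_eq_iff_eq_add'] at e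
      simpa [Ser.add_apply, sr_apply, inner_star_left, tau] using e
  have hZ := Z_E (F := fun b => sr Z Ω (star b Ω)) h1 hB
    (by rw [tau, one_apply_eq_self, inner_self_eq_norm_sq_to_K, hΩ]; simp) hF
  refine proj_le_of fun d => ⟨Wop Ω a R σ (d + 1) b Ω, ?_, fun w hw => ?_⟩
  · have hW := W_bound ht hσ hRR hρ hm1 h40 d
    have h2 := W_step ht hσ hRR (ρ := ρ)
      (fun u => by simpa [Lam] using hW 1 1 (by simpa using hm1) 1 u) Ω b
    have h3 := hW b C hmb 1 Ω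
    have h4 := hW b C hmb 0 Ω
    simp only [Function.iterate_one, Function.iterate_zero, id, hΩ, hb0] at h2 h3 h4
    have h5 : C * ρ * t⁻¹ ≤ 1 / 80 := by rw [← div_eq_mul_inv, div_le_iff₀ ht]; linarith
    refine (sq_le_one_iff₀ (norm_nonneg _)).1 (h2.trans ?_)
    calc _ ≤ 2 * 1 ^ 2 * ‖(0 : ℂ)‖ ^ 2 + 4 * t⁻¹ * (4 * C * ρ ^ 1 * 1 ^ 2) +
          16 * ρ * t⁻¹ * (4 * C * ρ ^ 0 * 1 ^ 2) := by gcongr
      _ = 80 * (C * ρ * t⁻¹) := by simp; ring
      _ ≤ _ := by linarith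
  · have := hZ (d + 1) b hb w.reverse (by simp; omega)
    simp only [star_one, one_apply_eq_self] at this
    rw [← sr_W (fun c => (ht.trans_le (hσ c)).ne') hS, Ser.sub_apply, sub_eq_zero] at this
    simpa [sr_apply] using this

end Vale.Agent.P087
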