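import Vale.Agent.P087.Fock

/-! # P087: semicircular systems on the Fock space; the trace -/

namespace Vale.Agent.P087

open InnerProductSpace ContinuousLinearMap

variable {H : Type} [NormedAddCommGroup H] [InnerProductSpace ℂ H] [CompleteSpace H]

/-- the vector state as a linear map -/
noncomputable def tauL (Ω : H) : (H →L[ℂ] H) →ₗ[ℂ] ℂ where
  toFun := tau Ω
  map_add' x y := by simp [tau]
  map_smul' c x := by simp [tau]

omit [CompleteSpace H] in
theorem tauL_apply (Ω : H) (x : H →L[ℂ] H) : tauL Ω x = tau Ω x := rfl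
omit [CompleteSpace H] in
theorem tau_add (Ω : H) (x y : H →L[ℂ] H) : tau Ω (x + y) = tau Ω x + tau Ω y :=
  (tauL Ω).map_add x y
omit [CompleteSpace H] in
theorem tau_sub (Ω : H) (x y : H →L[ℂ] H) : tau Ω (x - y) = tau Ω x - tau Ω y :=
  (tauL Ω).map_sub x y
omit [CompleteSpace H] in
theorem tau_smul (Ω : H) (c : ℂ) (x : H →L[ℂ] H) : tau Ω (c • x) = c * tau Ω x :=
  (tauL Ω).map_smul c x
omit [CompleteSpace H] in
@[simp] theorem tau_zero (Ω : H) : tau Ω 0 = 0 := (tauL Ω).map_zero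
omit [CompleteSpace H] in
theorem tau_sum {κ : Type*} (Ω : H) (t : Finset κ) (x : κ → H →L[ℂ] H) :
    tau Ω (∑ i ∈ t, x i) = ∑ i ∈ t, tau Ω (x i) := map_sum (tauL Ω) x t
theorem tau_star_mul (Ω : H) (x y : H →L[ℂ] H) :
    tau Ω (star x * y) = inner ℂ (x Ω) (y Ω) := by
  rw [tau, mul_apply_eq_comp, star_eq_adjoint, adjoint_inner_right]
theorem tau_mul (Ω : H) (x y : H →L[ℂ] H) : tau Ω (x * y) = inner ℂ (star x Ω) (y Ω) := by
  rw [← tau_star_mul, star_star]
theorem tau_star (Ω : H) (x : H →L[ℂ] H) : tau Ω (star x) = starRingEnd ℂ (tau Ω x) := by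
  rw [tau, star_eq_adjoint, adjoint_inner_right, tau, inner_conj_symm]
theorem inner_star_left (x : H →L[ℂ] H) (u v : H) : inner ℂ (star x u) v = inner ℂ u (x v) := by
  rw [star_eq_adjoint, adjoint_inner_left]
theorem inner_star_right (x : H →L[ℂ] H) (u v : H) : inner ℂ u (star x v) = inner ℂ (x u) v := by
  rw [star_eq_adjoint, adjoint_inner_right]

theorem norm_le_one_of {x : H →L[ℂ] H} (h : star x * x = 1) : ‖x‖ ≤ 1 := by
  have h1 := CStarRing.norm_star_mul_self (x := x)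
  have h2 : ‖(1 : H →L[ℂ] H)‖ ≤ 1 := norm_id_le
  rw [h] at h1
  nlinarith [norm_nonneg x]

namespace Fk

variable {L : Type} [DecidableEq L] (F : Fk H L)

/-- vacuum projection -/
noncomputable def P : H →L[ℂ] H := rankOne ℂ F.Ω F.Ω
/-- left semicirculars -/
noncomputable def s (a : L) : H →L[ℂ] H := F.l a + star (F.l a)
/-- right semicirculars -/
noncomputable def d (a : L) : H →L[ℂ] H := F.r a + star (F.r a)

theorem P_apply (v : H) : F.P v = inner ℂ F.Ω v • F.Ω := rankOne_apply _ _ _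
theorem star_P : star F.P = F.P := adjoint_rankOne _ _
theorem inner_Ω : inner ℂ F.Ω F.Ω = 1 := by rw [inner_self_eq_norm_sq_to_K, F.norm_Ω]; simp
theorem tau_one : tau F.Ω 1 = 1 := F.inner_Ω
theorem star_s (a : L) : star (F.s a) = F.s a := by simp [s, add_comm]
theorem star_d (a : L) : star (F.d a) = F.d a := by simp [d, add_comm]
theorem norm_l (a : L) : ‖F.l a‖ ≤ 1 := norm_le_one_of (by simp [F.ll])
theorem norm_r (a : L) : ‖F.r a‖ ≤ 1 := norm_le_one_of (by simp [F.rr])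
theorem norm_s (a : L) : ‖F.s a‖ ≤ 2 :=
  (norm_add_le _ _).trans (by rw [norm_star]; linarith [F.norm_l a])
theorem norm_d (a : L) : ‖F.d a‖ ≤ 2 :=
  (norm_add_le _ _).trans (by rw [norm_star]; linarith [F.norm_r a])
theorem rl' (a b : L) : star (F.r a) * F.l b = F.l b * star (F.r a) + if a = b then F.P else 0 :=
  F.rl a b
theorem lr' (a b : L) : star (F.l a) * F.r b = F.r b * star (F.l a) + if a = b then F.P else 0 := by
  have := congrArg star (F.rl' b a)
  simpa [apply_ite star, F.star_P, eq_comm] using this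
theorem lr'' (a b : L) : star (F.l a) * star (F.r b) = star (F.r b) * star (F.l a) := by
  rw [← star_mul, ← F.lr, star_mul]
theorem rs (a b : L) : star (F.r a) * F.s b = F.s b * star (F.r a) + if a = b then F.P else 0 := by
  rw [s, mul_add, add_mul, rl', lr'']; abel
theorem sr (a b : L) : F.s a * F.r b = F.r b * F.s a + if a = b then F.P else 0 := by
  rw [s, mul_add, add_mul, lr', F.lr]; abel
theorem ld (a b : L) : star (F.l a) * F.d b = F.d b * star (F.l a) + if a = b then F.P else 0 := by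
  rw [d, mul_add, add_mul, lr', lr'']; abel
theorem sd (a b : L) : F.s a * F.d b = F.d b * F.s a := by
  rw [d, mul_add, add_mul, sr, rs, if_congr eq_comm rfl rfl]; abel
theorem sΩ (a : L) : F.s a F.Ω = F.r a F.Ω := by simp [s, F.lΩ, F.lr0]
theorem dΩ (a : L) : F.d a F.Ω = F.s a F.Ω := by simp [d, F.rΩ, sΩ]
theorem norm_sΩ (a : L) : ‖F.s a F.Ω‖ = 1 := by
  have : inner ℂ (F.r a F.Ω) (F.r a F.Ω) = 1 := by
    rw [← tau_star_mul, F.rr, if_pos rfl, tau_one]
  rw [sΩ, norm_eq_sqrt_re_inner (𝕜 := ℂ), this]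
  simp
theorem tau_s_mul (a : L) (x : H →L[ℂ] H) : tau F.Ω (F.s a * x) = tau F.Ω (star (F.r a) * x) := by
  rw [tau_mul, star_s, sΩ, tau_star_mul]
theorem tau_mul_r (a : L) (x : H →L[ℂ] H) : tau F.Ω (x * star (F.r a)) = 0 := by
  simp [tau, F.rΩ]
theorem tau_P (x y : H →L[ℂ] H) : tau F.Ω (x * F.P * y) = tau F.Ω x * tau F.Ω y := by
  simp [tau, P_apply, mul_comm]

/-- the Schwinger–Dyson equation -/
theorem tau_sd {ι : Type*} [DecidableEq ι] {R N : H →L[ℂ] H} (hN : star N F.Ω = star R F.Ω)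
    (hR : R F.Ω = 0) {Z : ι → H →L[ℂ] H} {j : ι} {e : H →L[ℂ] H}
    (h : ∀ c, R * Z c = Z c * R + if c = j then e else 0) (w : List ι) :
    tau F.Ω (N * word Z w) = dsum j w fun g k => tau F.Ω (word Z g * e * word Z k) := by
  have := deriv_word (fun x => R * x - x * R) (by simp) (fun a b => by noncomm_ring)
    (X := Z) (j := j) (e := e) (fun c => by simp [h]) w
  have h2 := congrArg (tauL F.Ω) this
  rw [map_dsum, map_sub] at h2
  simp only [tauL_apply] at h2
  rw [← h2, tau_mul, hN, ← tau_mul]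
  simp [tau, hR]

theorem semiMom {ι : Type*} [DecidableEq ι] {j : ι → L} (hj : Function.Injective j) :
    SemiMom fun w => tau F.Ω (word (fun c => F.s (j c)) w) := by
  refine ⟨F.tau_one, fun c w => ?_⟩
  simp only [word_cons]
  rw [F.tau_sd (R := star (F.r (j c))) (e := F.P) (j := c) (by rw [star_s, star_star, sΩ]) (F.rΩ _)
    fun c' => by simp only [rs, hj.eq_iff, eq_comm]]
  simp only [tau_P]

theorem word_d (w : List L) : word F.d w F.Ω = word F.s w.reverse F.Ω := by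
  induction w with
  | nil => rfl
  | cons a w ih =>
    have : Commute (F.d a) (word F.s w.reverse) :=
      Commute.list_prod_right _ _ fun x hx => by
        obtain ⟨b, -, rfl⟩ := List.mem_map.1 hx
        exact (F.sd b a).symm
    rw [word_cons, mul_apply_eq_comp, ih, ← mul_apply_eq_comp, this.eq, mul_apply_eq_comp, dΩ]
    simp

theorem l_word (a : L) (w : List L) : star (F.l a) (word F.l w F.Ω) =
    match w with
    | [] => 0
    | b :: w' => if a = b then word F.l w' F.Ω else 0 := by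
  cases w with
  | nil => exact F.lΩ a
  | cons b w =>
    rw [word_cons, ← mul_apply_eq_comp, ← mul_assoc, F.ll]
    dsimp only
    split_ifs <;> simp

theorem dense_s : Dense (Submodule.span ℂ (Set.range fun w => word F.s w F.Ω) : Set H) := by
  refine F.dense.mono (Submodule.span_le.2 ?_)
  rintro _ ⟨w, rfl⟩
  have hs : ∀ a, ∀ v ∈ Submodule.span ℂ (Set.range fun w => word F.s w F.Ω),
      F.s a v ∈ Submodule.span ℂ (Set.range fun w => word F.s w F.Ω) := fun a v hv => by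
    refine Submodule.span_induction (fun _ ⟨w, hw⟩ => Submodule.subset_span ⟨a :: w, ?_⟩)
      (by simp) (fun _ _ _ _ h1 h2 => by rw [map_add]; exact add_mem h1 h2)
      (fun c _ _ h => by rw [map_smul]; exact Submodule.smul_mem _ _ h) hv
    simp [← hw]
  induction hn : w.length using Nat.strong_induction_on generalizing w with
  | _ n ih =>
  cases w with
  | nil => exact Submodule.subset_span ⟨[], rfl⟩
  | cons a w =>
    have e : word F.l (a :: w) F.Ω = F.s a (word F.l w F.Ω) - star (F.l a) (word F.l w F.Ω) := by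
      simp [s]
    simp only [e]
    refine sub_mem (hs _ _ (ih _ (by simp [← hn]) w rfl)) ?_
    rw [l_word]
    cases w with
    | nil => exact zero_mem _
    | cons b w =>
      dsimp only
      split_ifs
      · exact ih _ (by simp [← hn]) w rfl
      · exact zero_mem _

/-- the von Neumann algebra generated by the semicircular system -/
noncomputable def M : VonNeumannAlgebra H where
  toStarSubalgebra := StarSubalgebra.centralizer ℂ (StarSubalgebra.centralizer ℂ (Set.range F.s))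
  centralizer_centralizer' := by
    simp only [Subsemiring.coe_carrier_toSubmonoid, Subalgebra.coe_toSubsemiring,
      StarSubalgebra.coe_toSubalgebra]
    rw [StarSubalgebra.coe_centralizer, Set.centralizer_centralizer_centralizer]

theorem smul_mem (c : ℂ) {x : H →L[ℂ] H} (hx : x ∈ F.M) : c • x ∈ F.M :=
  F.M.toStarSubalgebra.smul_mem hx c

theorem s_mem (a : L) : F.s a ∈ F.M := by
  refine (StarSubalgebra.mem_centralizer_iff ℂ).2 fun g hg => ?_
  have h1 := ((StarSubalgebra.mem_centralizer_iff ℂ).1 hg _ ⟨a, rfl⟩).1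
  have h2 := ((StarSubalgebra.mem_centralizer_iff ℂ).1 (star_mem hg) _ ⟨a, rfl⟩).1
  exact ⟨h1.symm, h2.symm⟩

theorem comm_d {x : H →L[ℂ] H} (hx : x ∈ F.M) (a : L) : F.d a * x = x * F.d a :=
  ((StarSubalgebra.mem_centralizer_iff ℂ).1 hx (F.d a)
    ((StarSubalgebra.mem_centralizer_iff ℂ).2 (by
      rintro _ ⟨b, rfl⟩
      rw [star_s]
      exact ⟨F.sd b a, F.sd b a⟩))).1

theorem comm_word_d {x : H →L[ℂ] H} (hx : x ∈ F.M) (w : List L) : Commute (word F.d w) x :=
  Commute.list_prod_left _ _ fun y hy => by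
    obtain ⟨b, -, rfl⟩ := List.mem_map.1 hy
    exact F.comm_d hx b

theorem tr_word {x : H →L[ℂ] H} (hx : x ∈ F.M) (w : List L) :
    tau F.Ω (x * word F.s w) = tau F.Ω (word F.s w * x) := by
  have e := F.word_d w.reverse
  rw [List.reverse_reverse] at e
  rw [tau, mul_apply_eq_comp, ← e, ← mul_apply_eq_comp, ← (F.comm_word_d hx _).eq, ← tau, tau_mul,
    star_word F.star_d, List.reverse_reverse, word_d, tau_mul, star_word F.star_s]

/-- polynomials in the semicirculars -/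
noncomputable def A : Submodule ℂ (H →L[ℂ] H) := Submodule.span ℂ (Set.range (word F.s))

theorem A_le {p : H →L[ℂ] H} (hp : p ∈ F.A) : p ∈ F.M :=
  Submodule.span_induction (fun _ ⟨w, hw⟩ => hw ▸ word_mem F.s_mem w) (zero_mem _)
    (fun _ _ _ _ => add_mem) (fun c _ _ h => F.smul_mem c h) hp

theorem tr_A {x p : H →L[ℂ] H} (hx : x ∈ F.M) (hp : p ∈ F.A) :
    tau F.Ω (x * p) = tau F.Ω (p * x) :=
  Submodule.span_induction (fun _ ⟨w, hw⟩ => hw ▸ F.tr_word hx w) (by simp)
    (fun _ _ _ _ h1 h2 => by rw [mul_add, add_mul, tau_add, tau_add, h1, h2])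
    (fun c _ _ h => by rw [mul_smul_comm, smul_mul_assoc, tau_smul, tau_smul, h]) hp

theorem approx (v : H) {ε : ℝ} (hε : 0 < ε) : ∃ p ∈ F.A, ‖v - p F.Ω‖ < ε := by
  obtain ⟨u, hu, h⟩ := Metric.dense_iff.1 F.dense_s v ε hε
  have : ∃ p ∈ F.A, p F.Ω = u := Submodule.span_induction
    (fun _ ⟨w, hw⟩ => ⟨_, Submodule.subset_span ⟨w, rfl⟩, hw⟩) ⟨0, zero_mem _, rfl⟩
    (fun _ _ _ _ ⟨p, hp, e⟩ ⟨q, hq, e'⟩ => ⟨p + q, add_mem hp hq, by simp [e, e']⟩)
    (fun c _ _ ⟨p, hp, e⟩ => ⟨c • p, Submodule.smul_mem _ _ hp, by simp [e]⟩) h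
  obtain ⟨p, hp, rfl⟩ := this
  exact ⟨p, hp, by rwa [← dist_eq_norm, dist_comm]⟩

theorem norm_star_le {x : H →L[ℂ] H} (hx : x ∈ F.M) : ‖star x F.Ω‖ ≤ ‖x F.Ω‖ := by
  have h1 : ∀ p ∈ F.A, ‖inner ℂ (star x F.Ω) (p F.Ω)‖ ≤ ‖x F.Ω‖ * ‖p F.Ω‖ := fun p hp => by
    have h2 := F.tr_A (star_mem (F.A_le hp)) hp
    rw [tau_star_mul, tau_mul, inner_self_eq_norm_sq_to_K, inner_self_eq_norm_sq_to_K] at h2
    have h3 : ‖p F.Ω‖ = ‖star p F.Ω‖ :=
      (pow_left_inj₀ (norm_nonneg _) (norm_nonneg _) two_ne_zero).1 (by exact_mod_cast h2)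
    rw [← tau_mul, F.tr_A hx hp, tau_mul, h3, mul_comm]
    exact norm_inner_le_norm _ _
  have h2 : ∀ v, ‖inner ℂ (star x F.Ω) v‖ ≤ ‖x F.Ω‖ * ‖v‖ := fun v => by
    have hc : IsClosed {v : H | ‖inner ℂ (star x F.Ω) v‖ ≤ ‖x F.Ω‖ * ‖v‖} :=
      isClosed_le (by fun_prop) (by fun_prop)
    refine closure_minimal (s := {v | ∃ p ∈ F.A, p F.Ω = v})
      (fun _ ⟨p, hp, e⟩ => e ▸ h1 p hp) hc ?_
    refine Metric.mem_closure_iff.2 fun ε hε => ?_
    obtain ⟨p, hp, h⟩ := F.approx v hε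
    exact ⟨_, ⟨p, hp, rfl⟩, by rwa [dist_eq_norm]⟩
  have h3 := h2 (star x F.Ω)
  rw [inner_self_eq_norm_sq_to_K, norm_pow, RCLike.norm_ofReal, abs_norm, pow_two] at h3
  rcases (norm_nonneg (star x F.Ω)).eq_or_lt with h | h
  · rw [← h]; exact norm_nonneg _
  · exact le_of_mul_le_mul_right h3 h

theorem tr {x y : H →L[ℂ] H} (hx : x ∈ F.M) (hy : y ∈ F.M) :
    tau F.Ω (x * y) = tau F.Ω (y * x) := by
  refine eq_of_forall_dist_le fun ε hε => ?_
  obtain ⟨p, hp, h⟩ := F.approx (y F.Ω) (show 0 < ε / (2 * ‖x F.Ω‖ + 1) by positivity)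
  have hq := sub_mem hy (F.A_le hp)
  have e : tau F.Ω (x * y) - tau F.Ω (y * x) = tau F.Ω (x * (y - p)) - tau F.Ω ((y - p) * x) := by
    rw [mul_sub, sub_mul, tau_sub, tau_sub, F.tr_A hx hp]; ring
  have h1 : ‖tau F.Ω (x * (y - p))‖ ≤ ‖x F.Ω‖ * ‖(y - p) F.Ω‖ := by
    rw [tau_mul]
    exact (norm_inner_le_norm _ _).trans (by gcongr; exact F.norm_star_le hx)
  have h2 : ‖tau F.Ω ((y - p) * x)‖ ≤ ‖(y - p) F.Ω‖ * ‖x F.Ω‖ := by
    rw [tau_mul]
    exact (norm_inner_le_norm _ _).trans (by gcongr; exact F.norm_star_le hq)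
  rw [lt_div_iff₀ (by positivity), ← _root_.sub_apply] at h
  rw [dist_eq_norm, e]
  refine (norm_sub_le _ _).trans ?_
  nlinarith [norm_nonneg ((y - p) F.Ω)]

theorem faithful {x : H →L[ℂ] H} (hx : x ∈ F.M) (h : x F.Ω = 0) : x = 0 := by
  refine ContinuousLinearMap.ext_on F.dense_s ?_
  rintro _ ⟨w, rfl⟩
  have e := F.word_d w.reverse
  rw [List.reverse_reverse] at e
  simp only [← e]
  rw [← mul_apply_eq_comp, ← (F.comm_word_d hx _).eq, mul_apply_eq_comp, h]
  simp

theorem isTraceVector : IsTraceVector (F.M : Set (H →L[ℂ] H)) F.Ω :=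
  ⟨F.norm_Ω, fun _ hx _ hy => F.tr hx hy, fun _ hx h => F.faithful hx (by
    rwa [tau_star_mul, inner_self_eq_zero] at h)⟩

end Fk

end Vale.Agent.P087
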