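import Vale.Agent.P087.Words

/-! # P087: the full Fock space, axiomatically, and its construction -/

namespace Vale.Agent.P087

open InnerProductSpace ContinuousLinearMap

/-- left and right creation operators on a full Fock space with vacuum vector `Ω` -/
structure Fk (H : Type) [NormedAddCommGroup H] [InnerProductSpace ℂ H] [CompleteSpace H]
    (L : Type) [DecidableEq L] where
  Ω : H
  l : L → H →L[ℂ] H
  r : L → H →L[ℂ] H
  norm_Ω : ‖Ω‖ = 1
  ll : ∀ a b, star (l a) * l b = if a = b then 1 else 0
  rr : ∀ a b, star (r a) * r b = if a = b then 1 else 0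
  lΩ : ∀ a, star (l a) Ω = 0
  rΩ : ∀ a, star (r a) Ω = 0
  lr0 : ∀ a, l a Ω = r a Ω
  lr : ∀ a b, l a * r b = r b * l a
  rl : ∀ a b, star (r a) * l b = l b * star (r a) + if a = b then rankOne ℂ Ω Ω else 0
  dense : Dense (Submodule.span ℂ (Set.range fun w => word l w Ω) : Set H)

namespace FockC

variable {X : Type}

/-- `ℓ²(X)` -/
abbrev E (X : Type) : Type := lp (fun _ : X => ℂ) 2

theorem summable_sq (ξ : E X) : Summable fun x => ‖ξ x‖ ^ (2 : ENNReal).toReal :=
  (lp.hasSum_norm (by norm_num) ξ).summable

/-- pull-back along an injection -/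
noncomputable def pb (f : X → X) (hf : Function.Injective f) : E X →L[ℂ] E X :=
  LinearMap.mkContinuous
    { toFun := fun ξ => ⟨fun x => ξ (f x), memℓp_gen ((summable_sq ξ).comp_injective hf)⟩
      map_add' := fun _ _ => rfl
      map_smul' := fun _ _ => rfl } 1 fun ξ => by
    rw [one_mul]
    refine lp.norm_le_of_tsum_le (by norm_num) (norm_nonneg _) ?_
    rw [lp.norm_rpow_eq_tsum (by norm_num) ξ]
    exact tsum_comp_le_tsum_of_inj (summable_sq ξ) (fun _ => by positivity) hf

@[simp] theorem pb_apply (f : X → X) (hf : Function.Injective f) (ξ : E X) (x : X) :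
    pb f hf ξ x = ξ (f x) := rfl

variable [DecidableEq X]

/-- basis vectors -/
noncomputable def e (x : X) : E X := lp.single 2 x 1

theorem inner_e (x : X) (ξ : E X) : inner ℂ (e x) ξ = ξ x := by
  rw [e, lp.inner_single_left]; simp

theorem e_apply (x y : X) : e x y = if y = x then 1 else 0 := by
  rw [e, lp.single_apply, Pi.single_apply]

theorem adj_apply (f : X → X) (hf : Function.Injective f) (ξ : E X) (x : X) :
    star (pb f hf) ξ (f x) = ξ x := by
  rw [← inner_e, star_eq_adjoint, adjoint_inner_right, ← inner_e]
  congr 1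
  ext y
  simp only [pb_apply, e_apply, hf.eq_iff]

theorem adj_apply_of (f : X → X) (hf : Function.Injective f) (ξ : E X) {y : X}
    (hy : ∀ x, f x ≠ y) : star (pb f hf) ξ y = 0 := by
  have : pb f hf (e y) = 0 := by
    ext x
    simp only [pb_apply, e_apply, if_neg (hy x)]; rfl
  rw [← inner_e, star_eq_adjoint, adjoint_inner_right, this, inner_zero_left]

theorem adj_e (f : X → X) (hf : Function.Injective f) (x : X) :
    star (pb f hf) (e x) = e (f x) := by
  ext y
  by_cases h : ∃ z, f z = y
  · obtain ⟨z, rfl⟩ := h
    simp only [adj_apply, e_apply, hf.eq_iff]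
  · rw [adj_apply_of f hf _ fun z hz => h ⟨z, hz⟩, e_apply, if_neg fun hz => h ⟨x, hz.symm⟩]

theorem dense_e : Dense (Submodule.span ℂ (Set.range (e : X → E X)) : Set (E X)) := by
  intro ξ
  refine mem_closure_of_tendsto (lp.hasSum_single (by norm_num) ξ)
    (Filter.Eventually.of_forall fun s => Submodule.sum_mem _ fun x _ => ?_)
  have : lp.single 2 x (ξ x) = ξ x • e x := by rw [e, ← lp.single_smul]; simp
  rw [this]
  exact Submodule.smul_mem _ _ (Submodule.subset_span ⟨x, rfl⟩)

variable {L : Type} [DecidableEq L]

/-- left annihilation -/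
noncomputable def la (a : L) : E (List L) →L[ℂ] E (List L) :=
  pb (a :: ·) (List.cons_injective)
/-- right annihilation -/
noncomputable def ra (a : L) : E (List L) →L[ℂ] E (List L) :=
  pb (· ++ [a]) (List.append_left_injective _)

theorem lc_nil (a : L) (ξ : E (List L)) : star (la a) ξ [] = 0 :=
  adj_apply_of _ _ _ fun _ => List.cons_ne_nil _ _
theorem lc_cons (a b : L) (ξ : E (List L)) (w : List L) :
    star (la a) ξ (b :: w) = if b = a then ξ w else 0 := by
  split_ifs with h
  · rw [h]; exact adj_apply (a :: ·) _ ξ w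
  · exact adj_apply_of _ _ _ fun x hx => h (List.cons.inj hx).1.symm
theorem rc_snoc (a b : L) (ξ : E (List L)) (w : List L) :
    star (ra a) ξ (w ++ [b]) = if b = a then ξ w else 0 := by
  split_ifs with h
  · rw [h]; exact adj_apply (· ++ [a]) _ ξ w
  · exact adj_apply_of _ _ _ fun x hx => h (by simpa using (List.append_inj' hx rfl).2.symm)

/-- the full Fock space -/
noncomputable def fk (L : Type) [DecidableEq L] : Fk (E (List L)) L where
  Ω := e []
  l a := star (la a)
  r a := star (ra a)
  norm_Ω := by rw [e, lp.norm_single (by norm_num)]; simp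
  ll a b := by
    ext ξ w
    rw [star_star, mul_apply_eq_comp, la, pb_apply, lc_cons]
    split_ifs <;> rfl
  rr a b := by
    ext ξ w
    rw [star_star, mul_apply_eq_comp, ra, pb_apply, rc_snoc]
    split_ifs <;> rfl
  lΩ a := by
    ext w
    rw [star_star, la, pb_apply, e_apply, if_neg (by simp)]; rfl
  rΩ a := by
    ext w
    rw [star_star, ra, pb_apply, e_apply, if_neg (by simp)]; rfl
  lr0 a := (adj_e _ _ _).trans (adj_e (· ++ [a]) _ []).symm
  lr a b := by
    rw [← star_mul, ← star_mul]
    rfl
  rl a b := by
    ext ξ w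
    have h : ∀ w, (if a = b then rankOne ℂ (e ([] : List L)) (e ([] : List L)) else 0) ξ w =
        if a = b ∧ w = [] then ξ [] else 0 := fun w => by
      by_cases h : a = b
      · simp only [h, if_true, true_and, rankOne_apply, inner_e, lp.coeFn_smul, Pi.smul_apply,
          e_apply, smul_eq_mul, mul_ite, mul_one, mul_zero]
      · simp only [h, if_false, false_and]; rfl
    rw [star_star, _root_.add_apply, lp.coeFn_add, Pi.add_apply, h, mul_apply_eq_comp,
      mul_apply_eq_comp]
    cases w with
    | nil => rw [lc_nil, ra, pb_apply, List.nil_append, lc_cons]; simp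
    | cons c w => rw [lc_cons, ra, pb_apply, List.cons_append, lc_cons, pb_apply]; simp
  dense := by
    have : (fun w => word (fun a => star (la a)) w (e ([] : List L))) = e := by
      funext w
      induction w with
      | nil => rfl
      | cons a w ih => rw [word_cons, mul_apply_eq_comp, ih]; exact adj_e _ _ _
    rw [this]
    exact dense_e

end FockC

end Vale.Agent.P087
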