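import Vale.Agent.P087.FkBasic

/-! # P087: freeness and semicircular moments on the Fock space -/

namespace Vale.Agent.P087

open InnerProductSpace ContinuousLinearMap

variable {H : Type} [NormedAddCommGroup H] [InnerProductSpace ℂ H] [CompleteSpace H]

omit [CompleteSpace H] in
theorem map_closure_span {S : Set H} {K : Submodule ℂ H} (hK : IsClosed (K : Set H))
    (x : H →L[ℂ] H) (h : ∀ v ∈ S, x v ∈ K) {v : H}
    (hv : v ∈ (Submodule.span ℂ S).topologicalClosure) : x v ∈ K :=
  (Submodule.span ℂ S).topologicalClosure_minimal (t := K.comap (x : H →ₗ[ℂ] H))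
    (Submodule.span_le.2 h) (hK.preimage x.continuous) hv

theorem comm_proj {U : Submodule ℂ H} [U.HasOrthogonalProjection] {x : H →L[ℂ] H}
    (hx : star x = x) (h : ∀ v ∈ U, x v ∈ U) : x * U.starProjection = U.starProjection * x := by
  have h1 : U.starProjection * x * U.starProjection = x * U.starProjection := by
    ext v
    exact Submodule.starProjection_eq_self_iff.2 (h _ (U.starProjection_apply_mem v))
  have h2 := congrArg star h1
  have h3 : star U.starProjection = U.starProjection := isSelfAdjoint_starProjection U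
  simp only [star_mul, hx, h3, ← mul_assoc] at h2
  rw [← h1, h2]

theorem wStar_subset {A : Type*} [Mul A] [Star A] {S T : Set A}
    (h : S ∪ star '' S ⊆ T.centralizer.centralizer) : wStar S ⊆ T.centralizer.centralizer := by
  have := Set.centralizer_subset (Set.centralizer_subset h)
  rwa [Set.centralizer_centralizer_centralizer] at this

namespace Fk

variable {L : Type} [DecidableEq L] (F : Fk H L)

/-- closed span of the words satisfying `Q` -/
noncomputable def W (Q : List L → Prop) : Submodule ℂ H :=
  (Submodule.span ℂ ((fun w => word F.l w F.Ω) '' {w | Q w})).topologicalClosure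

theorem W_closed (Q : List L → Prop) : IsClosed (F.W Q : Set H) :=
  Submodule.isClosed_topologicalClosure _
theorem mem_W {Q : List L → Prop} {w : List L} (h : Q w) : word F.l w F.Ω ∈ F.W Q :=
  Submodule.le_topologicalClosure _ (Submodule.subset_span ⟨w, h, rfl⟩)
theorem map_W {Q : List L → Prop} {K : Submodule ℂ H} (hK : IsClosed (K : Set H))
    (x : H →L[ℂ] H) (h : ∀ w, Q w → x (word F.l w F.Ω) ∈ K) {v : H} (hv : v ∈ F.W Q) : x v ∈ K :=
  map_closure_span hK x (by rintro _ ⟨w, hw, rfl⟩; exact h w hw) hv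

theorem inner_l (a : L) (w : List L) : inner ℂ F.Ω (word F.l (a :: w) F.Ω) = 0 := by
  rw [word_cons, mul_apply_eq_comp, ← inner_star_left, F.lΩ, inner_zero_left]

theorem comm_lr (u w : List L) : Commute (word F.l u) (word F.r w) :=
  Commute.list_prod_left _ _ fun y hy => Commute.list_prod_right _ _ fun z hz => by
    obtain ⟨a, -, rfl⟩ := List.mem_map.1 hy
    obtain ⟨b, -, rfl⟩ := List.mem_map.1 hz
    exact F.lr a b

theorem word_r (w : List L) : word F.r w.reverse F.Ω = word F.l w F.Ω := by
  induction w using List.reverseRecOn with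
  | nil => rfl
  | append_singleton w a ih =>
    have := (F.comm_lr w [a]).eq
    simp only [word_cons, word_nil, mul_one] at this
    simp only [List.reverse_append, List.reverse_singleton, List.singleton_append, word_cons,
      word_append, word_nil, mul_one]
    rw [mul_apply_eq_comp, ih, ← mul_apply_eq_comp, ← this, mul_apply_eq_comp, mul_apply_eq_comp,
      F.lr0]

theorem comm_s_r {a b : L} (h : a ≠ b) (u : List L) :
    F.s a * word F.r (u ++ [b]) = word F.r (u ++ [b]) * F.s a := by
  induction u with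
  | nil => simp [sr, h]
  | cons c u ih =>
    have h0 : F.P * word F.r (u ++ [b]) = 0 := by
      ext v
      obtain ⟨e, u', he⟩ : ∃ e u', u ++ [b] = e :: u' := by cases u <;> simp
      rw [he, mul_apply_eq_comp, P_apply, word_cons, mul_apply_eq_comp, ← inner_star_left, F.rΩ]
      simp
    rw [List.cons_append, word_cons, ← mul_assoc, sr, add_mul, mul_assoc, ih, mul_assoc]
    split_ifs
    · rw [h0, add_zero]
    · rw [zero_mul, add_zero]

theorem free_step {T : Set L} {x : H →L[ℂ] H} (hx : x ∈ (F.s '' T).centralizer.centralizer)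
    (h0 : tau F.Ω x = 0) {v : H} (hv : v ∈ F.W fun w => ∀ a ∈ w.head?, a ∉ T) :
    x v ∈ F.W fun w => ∃ a ∈ w.head?, a ∈ T := by
  have h1 : x F.Ω ∈ F.W fun w => ∀ a ∈ w, a ∈ T := by
    have : CompleteSpace (F.W fun w => ∀ a ∈ w, a ∈ T) := (F.W_closed _).completeSpace_coe
    have h2 := hx (F.W fun w => ∀ a ∈ w, a ∈ T).starProjection (by
      rintro _ ⟨a, ha, rfl⟩
      refine comm_proj (F.star_s a) fun v hv => F.map_W (F.W_closed _) _ (fun w hw => ?_) hv
      rw [s, _root_.add_apply, l_word]
      refine add_mem (F.mem_W (w := a :: w) (by simpa using ⟨ha, hw⟩)) ?_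
      cases w with
      | nil => exact zero_mem _
      | cons b w =>
        dsimp only
        split_ifs
        · exact F.mem_W fun c hc => hw c (List.mem_cons_of_mem _ hc)
        · exact zero_mem _)
    have h3 := congrArg (fun y : H →L[ℂ] H => y F.Ω) h2
    simp only [mul_apply_eq_comp] at h3
    have h4 : F.Ω ∈ F.W fun w => ∀ a ∈ w, a ∈ T := F.mem_W (w := []) (by simp)
    rw [Submodule.starProjection_eq_self_iff.2 h4] at h3
    rw [← h3]
    exact Submodule.starProjection_apply_mem _ _
  have h2 : x F.Ω ∈ F.W fun w => ∃ a ∈ w.head?, a ∈ T := by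
    have := F.map_W (F.W_closed fun w => ∃ a ∈ w.head?, a ∈ T) (1 - F.P) (fun w hw => by
      cases w with
      | nil => simp [P_apply, F.norm_Ω]
      | cons a w =>
        rw [_root_.sub_apply, P_apply, inner_l, zero_smul, sub_zero]
        exact F.mem_W (w := a :: w) ⟨a, rfl, hw a (by simp)⟩) h1
    rwa [_root_.sub_apply, P_apply, ← tau, h0, zero_smul, sub_zero] at this
  refine F.map_W (F.W_closed _) x (fun w hw => ?_) hv
  cases w with
  | nil => exact h2
  | cons b w =>
    have h3 := hx (word F.r (b :: w).reverse) (by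
      rintro _ ⟨a, ha, rfl⟩
      rw [List.reverse_cons]
      exact F.comm_s_r (fun e : a = b => hw b rfl (e ▸ ha)) _)
    rw [← word_r, ← mul_apply_eq_comp, ← h3, mul_apply_eq_comp]
    refine F.map_W (F.W_closed _) _ (fun u ⟨a, ha, ha'⟩ => ?_) h2
    rw [← mul_apply_eq_comp, ← (F.comm_lr _ _).eq, mul_apply_eq_comp, word_r, ← mul_apply_eq_comp,
      ← word_append]
    exact F.mem_W ⟨a, by cases u <;> simp_all, ha'⟩

theorem isFree {κ : Type*} (T : κ → Set L) (hT : ∀ i j, i ≠ j → ∀ a ∈ T i, a ∉ T j)
    {𝒜 : κ → Set (H →L[ℂ] H)} (h𝒜 : ∀ i, 𝒜 i ⊆ (F.s '' T i).centralizer.centralizer) :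
    IsFree (tau F.Ω) 𝒜 := by
  have key : ∀ (p : κ × (H →L[ℂ] H)) (l : List (κ × (H →L[ℂ] H))),
      (∀ q ∈ p :: l, q.2 ∈ 𝒜 q.1 ∧ tau F.Ω q.2 = 0) → (p :: l).IsChain (fun p q => p.1 ≠ q.1) →
      ((p :: l).map Prod.snd).prod F.Ω ∈ F.W fun w => ∃ a ∈ w.head?, a ∈ T p.1 := by
    intro p l
    induction l generalizing p with
    | nil =>
      intro h _
      have := h p (by simp)
      simpa using F.free_step (h𝒜 _ this.1) this.2 (F.mem_W (w := []) (by simp))
    | cons q l ih =>
      intro h hc
      have h1 := h p (by simp)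
      rw [List.isChain_cons_cons] at hc
      have h2 := ih q (fun r hr => h r (List.mem_cons_of_mem _ hr)) hc.2
      rw [List.map_cons, List.prod_cons, mul_apply_eq_comp]
      refine F.free_step (h𝒜 _ h1.1) h1.2 ?_
      exact F.map_W (F.W_closed _) 1 (fun w ⟨a, ha, ha'⟩ => F.mem_W fun b hb => by
        rw [Option.mem_unique hb ha]; exact hT _ _ hc.1.symm a ha') h2
  intro l hl h hc
  obtain ⟨p, l, rfl⟩ := List.exists_cons_of_ne_nil hl
  have := F.map_W (K := ⊥) (by simp) F.P (fun w ⟨a, ha, _⟩ => by
    cases w with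
    | nil => simp at ha
    | cons b w => rw [P_apply, inner_l, zero_smul]; exact zero_mem _) (key p l h hc)
  rw [Submodule.mem_bot, P_apply, smul_eq_zero] at this
  refine this.resolve_right fun h0 => ?_
  simpa [h0] using F.norm_Ω

theorem tau_s_pow (a : L) (n : ℕ) : tau F.Ω (F.s a ^ (n + 1)) =
    ∑ i ∈ Finset.range n, tau F.Ω (F.s a ^ i) * tau F.Ω (F.s a ^ (n - 1 - i)) := by
  have e : ∀ n, word (fun _ : Unit => F.s a) (List.replicate n ()) = F.s a ^ n := fun n => by
    simp [word]
  have := (F.semiMom (j := fun _ : Unit => a) fun _ _ _ => rfl).2 () (List.replicate n ())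
  simp only [← List.replicate_succ, dsum, List.length_replicate, List.take_replicate,
    List.drop_replicate, e] at this
  rw [this]
  refine Finset.sum_congr rfl fun i hi => ?_
  rw [Finset.mem_range] at hi
  rw [if_pos (by simp [hi]), min_eq_left hi.le, Nat.sub_sub, add_comm 1]

theorem sum_range_two_mul {B : Type*} [AddCommMonoid B] (f : ℕ → B) (m : ℕ) :
    ∑ i ∈ Finset.range (2 * m), f i = ∑ i ∈ Finset.range m, (f (2 * i) + f (2 * i + 1)) := by
  induction m with
  | zero => simp
  | succ m ih => rw [mul_add, mul_one, Finset.sum_range_succ, Finset.sum_range_succ, ih,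
      Finset.sum_range_succ, add_assoc]

theorem isSemicircular (a : L) : IsSemicircular (tau F.Ω) (F.s a) := by
  refine ⟨F.star_s a, fun k => ?_⟩
  induction k using Nat.strong_induction_on with
  | _ k ih =>
  have h2 : tau F.Ω (F.s a ^ (2 * k + 1)) = 0 := by
    rw [tau_s_pow, sum_range_two_mul]
    refine Finset.sum_eq_zero fun i hi => ?_
    rw [Finset.mem_range] at hi
    rw [show 2 * k - 1 - 2 * i = 2 * (k - 1 - i) + 1 by omega, (ih _ (by omega)).2, (ih _ hi).2]
    simp
  refine ⟨?_, h2⟩
  cases k with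
  | zero => simpa using F.tau_one
  | succ k =>
    rw [show 2 * (k + 1) = 2 * k + 1 + 1 by ring, tau_s_pow, Finset.sum_range_succ,
      sum_range_two_mul, catalan_succ, Nat.cast_sum,
      Fin.sum_univ_eq_sum_range (fun i => ((catalan i * catalan (k - i) : ℕ) : ℂ)),
      Finset.sum_range_succ]
    congr 1
    · refine Finset.sum_congr rfl fun i hi => ?_
      rw [Finset.mem_range] at hi
      rw [show 2 * k + 1 - 1 - 2 * i = 2 * (k - i) by omega, (ih _ (by omega)).1,
        (ih _ (by omega)).1, (ih _ (by omega)).2]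
      simp
    · rw [show 2 * k + 1 - 1 - 2 * k = 2 * 0 by omega, (ih _ (by omega)).1, (ih _ (by omega)).1]
      simp

end Fk

end Vale.Agent.P087
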