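import Vale.Agent.P087.Words

/-! # P087: Gaussian measure on coordinates, Hermitian coordinates, shears.
Plan.  `gm_eq`: `Measure.pi_eq` (or `pi_eq_generateFrom`) on rectangles, `gaussianReal_of_var_ne_zero`,
`integral_fintype_prod_volume_eq_prod` applied to indicators (or induction with `lintegral`).
`rho_eq`: `gaussianPDFReal` unfolded, `Finset.prod_mul_distrib`, `Real.exp_sum`.  `gm_le`: `withDensity_apply'` and `rho ≤ const`.
`sum_sq_herm`: `trace (A * A) = ∑ a b, A a b * A b a`, real part of the term is `(x(a,b)² + x(b,a)²)/2`, `Finset.sum_comm`.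
`shear`: `MeasurableEquiv.piEquivPiSubtypeProd`, `volume_preserving_piEquivPiSubtypeProd`, `MeasurePreserving.skew_product`
with translations `measurePreserving_add_right`. -/

namespace Vale.Agent.P087

open MeasureTheory ProbabilityTheory Filter
open scoped ENNReal NNReal Topology

/-- independent centred Gaussians of variance `1 / k` -/
noncomputable def gm (α : Type) [Fintype α] (k : ℕ) : Measure (α → ℝ) :=
  Measure.pi fun _ => gaussianReal 0 (k : ℝ≥0)⁻¹

instance (α : Type) [Fintype α] (k : ℕ) : IsProbabilityMeasure (gm α k) := by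
  unfold gm; infer_instance

/-- the density of `gm` -/
noncomputable def rho {α : Type} [Fintype α] (k : ℕ) (x : α → ℝ) : ℝ :=
  √(k / (2 * Real.pi)) ^ Fintype.card α * Real.exp (-(k / 2 * ∑ a, x a ^ 2))

theorem Gm_pdf {k : ℕ} (hk : 0 < k) (t : ℝ) :
    gaussianPDFReal 0 (k : ℝ≥0)⁻¹ t = √(k / (2 * Real.pi)) * Real.exp (-(k / 2 * t ^ 2)) := by
  have hk' : (0 : ℝ) < k := by exact_mod_cast hk
  have h1 : (√(2 * Real.pi * (k : ℝ)⁻¹))⁻¹ = √(k / (2 * Real.pi)) := by
    rw [← Real.sqrt_inv]
    congr 1
    field_simp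
  have h2 : -(t - 0) ^ 2 / (2 * (k : ℝ)⁻¹) = -(k / 2 * t ^ 2) := by
    field_simp
    ring
  rw [gaussianPDFReal, NNReal.coe_inv, NNReal.coe_natCast, h1, h2]

theorem Gm_rho_eq {α : Type} [Fintype α] {k : ℕ} (hk : 0 < k) (x : α → ℝ) :
    rho k x = ∏ a, gaussianPDFReal 0 (k : ℝ≥0)⁻¹ (x a) := by
  simp only [Gm_pdf hk, rho, Finset.prod_mul_distrib, Finset.prod_const, Finset.card_univ]
  rw [← Real.exp_sum, Finset.mul_sum, ← Finset.sum_neg_distrib]

theorem Gm_rho_nonneg {α : Type} [Fintype α] (k : ℕ) (x : α → ℝ) : 0 ≤ rho k x := by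
  unfold rho; positivity

theorem gm_eq {α : Type} [Fintype α] {k : ℕ} (hk : 0 < k) :
    gm α k = volume.withDensity fun x => ENNReal.ofReal (rho k x) := by
  have hv : ((k : ℝ≥0)⁻¹) ≠ 0 := inv_ne_zero (by exact_mod_cast hk.ne')
  unfold gm
  refine Measure.pi_eq fun s hs => ?_
  have hS : MeasurableSet (Set.pi Set.univ s) := MeasurableSet.univ_pi hs
  set f : α → ℝ → ℝ := fun a => (s a).indicator (gaussianPDFReal 0 (k : ℝ≥0)⁻¹) with hf
  have hfi : ∀ a, Integrable (f a) := fun a =>
    (integrable_gaussianPDFReal 0 _).indicator (hs a)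
  have hf0 : ∀ a t, 0 ≤ f a t := fun a t =>
    Set.indicator_nonneg (fun u _ => gaussianPDFReal_nonneg _ _ u) t
  have key : ∀ x : α → ℝ, (Set.pi Set.univ s).indicator (fun x => ENNReal.ofReal (rho k x)) x =
      ENNReal.ofReal (∏ a, f a (x a)) := by
    intro x
    by_cases hx : x ∈ Set.pi Set.univ s
    · rw [Set.indicator_of_mem hx, Gm_rho_eq hk]
      congr 1
      exact Finset.prod_congr rfl fun a _ => (Set.indicator_of_mem (hx a trivial) _).symm
    · rw [Set.indicator_of_notMem hx]
      obtain ⟨a, ha⟩ : ∃ a, x a ∉ s a := by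
        by_contra h
        exact hx fun a _ => by_contra fun h' => h ⟨a, h'⟩
      rw [Finset.prod_eq_zero (Finset.mem_univ a) (Set.indicator_of_notMem ha _),
        ENNReal.ofReal_zero]
  rw [withDensity_apply _ hS, ← lintegral_indicator hS]
  simp_rw [key]
  have hI : Integrable (fun x : α → ℝ => ∏ a, f a (x a)) volume := Integrable.fintype_prod hfi
  rw [← ofReal_integral_eq_lintegral_ofReal hI
    (Eventually.of_forall fun x => Finset.prod_nonneg fun a _ => hf0 a _),
    integral_fintype_prod_volume_eq_prod,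
    ENNReal.ofReal_prod_of_nonneg fun a _ => integral_nonneg (hf0 a)]
  refine Finset.prod_congr rfl fun a _ => ?_
  rw [gaussianReal_apply_eq_integral _ hv, hf, integral_indicator (hs a)]

theorem gm_le {α : Type} [Fintype α] {k : ℕ} (hk : 0 < k) (s : Set (α → ℝ)) :
    gm α k s ≤ ENNReal.ofReal (√(k / (2 * Real.pi)) ^ Fintype.card α) * volume s := by
  rw [gm_eq hk, withDensity_apply', ← setLIntegral_const]
  refine lintegral_mono fun x => ENNReal.ofReal_le_ofReal ?_
  unfold rho
  refine mul_le_of_le_one_right (by positivity) (Real.exp_le_one_iff.2 ?_)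
  have : 0 ≤ (k : ℝ) / 2 * ∑ a, x a ^ 2 := by positivity
  linarith

theorem lintegral_rho {α : Type} [Fintype α] {k : ℕ} (hk : 0 < k) :
    ∫⁻ x : α → ℝ, ENNReal.ofReal (rho k x) = 1 := by
  have h : gm α k Set.univ = 1 := measure_univ
  rwa [gm_eq hk, withDensity_apply _ MeasurableSet.univ, Measure.restrict_univ] at h

variable {ι : Type} [Fintype ι] {k : ℕ}

/-- inverse of `herm` -/
def coord (A : ι → Matrix (Fin k) (Fin k) ℂ) (p : ι × Fin k × Fin k) : ℝ :=
  (A p.1 p.2.1 p.2.2).re + (A p.1 p.2.1 p.2.2).im

omit [Fintype ι] in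
theorem herm_isHermitian (x : ι × Fin k × Fin k → ℝ) (j : ι) : (herm x j).IsHermitian := by
  refine Matrix.ext fun a b => ?_
  rw [Matrix.conjTranspose_apply]
  apply Complex.ext <;> simp [herm] <;> ring
omit [Fintype ι] in
theorem herm_coord {A : ι → Matrix (Fin k) (Fin k) ℂ} (h : ∀ j, (A j).IsHermitian) :
    herm (coord A) = A := by
  funext j
  refine Matrix.ext fun a b => ?_
  have e := (h j).apply b a
  have e1 : (A j b a).re = (A j a b).re := by rw [← e]; simp
  have e2 : (A j b a).im = -(A j a b).im := by rw [← e]; simp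
  apply Complex.ext <;> simp [herm, coord, e1, e2] <;> ring
omit [Fintype ι] in
theorem herm_add (x y : ι × Fin k × Fin k → ℝ) : herm (x + y) = herm x + herm y := by
  funext j
  refine Matrix.ext fun a b => ?_
  simp only [herm, Pi.add_apply, Matrix.add_apply, Matrix.of_apply, Complex.ofReal_add]
  ring
omit [Fintype ι] in
theorem herm_neg (x : ι × Fin k × Fin k → ℝ) : herm (-x) = -herm x := by
  funext j
  refine Matrix.ext fun a b => ?_
  simp only [herm, Pi.neg_apply, Matrix.neg_apply, Matrix.of_apply, Complex.ofReal_neg]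
  ring
theorem continuous_herm : Continuous (herm : (ι × Fin k × Fin k → ℝ) → _) := by
  refine continuous_pi fun j => continuous_matrix fun a b => ?_
  simp only [herm, Matrix.of_apply]
  fun_prop
theorem continuous_coord : Continuous (coord : (ι → Matrix (Fin k) (Fin k) ℂ) → _) := by
  refine continuous_pi fun p => ?_
  have h : Continuous fun A : ι → Matrix (Fin k) (Fin k) ℂ => A p.1 p.2.1 p.2.2 :=
    (continuous_apply p.1).matrix_elem p.2.1 p.2.2
  exact (Complex.continuous_re.comp h).add (Complex.continuous_im.comp h)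
theorem sum_sq_herm (x : ι × Fin k × Fin k → ℝ) :
    ∑ a, x a ^ 2 = ∑ j, (herm x j * herm x j).trace.re := by
  rw [Fintype.sum_prod_type]
  refine Finset.sum_congr rfl fun j _ => ?_
  have h : ∀ a b, (herm x j a b * herm x j b a).re = (x (j, a, b) ^ 2 + x (j, b, a) ^ 2) / 2 := by
    intro a b
    simp [herm]
    ring
  simp only [Matrix.trace, Matrix.diag_apply, Matrix.mul_apply, Complex.re_sum, h]
  rw [Fintype.sum_prod_type]
  simp only [add_div, Finset.sum_add_distrib]
  rw [Finset.sum_comm (f := fun a b => x (j, b, a) ^ 2 / 2), ← Finset.sum_add_distrib]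
  refine Finset.sum_congr rfl fun a _ => ?_
  rw [← Finset.sum_add_distrib]
  exact Finset.sum_congr rfl fun b _ => by ring

/-- a shear preserves Lebesgue measure -/
theorem shear {α : Type} [Fintype α] (p : α → Prop) {F : (α → ℝ) → α → ℝ} (hF : Measurable F)
    (h0 : ∀ x a, p a → F x a = 0) (h1 : ∀ x y, (∀ a, p a → x a = y a) → F x = F y) :
    MeasurePreserving (fun x => x + F x) volume volume := by
  classical
  set e := MeasurableEquiv.piEquivPiSubtypeProd (fun _ : α => ℝ) p with he
  have hp : MeasurePreserving e := volume_preserving_piEquivPiSubtypeProd (fun _ : α => ℝ) p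
  set G : ({a // p a} → ℝ) → {a // ¬p a} → ℝ := fun u => (e (F (e.symm (u, 0)))).2 with hG
  have hGm : Measurable G :=
    measurable_snd.comp (e.measurable.comp (hF.comp
      (e.symm.measurable.comp (measurable_id.prodMk measurable_const))))
  have hs : MeasurePreserving (fun q : ({a // p a} → ℝ) × ({a // ¬p a} → ℝ) => (q.1, q.2 + G q.1))
      (volume.prod volume) (volume.prod volume) :=
    (MeasurePreserving.id volume).skew_product (g := fun u v => v + G u)
      (measurable_snd.add (hGm.comp measurable_fst))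
      (Eventually.of_forall fun u => (measurePreserving_add_right volume (G u)).map_eq)
  have hc := (hp.symm e).comp (hs.comp hp)
  have hfun : (fun x => x + F x) = e.symm ∘
      (fun q : ({a // p a} → ℝ) × ({a // ¬p a} → ℝ) => (q.1, q.2 + G q.1)) ∘ e := by
    funext x
    apply e.injective
    simp only [Function.comp_apply, MeasurableEquiv.apply_symm_apply]
    have hx : F (e.symm ((e x).1, 0)) = F x := by
      refine h1 _ _ fun a ha => ?_
      simp [he, MeasurableEquiv.piEquivPiSubtypeProd, Equiv.piEquivPiSubtypeProd, ha]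
    refine Prod.ext ?_ ?_
    · funext a
      show x a + F x a = x a
      rw [h0 x a a.2, add_zero]
    · funext a
      show x a + F x a = x a + G (e x).1 a
      rw [hG]
      show x a + F x a = x a + F (e.symm ((e x).1, 0)) a
      rw [hx]
  rw [hfun]
  exact hc

/-- the shears used below: add `± pp (herm x)` -/
theorem shear_pp {κ : Type} [Fintype κ] (σ : ℝ) :
    MeasurePreserving (fun x : Ix κ × Fin k × Fin k → ℝ => x + σ • coord (pp (herm x)))
      volume volume := by
  have hpp : Continuous (pp : (Ix κ → Matrix (Fin k) (Fin k) ℂ) → _) := by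
    refine continuous_pi fun c => ?_
    rcases c with y | ⟨_ | _, q⟩
    · exact continuous_const
    · simp only [pp, m1, m2]
      fun_prop
    · simp only [pp, m1, m2]
      fun_prop
  refine shear (fun a : Ix κ × Fin k × Fin k => a.1.isLeft = true)
    (F := fun x => σ • coord (pp (herm x))) ?_ ?_ ?_
  · exact ((continuous_coord.comp (hpp.comp continuous_herm)).const_smul σ).measurable
  · rintro x ⟨y | y, a, b⟩ ha
    · simp [coord, pp]
    · simp at ha
  · intro x y h
    have : pp (herm x) = pp (herm y) := by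
      refine pp_congr fun z => Matrix.ext fun a b => ?_
      simp only [herm, Matrix.of_apply]
      rw [h (.inl z, a, b) rfl, h (.inl z, b, a) rfl]
    simp only [this]

end Vale.Agent.P087
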