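import Vale.Agent.P087.GueA

/-! # P087: asymptotic freeness of independent GUE matrices (convergence of moments in probability).
Plan.  Work in `R = MvPolynomial α ℂ`, `α = ι × Fin k × Fin k`, with the linear functional
`E p = ∫ x, MvPolynomial.eval (fun a => (x a : ℂ)) p ∂gm` (polynomials are integrable: monomials, `Integrable.fintype_prod`).
Gaussian integration by parts `E (X a * p) = (1/k) E (pderiv a p)` (monomials, `integral_fintype_prod_eq_prod`, one-dimensional
moments `∫ x^(n+1) = n v ∫ x^(n-1)`).  Let `G j : Matrix (Fin k) (Fin k) R` be the generic `herm`; then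
`E (G j a b * p) = (1/k) E (D j a b p)` with the derivation `D j a b = ((1+I) ∂_(j,a,b) + (1-I) ∂_(j,b,a))/2`, and
`(G j').map (D j a b) = if j' = j then Matrix.single b a 1 else 0`; use `deriv_word` for `A ↦ A.map (D j a b)`.
With `t w = k⁻¹ trace (word G w)` and `Δ j w Q = k⁻¹ • ∑ a b, word G w b a * D j a b Q` (a derivation in `Q`, `Δ j w (t w') = k⁻² dsum j w' (t (w ++ h ++ g))`):
`E (t (j :: w) * Q) = dsum j w (E (t g * t h * Q)) + k⁻¹ E (Δ j w Q)`.  Induction on the total length of a list `L` of words:
`E (∏ t) → ∏ m` (inner induction on `L` for `t []  = 1` and, with an extra factor list, for the convergence of `k² E (Δ (∏ L) * ∏ L₀)`).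
Finally `‖tr - m w‖² = (tr - m w) * conj (tr - m w)`, `conj (tr w) = tr w.reverse` (`star_word`, `herm_isHermitian`), and
`conj (m w) = m w.reverse` (limit of the same identity); Chebyshev / Markov (`meas_ge_le_lintegral_div` or `mul_meas_ge_le_integral_of_nonneg`). -/

namespace Vale.Agent.P087

open MeasureTheory ProbabilityTheory Filter MvPolynomial
open scoped ENNReal NNReal Topology

section
variable {ι : Type} [Fintype ι] [DecidableEq ι]

/-- the polynomial ring of the coordinates -/
abbrev GueR (ι : Type) (k : ℕ) : Type := MvPolynomial (ι × Fin k × Fin k) ℂ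

/-- the generic Hermitian matrices -/
noncomputable def GueG (k : ℕ) (j : ι) : Matrix (Fin k) (Fin k) (GueR ι k) :=
  Matrix.of fun a b =>
    ((1 + Complex.I) / 2) • X (j, a, b) + ((1 - Complex.I) / 2) • X (j, b, a)

/-- the derivations dual to the matrix entries -/
noncomputable def GueD {k : ℕ} (j : ι) (a b : Fin k) : Derivation ℂ (GueR ι k) (GueR ι k) :=
  ((1 + Complex.I) / 2) • pderiv (j, a, b) + ((1 - Complex.I) / 2) • pderiv (j, b, a)

omit [Fintype ι] [DecidableEq ι] in
theorem GueD_apply {k : ℕ} (j : ι) (a b : Fin k) (p : GueR ι k) :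
    GueD j a b p = ((1 + Complex.I) / 2) • pderiv (j, a, b) p +
      ((1 - Complex.I) / 2) • pderiv (j, b, a) p := rfl

theorem GueE_G_mul (k : ℕ) (j : ι) (a b : Fin k) (p : GueR ι k) :
    GueE _ k (GueG k j a b * p) = (k : ℂ)⁻¹ * GueE _ k (GueD j a b p) := by
  simp only [GueG, Matrix.of_apply, add_mul, smul_mul_assoc, map_add, map_smul, GueE_X_mul,
    GueD_apply, smul_eq_mul]
  ring

omit [Fintype ι] in
theorem GueD_G {k : ℕ} (j j' : ι) (a b : Fin k) :
    (GueG k j').map (GueD j a b) = if j' = j then Matrix.single b a 1 else 0 := by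
  ext1 c d
  have h1 : (1 + Complex.I) / 2 * ((1 + Complex.I) / 2) = Complex.I / 2 := by
    linear_combination (1 / 4 : ℂ) * Complex.I_mul_I
  have h2 : (1 - Complex.I) / 2 * ((1 - Complex.I) / 2) = -(Complex.I / 2) := by
    linear_combination (1 / 4 : ℂ) * Complex.I_mul_I
  have h3 : (1 + Complex.I) / 2 * ((1 - Complex.I) / 2) = 1 / 2 := by
    linear_combination (-1 / 4 : ℂ) * Complex.I_mul_I
  have h4 : (1 - Complex.I) / 2 * ((1 + Complex.I) / 2) = 1 / 2 := by
    linear_combination (-1 / 4 : ℂ) * Complex.I_mul_I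
  have e1 : (pderiv (j, b, a) (X (j', d, c)) : GueR ι k) = pderiv (j, a, b) (X (j', c, d)) := by
    simp only [pderiv_X, Pi.single_apply, Prod.mk.injEq, and_comm]
  have e2 : (pderiv (j, b, a) (X (j', c, d)) : GueR ι k) = pderiv (j, a, b) (X (j', d, c)) := by
    simp only [pderiv_X, Pi.single_apply, Prod.mk.injEq, and_comm]
  have e3 : (pderiv (j, a, b) (X (j', d, c)) : GueR ι k) =
      (if j' = j then Matrix.single b a 1 else 0 : Matrix _ _ (GueR ι k)) c d := by
    simp only [pderiv_X, Pi.single_apply, Prod.mk.injEq]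
    by_cases hj : j' = j
    · simp [hj, Matrix.single_apply, and_comm, eq_comm]
    · simp [hj]
  simp only [Matrix.map_apply, GueG, Matrix.of_apply, map_add, GueD_apply, Derivation.map_smul,
    smul_add, smul_smul, h1, h2, h3, h4, e1, e2, ← e3]
  module

omit [Fintype ι] in
theorem GueD_word {k : ℕ} (j : ι) (a b : Fin k) (w : List ι) :
    (word (GueG k) w).map (GueD j a b) =
      dsum j w fun g h => word (GueG k) g * Matrix.single b a 1 * word (GueG k) h := by
  refine deriv_word (fun A : Matrix (Fin k) (Fin k) (GueR ι k) => A.map (GueD j a b)) ?_ ?_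
    (fun c => GueD_G j c a b) w
  · ext1 c d
    simp only [Matrix.map_apply, Matrix.one_apply]
    split_ifs <;> simp
  · intro A B
    ext1 c d
    simp only [Matrix.map_apply, Matrix.mul_apply, Matrix.add_apply, map_sum, Derivation.leibniz,
      smul_eq_mul, ← Finset.sum_add_distrib]
    exact Finset.sum_congr rfl fun _ _ => by ring

/-- normalised traces of words -/
noncomputable def GueT (k : ℕ) (w : List ι) : GueR ι k := (k : ℂ)⁻¹ • (word (GueG k) w).trace

/-- the second order operator -/
noncomputable def GueL (k : ℕ) (j : ι) (w : List ι) (Q : GueR ι k) : GueR ι k :=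
  ∑ a, ∑ b, word (GueG k) w b a * GueD j a b Q

omit [Fintype ι] [DecidableEq ι] in
theorem GueL_one (k : ℕ) (j : ι) (w : List ι) : GueL k j w 1 = 0 := by simp [GueL]

omit [Fintype ι] [DecidableEq ι] in
theorem GueL_mul (k : ℕ) (j : ι) (w : List ι) (P Q : GueR ι k) :
    GueL k j w (P * Q) = GueL k j w P * Q + P * GueL k j w Q := by
  simp only [GueL, Derivation.leibniz, smul_eq_mul, Finset.sum_mul, Finset.mul_sum,
    ← Finset.sum_add_distrib]
  exact Finset.sum_congr rfl fun _ _ => Finset.sum_congr rfl fun _ _ => by ring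

omit [Fintype ι] in
theorem Gue_dsum_mul {B : Type} [Ring B] (j : ι) (w : List ι) (F : List ι → List ι → B) (Q : B) :
    dsum j w F * Q = dsum j w fun g h => F g h * Q :=
  map_dsum (AddMonoidHom.mulRight Q) j w F

omit [Fintype ι] in
theorem Gue_mul_dsum {B : Type} [Ring B] (j : ι) (w : List ι) (F : List ι → List ι → B) (Q : B) :
    Q * dsum j w F = dsum j w fun g h => Q * F g h :=
  map_dsum (AddMonoidHom.mulLeft Q) j w F

omit [Fintype ι] in
theorem GueD_word_apply {k : ℕ} (j : ι) (a b c d : Fin k) (w : List ι) :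
    GueD j a b (word (GueG k) w c d) =
      dsum j w fun g h => word (GueG k) g c b * word (GueG k) h a d := by
  have h := congrArg (Matrix.entryAddMonoidHom (GueR ι k) c d) (GueD_word j a b w)
  rw [map_dsum] at h
  refine h.trans (dsum_congr fun g h _ => ?_)
  simp [Matrix.mul_apply, Matrix.single_apply, ite_and]

omit [Fintype ι] in
theorem GueL_T (k : ℕ) (j : ι) (w w' : List ι) :
    GueL k j w (GueT k w') = dsum j w' fun g h => GueT k (w ++ h ++ g) := by
  have e1 : ∀ (F : List ι → List ι → GueR ι k), (dsum j w' fun g h => (k : ℂ)⁻¹ • F g h) =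
      (k : ℂ)⁻¹ • dsum j w' F := fun F =>
    (map_dsum (DistribSMul.toAddMonoidHom (GueR ι k) (k : ℂ)⁻¹) j w' F).symm
  simp only [GueT]
  rw [e1]
  simp only [GueL, Derivation.map_smul, Matrix.trace, Matrix.diag_apply, map_sum,
    GueD_word_apply, mul_smul_comm, ← Finset.smul_sum, Finset.mul_sum, Gue_mul_dsum, ← dsum_sum]
  congr 1
  refine dsum_congr fun g h _ => ?_
  simp only [word_append, Matrix.mul_apply, Finset.sum_mul]
  rw [Finset.sum_comm]
  refine Finset.sum_congr rfl fun b _ => ?_
  rw [Finset.sum_comm]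
  exact Finset.sum_congr rfl fun _ _ => Finset.sum_congr rfl fun _ _ => by ring

theorem GueE_T_cons (k : ℕ) (j : ι) (w : List ι) (Q : GueR ι k) :
    GueE _ k (GueT k (j :: w) * Q) = (dsum j w fun g h => GueE _ k (GueT k g * GueT k h * Q)) +
      (k : ℂ)⁻¹ ^ 2 * GueE _ k (GueL k j w Q) := by
  have e1 : GueT k (j :: w) * Q =
      (k : ℂ)⁻¹ • ∑ a, ∑ b, GueG k j a b * (word (GueG k) w b a * Q) := by
    simp only [GueT, word_cons, Matrix.trace, Matrix.diag_apply, Matrix.mul_apply, smul_mul_assoc,
      Finset.sum_mul, mul_assoc]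
  have e2 : (dsum j w fun g h => GueE _ k (GueT k g * GueT k h * Q)) =
      (k : ℂ)⁻¹ ^ 2 * GueE _ k (∑ a, ∑ b, GueD j a b (word (GueG k) w b a) * Q) := by
    simp only [GueD_word_apply, Gue_dsum_mul, ← dsum_sum]
    rw [map_dsum, Gue_mul_dsum]
    refine dsum_congr fun g h _ => ?_
    rw [← smul_eq_mul ((k : ℂ)⁻¹ ^ 2), ← map_smul]
    congr 1
    simp only [GueT, Matrix.trace, Matrix.diag_apply, smul_mul_assoc, mul_smul_comm, smul_smul,
      Finset.sum_mul, Finset.mul_sum, sq, ← Finset.smul_sum]
  rw [e1, e2, ← mul_add, ← map_add, map_smul, smul_eq_mul, sq, mul_assoc]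
  congr 1
  simp only [GueL, map_sum, GueE_G_mul, Derivation.leibniz, smul_eq_mul, map_add, Finset.mul_sum,
    ← Finset.sum_add_distrib, mul_add]
  exact Finset.sum_congr rfl fun _ _ => Finset.sum_congr rfl fun _ _ => by
    rw [add_comm, mul_comm Q]

omit [Fintype ι] in
theorem Gue_tendsto_dsum {j : ι} {w : List ι} {F : ℕ → List ι → List ι → ℂ}
    {G : List ι → List ι → ℂ}
    (h : ∀ g k, w = g ++ j :: k → Tendsto (fun n => F n g k) atTop (𝓝 (G g k))) :
    Tendsto (fun n => dsum j w (F n)) atTop (𝓝 (dsum j w G)) := by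
  induction w generalizing F G with
  | nil => simp
  | cons c w ih =>
    simp only [dsum_cons]
    refine Tendsto.add ?_ (ih fun g k e => h (c :: g) k (by rw [e]; rfl))
    split_ifs with e
    · exact h [] w (by rw [e]; rfl)
    · exact tendsto_const_nhds

/-- products of normalised traces -/
noncomputable def GueP (k : ℕ) (L : List (List ι)) : GueR ι k := (L.map (GueT k)).prod

theorem Gue_second {m : List ι → ℂ} {n : ℕ}
    (ih : ∀ L : List (List ι), (L.map List.length).sum < n →
      Tendsto (fun k => GueE _ k (GueP k L)) atTop (𝓝 (L.map m).prod))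
    (j : ι) (w : List ι) (L L₀ : List (List ι))
    (hL : w.length + (L.map List.length).sum + (L₀.map List.length).sum ≤ n) :
    ∃ c, Tendsto (fun k => GueE _ k (GueL k j w (GueP k L) * GueP k L₀)) atTop (𝓝 c) := by
  induction L generalizing L₀ with
  | nil => exact ⟨0, by simp [GueP, GueL_one]⟩
  | cons w' L ihL =>
    simp only [List.map_cons, List.sum_cons] at hL
    obtain ⟨c, hc⟩ := ihL (w' :: L₀) (by simp only [List.map_cons, List.sum_cons]; omega)
    have h1 := Gue_tendsto_dsum (j := j) (w := w')
      (F := fun k g h => GueE _ k (GueP k ((w ++ h ++ g) :: (L ++ L₀))))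
      (G := fun g h => (((w ++ h ++ g) :: (L ++ L₀)).map m).prod) fun g h e => ih _ (by
        have := congrArg List.length e
        simp only [List.map_cons, List.sum_cons, List.length_append, List.length_cons,
          List.map_append, List.sum_append] at this ⊢
        omega)
    refine ⟨_, (h1.add hc).congr fun k => ?_⟩
    rw [← map_dsum, ← map_add]
    congr 1
    simp only [GueP, List.map_cons, List.prod_cons, List.map_append, List.prod_append, GueL_mul,
      GueL_T, add_mul, Gue_dsum_mul, mul_assoc]
    congr 1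
    ring

theorem Gue_prod {m : List ι → ℂ} (hm : SemiMom m) (L : List (List ι)) :
    Tendsto (fun k => GueE _ k (GueP k L)) atTop (𝓝 (L.map m).prod) := by
  suffices h : ∀ n (L : List (List ι)), (L.map List.length).sum < n →
      Tendsto (fun k => GueE _ k (GueP k L)) atTop (𝓝 (L.map m).prod) from
    h _ L (Nat.lt_succ_self _)
  intro n
  induction n with
  | zero => intro L h; omega
  | succ n ih =>
    intro L
    induction L with
    | nil => intro _; simp [GueP, GueE_one]
    | cons w L ihL =>
      intro hL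
      simp only [List.map_cons, List.sum_cons] at hL
      rcases w with _ | ⟨j, w⟩
      · rw [List.map_cons, List.prod_cons, hm.1, one_mul]
        refine (ihL (by omega)).congr' ?_
        filter_upwards [eventually_gt_atTop 0] with k hk
        have : GueT k ([] : List ι) = 1 := by
          have hk' : (k : ℂ) ≠ 0 := by exact_mod_cast hk.ne'
          rw [GueT, word_nil, Matrix.trace_one, Fintype.card_fin, ← map_natCast (C : ℂ →+* _),
            C_eq_smul_one, smul_smul, inv_mul_cancel₀ hk', one_smul]
        simp [GueP, this]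
      · simp only [List.length_cons] at hL
        obtain ⟨c, hc⟩ := Gue_second ih j w L [] (by simp only [List.map_nil, List.sum_nil]; omega)
        have h1 := Gue_tendsto_dsum (j := j) (w := w)
          (F := fun k g h => GueE _ k (GueP k (g :: h :: L)))
          (G := fun g h => ((g :: h :: L).map m).prod) fun g h e => ih _ (by
            have := congrArg List.length e
            simp only [List.map_cons, List.sum_cons, List.length_append,
              List.length_cons] at this ⊢
            omega)
        have h2 : Tendsto (fun k : ℕ => (k : ℂ)⁻¹ ^ 2) atTop (𝓝 0) := by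
          simpa using (tendsto_inv_atTop_nhds_zero_nat (𝕜 := ℂ)).pow 2
        have h3 := h1.add (h2.mul hc)
        rw [zero_mul, add_zero] at h3
        have e : ((j :: w) :: L |>.map m).prod =
            dsum j w fun g h => ((g :: h :: L).map m).prod := by
          simp only [List.map_cons, List.prod_cons, hm.2, Gue_dsum_mul, mul_assoc]
        rw [e]
        refine h3.congr fun k => ?_
        simp only [GueP, List.map_cons, List.prod_cons, List.map_nil, List.prod_nil, mul_one,
          GueE_T_cons, mul_assoc]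

omit [Fintype ι] [DecidableEq ι] in
theorem GueEv_T {k : ℕ} (x : ι × Fin k × Fin k → ℝ) (w : List ι) :
    GueEv x (GueT k w) = (word (herm x) w).trace / k := by
  have h1 : (fun c => (GueEv x).mapMatrix (GueG k c)) = herm x := by
    funext c
    ext a b
    simp [GueG, herm, GueEv, smul_eval]
    ring
  have h2 := map_word (GueEv x).mapMatrix (GueG k) w
  rw [h1] at h2
  rw [← h2, GueT, GueEv, smul_eval, AddMonoidHom.map_trace, div_eq_inv_mul]
  rfl

theorem Gue_var {m : List ι → ℂ} (hm : SemiMom m) (w : List ι) :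
    Tendsto (fun k : ℕ => ∫ x, ‖(word (herm x) w).trace / k - m w‖ ^ 2 ∂gm (ι × Fin k × Fin k) k)
      atTop (𝓝 0) ∧ ∀ k : ℕ,
      Integrable (fun x => ‖(word (herm x) w).trace / k - m w‖ ^ 2) (gm (ι × Fin k × Fin k) k) := by
  let p : ∀ k, GueR ι k := fun k => GueP k [w, w.reverse] - star (m w) • GueP k [w] -
    m w • GueP k [w.reverse] + (m w * star (m w)) • 1
  have hp : ∀ (k : ℕ) (x : ι × Fin k × Fin k → ℝ),
      GueEv x (p k) = ((‖(word (herm x) w).trace / k - m w‖ ^ 2 : ℝ) : ℂ) := by
    intro k x
    have h1 : star ((word (herm x) w).trace / k) = (word (herm x) w.reverse).trace / k := by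
      rw [← star_word fun c => herm_isHermitian x c, Matrix.star_eq_conjTranspose,
        Matrix.trace_conjTranspose, star_div₀, star_natCast]
    have h2 : ∀ (c : ℂ) (q : GueR ι k), GueEv x (c • q) = c * GueEv x q := fun c q => by
      rw [GueEv, smul_eval]
    rw [Complex.ofReal_pow, ← Complex.mul_conj']
    simp only [p, GueP, List.map_cons, List.prod_cons, List.map_nil, List.prod_nil, mul_one,
      map_add, map_sub, map_mul, h2, GueEv_T, map_one, ← h1, starRingEnd_apply]
    ring
  constructor
  · have h1 := (((Gue_prod hm [w, w.reverse]).sub ((Gue_prod hm [w]).const_mul (star (m w)))).sub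
      ((Gue_prod hm [w.reverse]).const_mul (m w))).add_const (m w * star (m w))
    have h2 : Tendsto (fun k => GueE _ k (p k)) atTop (𝓝 0) := by
      convert h1 using 2
      · simp only [p, map_add, map_sub, map_smul, GueE_one, smul_eq_mul, mul_one]
      · simp only [List.map_cons, List.prod_cons, List.map_nil, List.prod_nil]
        ring
    simp only [GueE_apply, hp, integral_complex_ofReal] at h2
    exact (Complex.continuous_re.tendsto 0).comp h2
  · intro k
    have := (GueEv_int k (p k)).re
    simpa only [hp, RCLike.re_to_complex, Complex.ofReal_re] using this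

end

theorem gue_moment {ι : Type} [Fintype ι] [DecidableEq ι] {m : List ι → ℂ} (hm : SemiMom m)
    (w : List ι) {ε : ℝ} (hε : 0 < ε) :
    Tendsto (fun k : ℕ => gm (ι × Fin k × Fin k) k
      {x | ε ≤ ‖(word (herm x) w).trace / k - m w‖}) atTop (𝓝 0) := by
  obtain ⟨h1, h2⟩ := Gue_var hm w
  have h3 := ENNReal.tendsto_ofReal (h1.div_const (ε ^ 2))
  rw [zero_div, ENNReal.ofReal_zero] at h3
  refine tendsto_of_tendsto_of_tendsto_of_le_of_le tendsto_const_nhds h3 (fun _ => zero_le)
    fun k => ?_
  have h4 := mul_meas_ge_le_integral_of_nonneg (ae_of_all _ fun x => by positivity) (h2 k) (ε ^ 2)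
  refine le_trans (measure_mono (t := {x | ε ^ 2 ≤ ‖(word (herm x) w).trace / k - m w‖ ^ 2})
    fun x hx => Set.mem_ofPred_eq.symm ▸ pow_le_pow_left₀ hε.le hx 2) ?_
  rw [← ofReal_measureReal]
  refine ENNReal.ofReal_le_ofReal ?_
  rw [le_div_iff₀ (by positivity), mul_comm]
  exact h4

end Vale.Agent.P087
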