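import Vale.Agent.P087.Gm

/-! # P087: Gaussian integration by parts for polynomials. -/

namespace Vale.Agent.P087

open MeasureTheory ProbabilityTheory Filter MvPolynomial
open scoped ENNReal NNReal Topology

theorem Gue_mom (v : ℝ≥0) (n : ℕ) :
    ∫ x, x ^ (n + 1) ∂gaussianReal 0 v = v * n * ∫ x, x ^ (n - 1) ∂gaussianReal 0 v := by
  have h0 : (0 : ℝ) ∈ interior (integrableExpSet (fun x : ℝ => x) (gaussianReal 0 v)) := by simp
  have h1 : ∀ n : ℕ, ∫ x, x ^ n ∂gaussianReal 0 v =
      iteratedDeriv n (fun t : ℝ => Real.exp (0 * t + v * t ^ 2 / 2)) 0 := by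
    intro n
    rw [← mgf_fun_id_gaussianReal, iteratedDeriv_mgf_zero h0]
    rfl
  set f : ℝ → ℝ := fun t => Real.exp (0 * t + v * t ^ 2 / 2) with hf
  have hc : ∀ n : ℕ, ContDiffAt ℝ n f 0 := fun n => by
    rw [hf]
    fun_prop
  have hd : deriv f = fun t => t * ((v : ℝ) * f t) := by
    funext t
    have : HasDerivAt (fun t : ℝ => 0 * t + v * t ^ 2 / 2) (v * t) t := by
      have := ((hasDerivAt_id t).const_mul 0).add
        (((hasDerivAt_pow 2 t).const_mul (v : ℝ)).div_const 2)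
      exact this.congr_deriv (by push_cast; ring)
    rw [hf, this.exp.deriv]
    ring
  rw [h1, h1, iteratedDeriv_succ', hd, iteratedDeriv_fun_mul (by fun_prop) (by fun_prop)]
  simp only [iteratedDeriv_fun_id_zero]
  rcases n with _ | n
  · simp
  · rw [Finset.sum_eq_single 1]
    · rw [iteratedDeriv_const_mul _ (hc _)]
      simp
      ring
    · intro i _ hi
      simp [hi]
    · intro h
      simp at h

theorem Gue_int_pow (v : ℝ≥0) (n : ℕ) :
    Integrable (fun x : ℝ => (x : ℂ) ^ n) (gaussianReal 0 v) := by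
  have h0 : (0 : ℝ) ∈ interior (integrableExpSet (fun x : ℝ => x) (gaussianReal 0 v)) := by simp
  have := (integrable_pow_of_mem_interior_integrableExpSet h0 n).ofReal (𝕜 := ℂ)
  simpa using this

theorem Gue_momC (v : ℝ≥0) (n : ℕ) :
    ∫ x : ℝ, (x : ℂ) ^ (n + 1) ∂gaussianReal 0 v =
      ((v : ℝ) : ℂ) * n * ∫ x : ℝ, (x : ℂ) ^ (n - 1) ∂gaussianReal 0 v := by
  simp only [← Complex.ofReal_pow, integral_complex_ofReal]
  rw [Gue_mom]
  push_cast
  rfl

variable {α : Type} [Fintype α]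

/-- evaluation at a real point -/
noncomputable def GueEv (x : α → ℝ) : MvPolynomial α ℂ →+* ℂ := eval fun a => (x a : ℂ)

theorem GueEv_monomial (x : α → ℝ) (s : α →₀ ℕ) (c : ℂ) :
    GueEv x (monomial s c) = c * ∏ a, (x a : ℂ) ^ s a := by
  rw [GueEv, eval_monomial, Finsupp.prod_fintype _ _ (by simp)]

theorem GueEv_int (k : ℕ) (p : MvPolynomial α ℂ) : Integrable (fun x => GueEv x p) (gm α k) := by
  induction p using MvPolynomial.induction_on' with
  | monomial s c =>
    simp only [GueEv_monomial]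
    exact (Integrable.fintype_prod (f := fun a (t : ℝ) => (t : ℂ) ^ s a)
      fun a => Gue_int_pow _ _).const_mul c
  | add p q hp hq =>
    simp only [map_add]
    exact hp.add hq

/-- the Gaussian expectation -/
noncomputable def GueE (α : Type) [Fintype α] (k : ℕ) : MvPolynomial α ℂ →ₗ[ℂ] ℂ where
  toFun p := ∫ x, GueEv x p ∂gm α k
  map_add' p q := by
    simp only [map_add]
    exact integral_add (GueEv_int k p) (GueEv_int k q)
  map_smul' c p := by
    simp only [GueEv, smul_eval, RingHom.id_apply, smul_eq_mul]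
    exact integral_const_mul _ _

theorem GueE_apply (k : ℕ) (p : MvPolynomial α ℂ) : GueE α k p = ∫ x, GueEv x p ∂gm α k := rfl

theorem GueE_one (k : ℕ) : GueE α k 1 = 1 := by simp [GueE_apply]

theorem GueE_monomial (k : ℕ) (s : α →₀ ℕ) (c : ℂ) :
    GueE α k (monomial s c) =
      c * ∏ a, ∫ t : ℝ, (t : ℂ) ^ s a ∂gaussianReal 0 (k : ℝ≥0)⁻¹ := by
  simp only [GueE_apply, GueEv_monomial]
  rw [integral_const_mul, gm, integral_fintype_prod_eq_prod (fun a (t : ℝ) => (t : ℂ) ^ s a)]

theorem GueE_X_mul [DecidableEq α] (k : ℕ) (a : α) (p : MvPolynomial α ℂ) :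
    GueE α k (X a * p) = (k : ℂ)⁻¹ * GueE α k (pderiv a p) := by
  induction p using MvPolynomial.induction_on' with
  | monomial s c =>
    rw [X, monomial_mul, pderiv_monomial, GueE_monomial, GueE_monomial,
      ← Finset.mul_prod_erase _ _ (Finset.mem_univ a),
      ← Finset.mul_prod_erase _ _ (Finset.mem_univ a)]
    have e1 : ∏ b ∈ Finset.univ.erase a,
        ∫ t : ℝ, (t : ℂ) ^ (Finsupp.single a 1 + s : α →₀ ℕ) b ∂gaussianReal 0 (k : ℝ≥0)⁻¹ =
        ∏ b ∈ Finset.univ.erase a,
        ∫ t : ℝ, (t : ℂ) ^ (s - Finsupp.single a 1 : α →₀ ℕ) b ∂gaussianReal 0 (k : ℝ≥0)⁻¹ := by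
      refine Finset.prod_congr rfl fun b hb => ?_
      have : b ≠ a := (Finset.mem_erase.1 hb).1
      simp [Finsupp.single_eq_of_ne this]
    rw [e1]
    have e2 : (Finsupp.single a 1 + s : α →₀ ℕ) a = s a + 1 := by simp [add_comm]
    have e3 : (s - Finsupp.single a 1 : α →₀ ℕ) a = s a - 1 := by simp
    rw [e2, e3, Gue_momC]
    push_cast
    ring
  | add p q hp hq =>
    simp only [mul_add, map_add, hp, hq]

end Vale.Agent.P087
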