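import Vale.Agent.P087.Defs

/-! # P087: the integral estimates -/

namespace Vale.Agent.P087

open MeasureTheory
open scoped ENNReal

lemma Integ_ftc {G g : ℝ → ℝ} {l : ℝ} (hd : ∀ x ∈ Set.Ici (0 : ℝ), HasDerivAt G (g x) x)
    (h0 : ∀ x ∈ Set.Ioi (0 : ℝ), 0 ≤ g x) (hl : Filter.Tendsto G Filter.atTop (nhds l)) :
    ∫⁻ t in Set.Ioi (0 : ℝ), ENNReal.ofReal (g t) = ENNReal.ofReal (l - G 0) := by
  rw [← integral_Ioi_of_hasDerivAt_of_nonneg' hd h0 hl,
    ofReal_integral_eq_lintegral_ofReal (integrableOn_Ioi_deriv_of_nonneg' hd h0 hl)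
      ((ae_restrict_iff' measurableSet_Ioi).2 (ae_of_all _ h0))]

lemma Integ_inv (c : ℝ) : Filter.Tendsto (fun t : ℝ => (c + t)⁻¹) Filter.atTop (nhds 0) :=
  tendsto_inv_atTop_zero.comp (Filter.tendsto_atTop_add_const_left _ _ Filter.tendsto_id)

lemma Integ_dinv {c t : ℝ} (h : c + t ≠ 0) :
    HasDerivAt (fun t : ℝ => (c + t)⁻¹) (-1 / (c + t) ^ 2) t :=
  ((hasDerivAt_id' t).const_add c).fun_inv h

lemma Integ_log {n d : ℝ} (hn : 0 ≤ n) (hd : 0 < d) (hd1 : d ≤ 1) :
    ∫⁻ t in Set.Ioi (0 : ℝ), ENNReal.ofReal (n * (1 / (d + t) - 1 / (1 + t) + 2 * d / (d + t) ^ 2)) =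
      ENNReal.ofReal (n * (2 - Real.log d)) := by
  rw [Integ_ftc (G := fun t => n * (Real.log (1 + (d - 1) * (1 + t)⁻¹) - 2 * d * (d + t)⁻¹))
    (l := n * (Real.log (1 + (d - 1) * 0) - 2 * d * 0))]
  · congr 1
    simp only [mul_zero, add_zero, Real.log_one, inv_one, mul_one, add_sub_cancel]
    field_simp
    ring
  · intro t (ht : 0 ≤ t)
    have h1 : 1 + t ≠ 0 := by positivity
    have h2 : d + t ≠ 0 := by positivity
    have h3 : 1 + (d - 1) * (1 + t)⁻¹ = (d + t) / (1 + t) := by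
      field_simp
      ring
    refine (((((Integ_dinv h1).const_mul (d - 1)).const_add 1).log
      (by rw [h3]; positivity)).fun_sub ((Integ_dinv h2).const_mul (2 * d))).const_mul n
      |>.congr_deriv ?_
    rw [h3]
    field_simp
    ring
  · intro t (ht : 0 < t)
    have : 1 / (1 + t) ≤ 1 / (d + t) := one_div_le_one_div_of_le (by positivity) (by linarith)
    exact mul_nonneg hn (add_nonneg (sub_nonneg.2 this) (by positivity))
  · exact ((((Integ_inv 1).const_mul _).const_add 1).log (by simp)).sub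
      ((Integ_inv d).const_mul _) |>.const_mul n

lemma Integ_min {d t : ℝ} (hd : 0 < d) (ht : 0 < t) :
    min d⁻¹ (1 / t) ≤ 1 / (d + t) + 2 * d / (d + t) ^ 2 := by
  have e : 1 / (d + t) + 2 * d / (d + t) ^ 2 = (3 * d + t) / (d + t) ^ 2 := by
    field_simp
    ring
  rw [e]
  rcases le_total t d with h | h
  · refine (min_le_left _ _).trans ?_
    rw [← one_div, div_le_div_iff₀ hd (by positivity)]
    nlinarith
  · refine (min_le_right _ _).trans ?_
    rw [div_le_div_iff₀ ht (by positivity)]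
    nlinarith

/-- positive part `≥ (n2/9 - n1)/s` (from `[s, 2s]`), negative part `≤ n1 (2 + log K)`
(bound the integrand by `n1 * min K (1/(t(1+t)))`, split at `1/K` and `1`). -/
theorem intDiff_pos {n1 n2 K s : ℝ} {φ : ℝ → ℝ≥0∞} (hn1 : 0 ≤ n1) (hK : 1 ≤ K) (hs : 1 ≤ s)
    (h1 : ∀ t, 0 < t → φ t ≤ ENNReal.ofReal (n1 * min K (1 / t) + n2 / (1 + t)))
    (h2 : ∀ t, s ≤ t → φ t ≤ ENNReal.ofReal (n1 / t + n2 * (1 / (1 + t) - 1 / (1 + t) ^ 2)))
    (h : n1 * (2 + Real.log K) < (n2 / 9 - n1) / s) :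
    0 < intDiff (fun t => ENNReal.ofReal ((n1 + n2) / (1 + t))) φ := by
  have hK0 : 0 < K := one_pos.trans_le hK
  have hs0 : 0 < s := one_pos.trans_le hs
  have hc : 0 < (n2 / 9 - n1) / s :=
    lt_of_le_of_lt (mul_nonneg hn1 (add_nonneg zero_le_two (Real.log_nonneg hK))) h
  have hc' : 0 < n2 / 9 - n1 := (div_pos_iff_of_pos_right hs0).1 hc
  have hn2 : 0 < n2 := by linarith
  rw [intDiff, EReal.sub_pos, EReal.coe_ennreal_lt_coe_ennreal_iff]
  calc _ ≤ ENNReal.ofReal (n1 * (2 - Real.log K⁻¹)) := by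
        rw [← Integ_log hn1 (inv_pos.2 hK0) (inv_le_one_of_one_le₀ hK)]
        refine setLIntegral_mono' measurableSet_Ioi fun t (ht : 0 < t) => ?_
        refine (tsub_le_tsub_right (h1 t ht) _).trans ?_
        rw [← ENNReal.ofReal_sub _ (by positivity)]
        refine ENNReal.ofReal_le_ofReal ?_
        have := mul_le_mul_of_nonneg_left (Integ_min (inv_pos.2 hK0) ht) hn1
        rw [inv_inv] at this
        rw [add_div, div_eq_mul_one_div n1]
        linarith
    _ < ENNReal.ofReal ((n2 / 9 - n1) / s) := by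
        rw [ENNReal.ofReal_lt_ofReal_iff hc, Real.log_inv, sub_neg_eq_add]
        exact h
    _ = ∫⁻ _ in Set.Ioc s (2 * s), ENNReal.ofReal ((n2 / 9 - n1) / s ^ 2) := by
        rw [setLIntegral_const, Real.volume_Ioc, ← ENNReal.ofReal_mul (by positivity)]
        congr 1
        field_simp
        ring
    _ ≤ _ := by
        refine le_trans (setLIntegral_mono' measurableSet_Ioc fun t ht => ?_)
          (lintegral_mono_set fun t ht => hs0.trans ht.1)
        obtain ⟨ht1, ht2⟩ := ht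
        have ht : 0 < t := hs0.trans ht1
        refine le_trans ?_ (tsub_le_tsub_left (h2 t ht1.le) _)
        have e1 : 1 / (1 + t) ^ 2 ≤ 1 / (1 + t) :=
          one_div_le_one_div_of_le (by positivity) (by nlinarith)
        rw [← ENNReal.ofReal_sub _ (add_nonneg (by positivity)
          (mul_nonneg hn2.le (sub_nonneg.2 e1)))]
        refine ENNReal.ofReal_le_ofReal ?_
        have e2 : 1 / (9 * s ^ 2) ≤ 1 / (1 + t) ^ 2 :=
          one_div_le_one_div_of_le (by positivity) (by nlinarith)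
        have e3 : 1 / (t * (1 + t)) ≤ 1 / s ^ 2 :=
          one_div_le_one_div_of_le (by positivity) (by nlinarith)
        calc _ = n2 * (1 / (9 * s ^ 2)) - n1 * (1 / s ^ 2) := by ring
          _ ≤ n2 * (1 / (1 + t) ^ 2) - n1 * (1 / (t * (1 + t))) := by gcongr
          _ = _ := by
            field_simp
            ring

/-- the positive part is bounded by `∫ 2n/(1+t)²` -/
theorem intDiff_lt_top {n : ℝ} {φ : ℝ → ℝ≥0∞} (hn : 0 ≤ n)
    (h : ∀ t, 0 < t → ENNReal.ofReal (n / (3 + t)) ≤ φ t) :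
    intDiff (fun t => ENNReal.ofReal (n / (1 + t))) φ < ⊤ := by
  refine EReal.add_lt_top (mt EReal.coe_ennreal_eq_top_iff.1 (ne_top_of_le_ne_top
    (ENNReal.ofReal_ne_top (r := -(2 * n) * 0 - -(2 * n) * (1 + 0)⁻¹)) ?_))
    (mt EReal.neg_eq_top_iff.1 (EReal.coe_ennreal_ne_bot _))
  rw [← Integ_ftc (G := fun t => -(2 * n) * (1 + t)⁻¹)
    (fun t (ht : 0 ≤ t) => (Integ_dinv (by positivity)).const_mul _)
    (fun t (ht : 0 < t) => by rw [neg_div, neg_mul_neg]; positivity) ((Integ_inv 1).const_mul _)]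
  refine setLIntegral_mono' measurableSet_Ioi fun t (ht : 0 < t) => ?_
  refine (tsub_le_tsub_left (h t ht) _).trans ?_
  rw [← ENNReal.ofReal_sub _ (by positivity)]
  refine ENNReal.ofReal_le_ofReal ?_
  have e : 1 / ((1 + t) * (3 + t)) ≤ 1 / (1 + t) ^ 2 :=
    one_div_le_one_div_of_le (by positivity) (by nlinarith)
  calc _ = 2 * n * (1 / ((1 + t) * (3 + t))) := by
        field_simp
        ring
    _ ≤ 2 * n * (1 / (1 + t) ^ 2) := by gcongr
    _ = _ := by ring

/-- the numerical inequality for `q = 2^40` -/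
theorem numeric {q : ℝ} (hq : q = 2 ^ 40) :
    3 * q ^ 2 * (2 + Real.log ((1 + 48 * q ^ 6) ^ 2)) <
      (2 * q ^ 6 / 9 - 3 * q ^ 2) / (80 * 512 * (268 * q ^ 3)) := by
  have h1 : Real.log (1 + 48 * q ^ 6) ≤ Real.log (2 ^ 246) :=
    Real.log_le_log (by rw [hq]; positivity) (by rw [hq]; norm_num)
  rw [Real.log_pow 2] at h1
  have h2 := Real.log_two_lt_d9
  calc _ ≤ 3 * q ^ 2 * (2 + 492) := by
        rw [Real.log_pow]
        gcongr
        push_cast at h1 ⊢
        linarith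
    _ < _ := by rw [hq]; norm_num

end Vale.Agent.P087
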