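import Vale.Agent.P087.Gm

/-! # P087: the operator norm of GUE matrices is bounded with high probability.
Plan.  `E = EuclideanSpace ℂ (Fin k)` has real dimension `2k`.  A maximal `1`-separated finset in the ball of radius `2` has at most
`5^(2k)` points (`Besicovitch.card_le_of_separated`) and is a `1`-net; scaling gives a `1/2`-net `N` of the unit ball.
For `T : E →L[ℂ] E`: `‖T‖ ≤ 2 max_{g ∈ N} ‖T g‖` and `‖v‖ ≤ 2 max_{h ∈ N} re ⟪h, v⟫`.  For `g, h` in the unit ball,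
`re ⟪h, herm x j g⟫ = ∑ a, c a * x a` with `∑ c² ≤ 2`, so `∫ exp (k ∑ c a * x a) ∂gm ≤ exp k` (`integral_fintype_prod_eq_prod`,
`mgf_gaussianReal` / `integral_exp_mul_gaussianReal`), and Markov gives probability `≤ exp (k - 10 k)` for `10 < re ⟪h, herm x j g⟫`.
Union bound: `card ι * 625^k * exp (-9 k) → 0` since `625 < exp 9`. -/

namespace Vale.Agent.P087

open MeasureTheory ProbabilityTheory Filter
open scoped ENNReal NNReal Topology

theorem Tail_net (E : Type) [NormedAddCommGroup E] [NormedSpace ℝ E] [FiniteDimensional ℝ E] :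
    ∃ N : Finset E, N.card ≤ 5 ^ Module.finrank ℝ E ∧ (∀ g ∈ N, ‖g‖ ≤ 2) ∧
      ∀ v : E, ‖v‖ ≤ 2 → ∃ g ∈ N, ‖v - g‖ ≤ 1 := by
  classical
  let S : Set ℕ := {n | ∃ s : Finset E, ((∀ c ∈ s, ‖c‖ ≤ 2) ∧
    ∀ c ∈ s, ∀ d ∈ s, c ≠ d → 1 ≤ ‖c - d‖) ∧ s.card = n}
  have hb : BddAbove S := ⟨5 ^ Module.finrank ℝ E, by
    rintro _ ⟨s, hs, rfl⟩
    exact Besicovitch.card_le_of_separated s hs.1 hs.2⟩
  obtain ⟨N, ⟨h1, h2⟩, h3⟩ := Nat.sSup_mem (s := S) ⟨0, ∅, by simp, rfl⟩ hb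
  refine ⟨N, Besicovitch.card_le_of_separated N h1 h2, h1, fun v hv => ?_⟩
  by_contra H
  push Not at H
  have h4 : v ∉ N := fun h => by simpa using (H v h).trans' zero_lt_one
  have h5 := le_csSup hb ⟨insert v N, ⟨by simpa [hv] using h1, fun c hc d hd hcd => by
    rcases Finset.mem_insert.1 hc with rfl | hc' <;> rcases Finset.mem_insert.1 hd with rfl | hd'
    exacts [absurd rfl hcd, (H d hd').le, norm_sub_rev c d ▸ (H c hc').le, h2 c hc' d hd' hcd]⟩, rfl⟩
  rw [Finset.card_insert_of_notMem h4, h3] at h5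
  omega

theorem Tail_op {E : Type} [NormedAddCommGroup E] [InnerProductSpace ℂ E] {N : Finset E}
    (hN : ∀ v : E, ‖v‖ ≤ 2 → ∃ g ∈ N, ‖v - g‖ ≤ 1) (T : E →L[ℂ] E) {M : ℝ}
    (h : ∀ g ∈ N, ∀ f ∈ N, (inner ℂ f (T g)).re ≤ M) : ‖T‖ ≤ M := by
  have h1 : ∀ g ∈ N, ‖T g‖ ≤ M := fun g hg => by
    have e : ‖((2 / ‖T g‖ : ℝ) : ℂ) • T g‖ ≤ 2 := by
      rw [norm_smul, Complex.norm_real, Real.norm_of_nonneg (by positivity), div_mul_comm]
      exact mul_le_of_le_one_left zero_le_two (div_self_le_one _)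
    obtain ⟨f, hf, hf'⟩ := hN _ e
    have h2 := re_inner_le_norm (𝕜 := ℂ) (((2 / ‖T g‖ : ℝ) : ℂ) • T g - f) (T g)
    have h3 : 2 / ‖T g‖ * ‖T g‖ ^ 2 = 2 * ‖T g‖ := by
      rcases eq_or_ne ‖T g‖ 0 with h0 | h0
      · simp [h0]
      · field_simp
    rw [inner_sub_left, inner_smul_left, Complex.conj_ofReal, map_sub, RCLike.re_to_complex,
      Complex.re_ofReal_mul, ← RCLike.re_to_complex, inner_self_eq_norm_sq, h3,
      RCLike.re_to_complex] at h2
    nlinarith [h g hg f hf, norm_nonneg (T g)]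
  obtain ⟨g0, hg0, -⟩ := hN 0 (by simp)
  have h0 := (norm_nonneg _).trans (h1 g0 hg0)
  have h2 : ‖T‖ ≤ (M + ‖T‖) / 2 := T.opNorm_le_of_unit_norm (by positivity) fun v hv => by
    obtain ⟨g, hg, hg'⟩ := hN ((2 : ℂ) • v) (by simp [norm_smul, hv])
    have h3 := T.le_of_opNorm_le_of_le le_rfl hg'
    have h4 := norm_le_norm_add_norm_sub' (T ((2 : ℂ) • v)) (T g)
    rw [← map_sub, map_smul, norm_smul, Complex.norm_ofNat] at h4
    linarith [h1 g hg]
  linarith

theorem Tail_lin {α : Type} [Fintype α] {k : ℕ} (hk : 0 < k) {c : α → ℝ} (hc : ∑ a, c a ^ 2 ≤ 32) :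
    (gm α k).real {x | 40 ≤ ∑ a, c a * x a} ≤ Real.exp (-9) ^ k := by
  have e : ∀ x : α → ℝ, Real.exp (k / 4 * ∑ a, c a * x a)
      = ∏ a, Real.exp (k / 4 * c a * x a) := fun x => by
    simp only [Finset.mul_sum, Real.exp_sum, mul_assoc]
  refine (measure_ge_le_exp_mul_mgf (t := k / 4) 40 (by positivity) ?_).trans ?_
  · simp only [e]
    exact Integrable.fintype_prod (f := fun a y => Real.exp (k / 4 * c a * y))
      fun a => integrable_exp_mul_gaussianReal _
  · have h1 := fun t => congrFun (mgf_fun_id_gaussianReal (μ := 0) (v := (k : ℝ≥0)⁻¹)) t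
    simp only [mgf] at h1 ⊢
    simp only [e, gm]
    rw [integral_fintype_prod_eq_prod fun a y => Real.exp (k / 4 * c a * y)]
    simp only [h1]
    rw [← Real.exp_sum, ← Real.exp_add, ← Real.exp_nat_mul, Real.exp_le_exp]
    have h2 : (0 : ℝ) < k := Nat.cast_pos.2 hk
    have h3 : ∀ a, 0 * (k / 4 * c a) + ((k : ℝ≥0)⁻¹ : ℝ≥0) * (k / 4 * c a) ^ 2 / 2
        = k / 32 * c a ^ 2 := fun a => by
      push_cast
      field_simp
      ring
    simp only [h3, ← Finset.mul_sum]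
    nlinarith

theorem Tail_coef {ι : Type} [Fintype ι] {k : ℕ} (j : ι) {g f : EuclideanSpace ℂ (Fin k)}
    (hg : ‖g‖ ≤ 2) (hf : ‖f‖ ≤ 2) : ∃ c : ι × Fin k × Fin k → ℝ, ∑ a, c a ^ 2 ≤ 32 ∧
      ∀ x, (inner ℂ f (Matrix.toEuclideanCLM (n := Fin k) (𝕜 := ℂ) (herm x j) g)).re
        = ∑ a, c a * x a := by
  classical
  let u : Fin k → Fin k → ℂ := fun a b => star (f a) * g b
  have hu : ∑ a, ∑ b, ‖u a b‖ ^ 2 ≤ 16 := by
    simp only [u, norm_mul, norm_star, mul_pow, ← Finset.mul_sum, ← Finset.sum_mul,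
      ← EuclideanSpace.norm_sq_eq]
    nlinarith [mul_le_mul (pow_le_pow_left₀ (norm_nonneg _) hf 2)
      (pow_le_pow_left₀ (norm_nonneg _) hg 2) (by positivity) (by positivity)]
  refine ⟨fun p => if p.1 = j then (((u p.2.1 p.2.2).re - (u p.2.1 p.2.2).im) +
    ((u p.2.2 p.2.1).re + (u p.2.2 p.2.1).im)) / 2 else 0, ?_, fun x => ?_⟩
  · simp only [Fintype.sum_prod_type, ite_pow, ne_eq, OfNat.ofNat_ne_zero, not_false_eq_true,
      zero_pow, Finset.sum_ite_irrel, Finset.sum_const_zero, Finset.sum_ite_eq', Finset.mem_univ,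
      if_true]
    refine (Finset.sum_le_sum fun a _ => Finset.sum_le_sum
      (g := fun b => ‖u a b‖ ^ 2 + ‖u b a‖ ^ 2) fun b _ => ?_).trans ?_
    · simp only [Complex.sq_norm, Complex.normSq_apply]
      nlinarith [sq_nonneg ((u a b).re + (u a b).im), sq_nonneg ((u a b).re - (u b a).re),
        sq_nonneg ((u a b).re - (u b a).im), sq_nonneg ((u a b).im + (u b a).re),
        sq_nonneg ((u a b).im + (u b a).im), sq_nonneg ((u b a).re - (u b a).im)]
    · simp only [Finset.sum_add_distrib]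
      rw [Finset.sum_comm (f := fun a b => ‖u b a‖ ^ 2)]
      linarith
  · have h1 : ∀ a b, (inner ℂ (f a) (herm x j a b * g b)).re
        = ((u a b).re - (u a b).im) / 2 * x (j, a, b)
          + ((u a b).re + (u a b).im) / 2 * x (j, b, a) := fun a b => by
      simp [herm, u]
      ring
    simp only [PiLp.inner_apply, Matrix.ofLp_toEuclideanCLM, Matrix.mulVec, dotProduct, inner_sum,
      Complex.re_sum, h1, Fintype.sum_prod_type, ite_mul, zero_mul, Finset.sum_ite_irrel,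
      Finset.sum_const_zero, Finset.sum_ite_eq', Finset.mem_univ, if_true, add_div, add_mul,
      Finset.sum_add_distrib]
    congr 1
    congr 1 <;> exact Finset.sum_comm

theorem Tail_bound {ι : Type} [Fintype ι] {k : ℕ} (hk : 0 < k) :
    (gm (ι × Fin k × Fin k) k).real {x | ∃ j, 40 < opNorm (herm x j)}
      ≤ Fintype.card ι * (625 * Real.exp (-9)) ^ k := by
  obtain ⟨N, h1, h2, h3⟩ := Tail_net (EuclideanSpace ℂ (Fin k))
  rw [finrank_real_of_complex, finrank_euclideanSpace_fin, pow_mul] at h1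
  have h4 : {x : ι × Fin k × Fin k → ℝ | ∃ j, 40 < opNorm (herm x j)} ⊆
      ⋃ p ∈ (Finset.univ : Finset ι) ×ˢ N ×ˢ N, {x | 40 ≤
        (inner ℂ p.2.2 (Matrix.toEuclideanCLM (n := Fin k) (𝕜 := ℂ) (herm x p.1) p.2.1)).re} := by
    rintro x ⟨j, hj⟩
    by_contra H
    refine hj.not_ge (Tail_op h3 _ fun g hg f hf => le_of_not_gt fun h => H ?_)
    exact Set.mem_biUnion (x := (j, g, f)) (by simp [hg, hf]) h.le
  refine (measureReal_mono h4 (measure_ne_top _ _)).trans ((measureReal_biUnion_finset_le _ _).trans ?_)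
  refine (Finset.sum_le_card_nsmul _ _ (Real.exp (-9) ^ k) fun p hp => ?_).trans ?_
  · simp only [Finset.mem_product] at hp
    obtain ⟨c, hc, hc'⟩ := Tail_coef p.1 (h2 _ hp.2.1) (h2 _ hp.2.2)
    simp only [hc']
    exact Tail_lin hk hc
  · have h5 : (N.card : ℝ) * N.card ≤ 625 ^ k := by
      rw [show (625 : ℝ) = 5 ^ 2 * 5 ^ 2 by norm_num, mul_pow]
      exact_mod_cast Nat.mul_le_mul h1 h1
    simp only [Finset.card_product, Finset.card_univ, nsmul_eq_mul, Nat.cast_mul, mul_pow]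
    rw [← mul_assoc _ (625 ^ k : ℝ)]
    gcongr

theorem gue_tail {ι : Type} [Fintype ι] :
    Tendsto (fun k : ℕ => gm (ι × Fin k × Fin k) k {x | ∃ j, 40 < opNorm (herm x j)}) atTop
      (𝓝 0) := by
  have h1 : 625 * Real.exp (-9) < 1 := by
    have h2 := pow_lt_pow_left₀ (show (2.5 : ℝ) < Real.exp 1 by linarith [Real.exp_one_gt_d9])
      (by norm_num) (n := 9) (by norm_num)
    rw [← Real.exp_nat_mul] at h2
    rw [Real.exp_neg, ← div_eq_mul_inv, div_lt_one (Real.exp_pos _)]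
    norm_num at h2 ⊢
    linarith
  have h2 := ENNReal.tendsto_ofReal
    ((tendsto_pow_atTop_nhds_zero_of_lt_one (by positivity) h1).const_mul (Fintype.card ι : ℝ))
  rw [mul_zero, ENNReal.ofReal_zero] at h2
  refine tendsto_of_tendsto_of_tendsto_of_le_of_le' tendsto_const_nhds h2
    (.of_forall fun _ => zero_le) ?_
  filter_upwards [eventually_gt_atTop 0] with k hk
  rw [← ofReal_measureReal]
  exact ENNReal.ofReal_le_ofReal (Tail_bound hk)

end Vale.Agent.P087
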