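import Vale.Agent.P087.Gue
import Vale.Agent.P087.Tail

/-! # P087: the microstates entropy of `XX g` for a free semicircular family `g`.
Plan.  Use `FreeAlgebra ℂ (Ix κ)`, `FreeAlgebra.lift`, `FreeAlgebra.basisFreeMonoid` (or `FreeAlgebra.induction` into the span of the words
`word (FreeAlgebra.ι ℂ) w`), `map_word`, `map_XX`, `map_pp`.
`chi_lower`: `R = 40 + 2 * 40^3`.  For every polynomial `p` and `ε > 0`, `gm {ε ≤ ‖tr p(herm x) / k - τ p(g)‖} → 0` (span induction from
`gue_moment`).  There are finitely many words of length `≤ m` (`List.finite_length_le`), so for large `k` the set of `x` with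
`XX (herm x) ∈ Gam` has `gm`-measure `≥ 1/2` (`gue_tail`, `norm_pp_le` applied to `toEuclideanCLM`, `star_XX`).  It is contained in the preimage of
`{y | herm y ∈ Gam}` under the shear `shear_pp 1` (`herm_add`, `herm_coord`), so `vol Gam ≥ (1/2) √(k/2π)^(-N k²)` by `gm_le` and
`Measure.le_map_apply`; hence `ent ≥ -1 + (N/2) log (2π) ≥ -1` eventually.
`chi_upper`: for every polynomial `p` there are `m, C` with `‖tr p(A) / k - τ p(X)‖ ≤ C ε` on `Gam μ R m k ε` (`k ≥ 1`).  Apply to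
`p = ∑_c (x_c - pp x c)²`, whose value at `X = XX g` is `∑ τ (g_c g_c) = N` (`pp_XX`, `SemiMom`).  So with `y = x - coord (pp (herm x))`,
`∑ y² ≤ k N (1 + η)` (`sum_sq_herm`), `rho k y ≥ √(k/2π)^(N k²) exp (-k² N (1+η)/2)`, and `shear_pp (-1)`, `lintegral_rho` bound `vol`
(`lintegral_indicator_one_le` is not needed: use `le_meas`-type Markov `mul_meas_ge_le_lintegral`, the set `{y | ∑ y² ≤ c}` is measurable).
Then `ent ≤ (N/2) log (2π e) + N η / 2` for `k ≥ 1`. -/

namespace Vale.Agent.P087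

open MeasureTheory ProbabilityTheory Filter
open scoped ENNReal NNReal Topology

variable {κ : Type} [Fintype κ] [DecidableEq κ] {A : Type*} [Ring A] [Algebra ℂ A]

theorem Lower_span {ι : Type} (p : FreeAlgebra ℂ ι) :
    p ∈ Submodule.span ℂ (Set.range (word (FreeAlgebra.ι ℂ : ι → FreeAlgebra ℂ ι))) := by
  have h1 : p ∈ Subalgebra.toSubmodule
      (Algebra.adjoin ℂ (Set.range (FreeAlgebra.ι ℂ : ι → FreeAlgebra ℂ ι))) := by
    rw [FreeAlgebra.adjoin_range_ι]
    trivial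
  rw [Algebra.adjoin_eq_span] at h1
  refine Submodule.span_mono ?_ h1
  intro a ha
  induction ha using Submonoid.closure_induction with
  | mem x hx =>
    obtain ⟨c, rfl⟩ := hx
    exact ⟨[c], by simp⟩
  | one => exact ⟨[], rfl⟩
  | mul x y _ _ hx hy =>
    obtain ⟨u, rfl⟩ := hx
    obtain ⟨v, rfl⟩ := hy
    exact ⟨u ++ v, word_append _ _ _⟩

theorem Lower_poly {ι : Type} [Fintype ι] [DecidableEq ι] (τ : A →ₗ[ℂ] ℂ) (g : ι → A)
    (hm : SemiMom fun w => τ (word g w)) (p : FreeAlgebra ℂ ι) : ∀ ε : ℝ, 0 < ε →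
    Tendsto (fun k : ℕ => gm (ι × Fin k × Fin k) k
      {x | ε ≤ ‖(FreeAlgebra.lift ℂ (herm x) p).trace / k - τ (FreeAlgebra.lift ℂ g p)‖}) atTop
      (𝓝 0) := by
  induction Lower_span p using Submodule.span_induction with
  | mem p hp =>
    obtain ⟨w, rfl⟩ := hp
    intro ε hε
    simp only [map_word, FreeAlgebra.lift_ι_apply]
    exact gue_moment hm w hε
  | zero =>
    intro ε hε
    simp [hε.not_ge]
  | add p q _ _ hp hq =>
    intro ε hε
    have h1 := (hp (ε / 2) (by positivity)).add (hq (ε / 2) (by positivity))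
    rw [add_zero] at h1
    refine tendsto_of_tendsto_of_tendsto_of_le_of_le tendsto_const_nhds h1 (fun _ => zero_le)
      fun k => ?_
    refine le_trans (measure_mono fun x hx => ?_) (measure_union_le _ _)
    by_contra hcon
    simp only [Set.mem_union, Set.mem_ofPred_eq, not_or, not_le] at hcon hx
    rw [map_add, map_add, map_add, Matrix.trace_add, add_div, add_sub_add_comm] at hx
    linarith [norm_add_le ((FreeAlgebra.lift ℂ (herm x) p).trace / k - τ (FreeAlgebra.lift ℂ g p))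
      ((FreeAlgebra.lift ℂ (herm x) q).trace / k - τ (FreeAlgebra.lift ℂ g q)), hcon.1, hcon.2]
  | smul c p _ hp =>
    intro ε hε
    have hc : 0 < ‖c‖ + 1 := by positivity
    refine tendsto_of_tendsto_of_tendsto_of_le_of_le tendsto_const_nhds
      (hp (ε / (‖c‖ + 1)) (by positivity)) (fun _ => zero_le) fun k => measure_mono fun x hx => ?_
    simp only [Set.mem_ofPred_eq] at hx ⊢
    rw [map_smul, map_smul, map_smul, Matrix.trace_smul, smul_eq_mul, smul_eq_mul, mul_div_assoc,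
      ← mul_sub, norm_mul] at hx
    rw [div_le_iff₀ hc]
    nlinarith [norm_nonneg ((FreeAlgebra.lift ℂ (herm x) p).trace / k - τ (FreeAlgebra.lift ℂ g p))]

omit [Fintype κ] [DecidableEq κ] in
theorem Lower_shear {k : ℕ} (x : Ix κ × Fin k × Fin k → ℝ) :
    herm (x + (1 : ℝ) • coord (pp (herm x))) = XX (herm x) := by
  rw [one_smul, herm_add, herm_coord fun j => star_pp (fun c => herm_isHermitian x c) j]
  rfl

omit [Fintype κ] [DecidableEq κ] in
theorem Lower_norm {k : ℕ} {G : Ix κ → Matrix (Fin k) (Fin k) ℂ} (h : ∀ j, opNorm (G j) ≤ 40)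
    (j : Ix κ) : opNorm (XX G j) ≤ 40 + 2 * 40 ^ 3 := by
  have e := map_XX (Matrix.toEuclideanCLM (n := Fin k) (𝕜 := ℂ)).toAlgEquiv.toAlgHom G j
  have e' : Matrix.toEuclideanCLM (n := Fin k) (𝕜 := ℂ) (XX G j) =
      XX (fun c => Matrix.toEuclideanCLM (n := Fin k) (𝕜 := ℂ) (G c)) j := e
  rw [opNorm, e', XX]
  exact (norm_add_le _ _).trans (add_le_add (h j) (norm_pp_le (by norm_num) h j))

theorem Lower_vol (τ : A →ₗ[ℂ] ℂ) (g : Ix κ → A) (hm : SemiMom fun w => τ (word g w)) (m : ℕ)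
    {ε : ℝ} (hε : 0 < ε) : ∀ᶠ k : ℕ in atTop, (2⁻¹ : ℝ≥0∞) ≤
      ENNReal.ofReal (√(k / (2 * Real.pi)) ^ Fintype.card (Ix κ × Fin k × Fin k)) *
        vol (Gam (fun w => τ (word (XX g) w)) (40 + 2 * 40 ^ 3) m k ε) := by
  have hW := List.finite_length_le (Ix κ) m
  have h1 : ∀ w : List (Ix κ), Tendsto (fun k : ℕ => gm (Ix κ × Fin k × Fin k) k
      {x | ε ≤ ‖(word (XX (herm x)) w).trace / k - τ (word (XX g) w)‖}) atTop (𝓝 0) := by
    intro w
    have := Lower_poly τ g hm (word (XX (FreeAlgebra.ι ℂ)) w) ε hε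
    simpa only [map_word, map_XX, FreeAlgebra.lift_ι_apply] using this
  have h2 := (gue_tail (ι := Ix κ)).add (tendsto_finsetSum hW.toFinset fun w _ => h1 w)
  rw [Finset.sum_const_zero, add_zero] at h2
  have h3 := h2.eventually (ge_mem_nhds (show (0 : ℝ≥0∞) < 2⁻¹ by norm_num))
  filter_upwards [h3, eventually_gt_atTop 0] with k hk hk0
  set S : Set (Ix κ × Fin k × Fin k → ℝ) :=
    {y | herm y ∈ Gam (fun w => τ (word (XX g) w)) (40 + 2 * 40 ^ 3) m k ε} with hS
  set T := (fun x : Ix κ × Fin k × Fin k → ℝ => x + (1 : ℝ) • coord (pp (herm x))) ⁻¹' S with hT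
  have h4 : gm (Ix κ × Fin k × Fin k) k Tᶜ ≤ 2⁻¹ := by
    refine le_trans ?_ hk
    refine le_trans (measure_mono fun x hx => ?_)
      ((measure_union_le _ _).trans (add_le_add le_rfl (measure_biUnion_finset_le _ _)))
    by_contra hcon
    simp only [Set.mem_union, Set.mem_ofPred_eq, not_or, not_exists, not_lt, Set.mem_iUnion,
      Set.Finite.mem_toFinset, not_le] at hcon
    refine hx ?_
    change herm (x + (1 : ℝ) • coord (pp (herm x))) ∈ Gam _ _ _ _ _
    rw [Lower_shear]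
    exact ⟨fun j => ⟨star_XX (fun c => herm_isHermitian x c) j, Lower_norm hcon.1 j⟩,
      fun w _ hw => hcon.2 w hw⟩
  have h5 : (2⁻¹ : ℝ≥0∞) ≤ gm (Ix κ × Fin k × Fin k) k T := by
    have h6 : (1 : ℝ≥0∞) ≤ gm (Ix κ × Fin k × Fin k) k T + 2⁻¹ := by
      rw [← measure_univ (μ := gm (Ix κ × Fin k × Fin k) k), ← Set.union_compl_self T]
      exact (measure_union_le _ _).trans (add_le_add le_rfl h4)
    rw [← ENNReal.inv_two_add_inv_two] at h6
    exact (ENNReal.add_le_add_iff_right (by norm_num)).mp h6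
  refine h5.trans ((gm_le hk0 T).trans (mul_le_mul_right ?_ _))
  have h7 := shear_pp (κ := κ) (k := k) 1
  refine (Measure.le_map_apply h7.measurable.aemeasurable S).trans ?_
  rw [h7.map_eq]
  exact le_rfl

theorem Lower_ent {ι : Type} [Fintype ι] {μ : List ι → ℂ} {R ε : ℝ} {m k : ℕ} (hk : 0 < k)
    (h : (2⁻¹ : ℝ≥0∞) ≤
      ENNReal.ofReal (√(k / (2 * Real.pi)) ^ Fintype.card (ι × Fin k × Fin k)) *
        vol (Gam μ R m k ε)) : ((-1 : ℝ) : EReal) ≤ ent μ R m k ε := by
  have hk1 : (1 : ℝ) ≤ k := by exact_mod_cast hk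
  have hpi : (1 : ℝ) ≤ 2 * Real.pi := by linarith [Real.pi_gt_three]
  set c : ℝ := √(k / (2 * Real.pi)) ^ Fintype.card (ι × Fin k × Fin k) with hc
  have hc0 : 0 < c := by positivity
  have h1 : ENNReal.ofReal (2⁻¹ / c) ≤ vol (Gam μ R m k ε) := by
    rw [ENNReal.ofReal_div_of_pos hc0, ENNReal.ofReal_inv_of_pos two_pos, ENNReal.ofReal_ofNat]
    exact ENNReal.div_le_of_le_mul' h
  have h2 : ((Real.log (2⁻¹ / c) : ℝ) : EReal) ≤ ENNReal.log (vol (Gam μ R m k ε)) := by
    rw [← ENNReal.log_ofReal_of_pos (by positivity)]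
    exact ENNReal.log_monotone h1
  refine le_trans ?_ (add_le_add (mul_le_mul_of_nonneg_left h2 (by
    exact_mod_cast (by positivity : (0 : ℝ) ≤ ((k : ℝ) ^ 2)⁻¹))) le_rfl)
  rw [← EReal.coe_mul, ← EReal.coe_add, EReal.coe_le_coe_iff, Real.log_div (by norm_num) hc0.ne',
    hc, Real.log_pow, Real.log_sqrt (by positivity), Real.log_div (by positivity) (by positivity),
    Real.log_inv]
  simp only [Fintype.card_prod, Fintype.card_fin, Nat.cast_mul]
  have h3 : Real.log 2 ≤ 1 := by linarith [Real.log_le_sub_one_of_pos two_pos]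
  have h4 : 0 ≤ Real.log (2 * Real.pi) := Real.log_nonneg hpi
  have h5 : 0 ≤ Real.log 2 := Real.log_nonneg one_le_two
  have h6 : ((k : ℝ) ^ 2)⁻¹ ≤ 1 := inv_le_one_of_one_le₀ (one_le_pow₀ hk1)
  have h7 : (0 : ℝ) ≤ ((k : ℝ) ^ 2)⁻¹ := by positivity
  have e : ((k : ℝ) ^ 2)⁻¹ * (-Real.log 2 - (Fintype.card ι : ℝ) * (k * k) *
      ((Real.log k - Real.log (2 * Real.pi)) / 2)) + Fintype.card ι / 2 * Real.log k =
      -(((k : ℝ) ^ 2)⁻¹ * Real.log 2) + Fintype.card ι / 2 * Real.log (2 * Real.pi) := by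
    field_simp
    ring
  rw [e]
  have h8 : (0 : ℝ) ≤ Fintype.card ι / 2 * Real.log (2 * Real.pi) := by positivity
  nlinarith

theorem chi_lower (τ : A →ₗ[ℂ] ℂ) (g : Ix κ → A) (hm : SemiMom fun w => τ (word g w)) :
    ⊥ < chiMom fun w => τ (word (XX g) w) := by
  refine (EReal.bot_lt_coe (-1)).trans_le (le_iSup₂_of_le (40 + 2 * 40 ^ 3) (by norm_num) ?_)
  refine le_iInf fun m => le_iInf fun ε => le_iInf fun hε => ?_
  refine le_limsup_of_frequently_le (Eventually.frequently ?_)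
  filter_upwards [Lower_vol τ g hm m hε, eventually_gt_atTop 0] with k hk hk0
  exact Lower_ent hk0 hk

end Vale.Agent.P087
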