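import Vale.Agent.P087.Sys

/-! # P087: growth of the moments of the signals -/

namespace Vale.Agent.P087

open InnerProductSpace ContinuousLinearMap

variable {H : Type} [NormedAddCommGroup H] [InnerProductSpace ℂ H] [CompleteSpace H]

theorem Lam_congr {ι A : Type*} [Fintype ι] [Mul A] {a : ι → A} {B : Set A}
    (hB : ∀ c, ∀ b ∈ B, a c * b ∈ B) (m : ℕ) {f g : A → ℝ} (h : ∀ b ∈ B, f b = g b) {b : A}
    (hb : b ∈ B) : (Lam a)^[m] f b = (Lam a)^[m] g b := by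
  induction m generalizing f g with
  | zero => exact h b hb
  | succ m ih => exact ih fun b hb => Finset.sum_congr rfl fun c _ => h _ (hB c b hb)

/-- `z ↦ ∑ a_c z a_c` -/
noncomputable def TT {ι A : Type*} [Fintype ι] [Ring A] (a : ι → A) (z : A) : A :=
  ∑ c, a c * z * a c

theorem Lam_TT {ι : Type*} [Fintype ι] {a : ι → H →L[ℂ] H} (ha : ∀ c, star (a c) = a c) (Ω : H)
    (y : H →L[ℂ] H) (m : ℕ) (z b : H →L[ℂ] H) :
    (Lam a)^[m] (fun b => (tau Ω (y * (star b * z * b))).re) b =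
      (tau Ω (y * (star b * (TT a)^[m] z * b))).re := by
  induction m generalizing z with
  | zero => rfl
  | succ m ih =>
    rw [Function.iterate_succ_apply, Function.iterate_succ_apply, ← ih]
    refine congrArg (fun f => (Lam a)^[m] f b) (funext fun b => ?_)
    simp only [Lam, TT, Finset.mul_sum, Finset.sum_mul, tau_sum, Complex.re_sum, star_mul, ha,
      mul_assoc]

theorem TT_sig {κ A : Type} [Fintype κ] [Ring A] [Algebra ℂ A] (g : Ix κ → A) (z : A) :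
    TT (sig g) z = ∑ i, TT (fun a => g (.inl (i, a))) z +
      (2 : ℂ) • (TT (fun a => g (.inl (0, a))) (TT (fun a => g (.inl (1, a)))
        (TT (fun a => g (.inl (2, a))) z)) + TT (fun a => g (.inl (2, a)))
        (TT (fun a => g (.inl (1, a))) (TT (fun a => g (.inl (0, a))) z))) := by
  have h1 : TT (fun a => g (.inl (0, a))) (TT (fun a => g (.inl (1, a)))
      (TT (fun a => g (.inl (2, a))) z)) = ∑ p, m1 g p * z * m2 g p := by
    simp only [TT, Fintype.sum_prod_type, m1, m2, Finset.mul_sum, Finset.sum_mul, mul_assoc]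
  have h2 : TT (fun a => g (.inl (2, a))) (TT (fun a => g (.inl (1, a)))
      (TT (fun a => g (.inl (0, a))) z)) = ∑ p, m2 g p * z * m1 g p := by
    rw [← Function.Bijective.sum_comp (e := fun p : κ × κ × κ => (p.2.2, p.2.1, p.1))
      (Function.Involutive.bijective fun _ => rfl)]
    simp only [TT, Fintype.sum_prod_type, m1, m2, Finset.mul_sum, Finset.sum_mul, mul_assoc]
  rw [h1, h2, TT, Fintype.sum_sum_type, Fintype.sum_prod_type, Fintype.sum_prod_type,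
    Fintype.sum_bool, ← Finset.sum_add_distrib, ← Finset.sum_add_distrib, Finset.smul_sum]
  refine congrArg₂ _ rfl (Finset.sum_congr rfl fun p _ => ?_)
  simp only [sig, pp, smul_mul_assoc, mul_smul_comm, smul_smul, Complex.I_mul_I, neg_smul, one_smul,
    two_smul]
  noncomm_ring

namespace Fk

theorem norm_sds {L κ : Type} [DecidableEq L] [Fintype κ] (F : Fk H L) {j : κ → L}
    (hj : Function.Injective j) {q : ℝ} (hq : 0 ≤ q) (hκ : (Fintype.card κ : ℝ) = q ^ 2)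
    {z : H →L[ℂ] H} (hz : z ∈ F.M) (h0 : tau F.Ω z = 0) :
    ‖TT (fun a => F.s (j a)) z F.Ω‖ ≤ 4 * q * ‖z F.Ω‖ := by
  have hG : ‖∑ a, F.l (j a) * F.d (j a)‖ ≤ 2 * q := by
    refine opNorm_le_bound _ (by positivity) fun v => ?_
    refine (pow_le_pow_iff_left₀ (norm_nonneg _) (by positivity) two_ne_zero).1 ?_
    classical
    have h : ∀ a b, inner ℂ (F.l (j a) (F.d (j a) v)) (F.l (j b) (F.d (j b) v)) =
        if a = b then ((‖F.d (j a) v‖ ^ 2 : ℝ) : ℂ) else 0 := fun a b => by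
      rw [← inner_star_right, ← mul_apply_eq_comp, F.ll, if_congr hj.eq_iff rfl rfl]
      split_ifs with e
      · subst e; simp [inner_self_eq_norm_sq_to_K]
      · simp
    rw [← inner_self_eq_norm_sq (𝕜 := ℂ)]
    simp only [_root_.sum_apply, mul_apply_eq_comp, sum_inner, inner_sum, h, Finset.sum_ite_eq',
      Finset.mem_univ, if_true, map_sum, RCLike.re_to_complex, Complex.ofReal_re]
    refine (Finset.sum_le_card_nsmul _ _ ((2 * ‖v‖) ^ 2) fun a _ => ?_).trans_eq ?_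
    · gcongr
      exact (le_opNorm _ _).trans (by gcongr; exact F.norm_d _)
    · rw [nsmul_eq_mul, Finset.card_univ, hκ]; ring
  have e : TT (fun a => F.s (j a)) z F.Ω = (∑ a, F.l (j a) * F.d (j a)) (z F.Ω) +
      star (∑ a, F.l (j a) * F.d (j a)) (z F.Ω) := by
    simp only [TT, star_sum, star_mul, star_d, _root_.sum_apply, ← Finset.sum_add_distrib]
    refine Finset.sum_congr rfl fun a _ => ?_
    have h1 := congrArg (fun T : H →L[ℂ] H => T (z F.Ω)) (F.ld (j a) (j a))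
    have h2 : F.P (z F.Ω) = 0 := by rw [P_apply, ← tau, h0, zero_smul]
    simp only [if_true, _root_.add_apply, h2, add_zero] at h1
    rw [mul_apply_eq_comp, ← dΩ, mul_apply_eq_comp, ← mul_apply_eq_comp z, ← F.comm_d hz, ← h1, s]
    rfl
  rw [e]
  refine (norm_add_le _ _).trans ((add_le_add (le_opNorm _ _) (le_opNorm _ _)).trans ?_)
  rw [norm_star]
  nlinarith [norm_nonneg (z F.Ω)]

variable {κ : Type} [Fintype κ] [DecidableEq κ] (F : Fk H (Ix κ ⊕ Ix κ))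

/-- elements orthogonal to `B` -/
def ZZ (z : H →L[ℂ] H) : Prop := z ∈ F.M ∧ ∀ x ∈ F.B, tau F.Ω (x * z) = 0

omit [Fintype κ] in
theorem ZZ_TT {ι : Type*} [Fintype ι] {a : ι → H →L[ℂ] H} (ha : ∀ c, a c ∈ F.B) {z : H →L[ℂ] H}
    (hz : F.ZZ z) : F.ZZ (TT a z) := by
  refine ⟨sum_mem fun c _ => mul_mem (mul_mem (F.B_M (ha c)) hz.1) (F.B_M (ha c)), fun x hx => ?_⟩
  rw [TT, Finset.mul_sum, tau_sum]
  refine Finset.sum_eq_zero fun c _ => ?_
  rw [← mul_assoc, F.tr (mul_mem (F.B_M hx) (mul_mem (F.B_M (ha c)) hz.1)) (F.B_M (ha c)),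
    ← mul_assoc, ← mul_assoc]
  exact hz.2 _ (mul_mem (mul_mem (ha c) hx) (ha c))

theorem norm_TT {q : ℝ} (hq : 1 ≤ q) (hκ : (Fintype.card κ : ℝ) = q ^ 2) {z : H →L[ℂ] H}
    (hz : F.ZZ z) : ‖TT (sig F.g) z F.Ω‖ ≤ 268 * q ^ 3 * ‖z F.Ω‖ := by
  have h1 : ∀ i {z}, F.ZZ z → ‖TT (fun a => F.g (.inl (i, a))) z F.Ω‖ ≤ 4 * q * ‖z F.Ω‖ :=
    fun i z hz => F.norm_sds (j := fun a => .inl (.inl (i, a))) (fun a b h => by simpa using h)
      (by positivity) hκ hz.1 (by simpa using hz.2 1 (one_mem _))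
  have h2 : ∀ i {z}, F.ZZ z → F.ZZ (TT (fun a => F.g (.inl (i, a))) z) :=
    fun i z hz => F.ZZ_TT (fun a => F.g_mem_B _) hz
  have h3 : ∀ i j k, ‖TT (fun a => F.g (.inl (i, a))) (TT (fun a => F.g (.inl (j, a)))
      (TT (fun a => F.g (.inl (k, a))) z)) F.Ω‖ ≤ 4 * q * (4 * q * (4 * q * ‖z F.Ω‖)) :=
    fun i j k => (h1 i (h2 j (h2 k hz))).trans (by
      gcongr; exact (h1 j (h2 k hz)).trans (by gcongr; exact h1 k hz))
  rw [TT_sig, Fin.sum_univ_three]
  simp only [_root_.add_apply, _root_.smul_apply]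
  have h4 : q * ‖z F.Ω‖ ≤ q ^ 3 * ‖z F.Ω‖ := by
    gcongr; exact le_self_pow₀ hq three_ne_zero
  refine (norm_add_le_of_le (norm_add₃_le.trans (add_le_add_three (h1 0 hz) (h1 1 hz) (h1 2 hz)))
    ((norm_smul_le _ _).trans (mul_le_mul_of_nonneg_left (norm_add_le_of_le (h3 0 1 2) (h3 2 1 0))
      (norm_nonneg _)))).trans ?_
  rw [Complex.norm_two]
  linarith

theorem mom_gen {q : ℝ} (hq : 1 ≤ q) (hκ : (Fintype.card κ : ℝ) = q ^ 2) (c : Ix κ)
    {b : H →L[ℂ] H} (hb : b ∈ F.B) (m : ℕ) :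
    (Lam (sig F.g))^[m] (fun b => ‖tau F.Ω b‖ ^ 2) b ≤
      ‖b (F.S c (star b F.Ω))‖ * (268 * q ^ 3) ^ m := by
  have hs : F.ZZ (F.S c) := ⟨F.s_mem _, fun x hx => by
    rw [S, F.tr (F.B_M hx) (F.s_mem _), tau_s_mul, F.B_comm' hx (by simp), tau_mul_r]⟩
  have h1 : ∀ m, F.ZZ ((TT (sig F.g))^[m] (F.S c)) ∧
      ‖(TT (sig F.g))^[m] (F.S c) F.Ω‖ ≤ (268 * q ^ 3) ^ m := fun m => by
    induction m with
    | zero => exact ⟨hs, (F.norm_sΩ _).trans_le (pow_zero _).ge⟩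
    | succ m ih =>
      rw [Function.iterate_succ_apply', pow_succ']
      exact ⟨F.ZZ_TT F.sig_mem_B ih.1, (F.norm_TT hq hκ ih.1).trans (by gcongr; exact ih.2)⟩
  rw [Lam_congr (B := F.B) (fun c b hb => mul_mem (F.sig_mem_B c) hb) m
    (g := fun b => (tau F.Ω (F.S c * (star b * F.S c * b))).re) (fun b hb => ?_) hb,
    Lam_TT F.star_sig, ← mul_assoc, F.tr (mul_mem hs.1 (mul_mem (star_mem (F.B_M hb))
      (h1 m).1.1)) (F.B_M hb), ← mul_assoc, ← mul_assoc, tau_mul]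
  · refine (Complex.re_le_norm _).trans ((norm_inner_le_norm _ _).trans ?_)
    simp only [star_mul, star_star, S, star_s, mul_apply_eq_comp]
    gcongr
    exact (h1 m).2
  · rw [S, tau_s_mul, ← mul_assoc, ← mul_assoc, F.B_comm' (star_mem hb) (by simp),
      mul_assoc (star b), rs, if_pos rfl, mul_add, add_mul, tau_add, tau_P, mul_assoc, mul_assoc,
      F.B_comm' hb (by simp), ← mul_assoc, ← mul_assoc, tau_mul_r, tau_star, zero_add,
      Complex.conj_mul']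
    norm_cast

omit [DecidableEq κ] in
theorem nonempty_Ix {q : ℝ} (hq : 1 ≤ q) (hκ : (Fintype.card κ : ℝ) = q ^ 2) : Nonempty (Ix κ) := by
  have : (0 : ℝ) < Fintype.card κ := by rw [hκ]; positivity
  have := Fintype.card_pos_iff.1 (Nat.cast_pos.1 this)
  infer_instance

theorem mom_one {q : ℝ} (hq : 1 ≤ q) (hκ : (Fintype.card κ : ℝ) = q ^ 2) (m : ℕ) :
    (Lam (sig F.g))^[m] (fun b => ‖tau F.Ω b‖ ^ 2) 1 ≤ (268 * q ^ 3) ^ m := by
  obtain ⟨c⟩ := nonempty_Ix hq hκ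
  simpa [S, norm_sΩ] using F.mom_gen hq hκ c (one_mem _) m

theorem mom_pp {q : ℝ} (hq : 1 ≤ q) (hκ : (Fintype.card κ : ℝ) = q ^ 2) (c : Ix κ) (m : ℕ) :
    (Lam (sig F.g))^[m] (fun b => ‖tau F.Ω b‖ ^ 2) (pp F.g c) ≤ 512 * (268 * q ^ 3) ^ m := by
  refine (F.mom_gen hq hκ c (F.pp_mem_B c) m).trans ?_
  have h := norm_pp_le zero_le_two (g := F.g) (fun c => F.norm_s _) c
  gcongr
  refine le_trans (b := (2 * 2 ^ 3) * (2 * ((2 * 2 ^ 3) * 1))) ?_ (by norm_num)
  refine (le_opNorm _ _).trans ?_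
  gcongr
  refine (le_opNorm _ _).trans ?_
  gcongr
  · exact F.norm_s _
  · refine (le_opNorm _ _).trans ?_
    rw [norm_star, F.norm_Ω]
    gcongr

end Fk

end Vale.Agent.P087
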