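import Vale.Agent.P087.Gm

/-! # P087: the microstates entropy of `XX g` for a free semicircular family `g`.
Plan.  Use `FreeAlgebra ℂ (Ix κ)`, `FreeAlgebra.lift`, `FreeAlgebra.basisFreeMonoid` (or `FreeAlgebra.induction` into the span of the words
`word (FreeAlgebra.ι ℂ) w`), `map_word`, `map_XX`, `map_pp`.
`chi_lower`: `R = 40 + 2 * 40^3`.  For every polynomial `p` and `ε > 0`, `gm {ε ≤ ‖tr p(herm x) / k - τ p(g)‖} → 0` (span induction from
`gue_moment`).  There are finitely many words of length `≤ m` (`List.finite_length_le`), so for large `k` the set of `x` with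
`XX (herm x) ∈ Gam` has `gm`-measure `≥ 1/2` (`gue_tail`, `norm_pp_le` applied to `toEuclideanCLM`, `star_XX`).  It is contained in the preimage of
`{y | herm y ∈ Gam}` under the shear `shear_pp 1` (`herm_add`, `herm_coord`), so `vol Gam ≥ (1/2) √(k/2π)^(-N k²)` by `gm_le` and
`Measure.le_map_apply`; hence `ent ≥ -1 + (N/2) log (2π) ≥ -1` eventually.
`chi_upper`: for every polynomial `p` there are `m, C` with `‖tr p(A) / k - τ p(X)‖ ≤ C ε` on `Gam μ R m k ε` (`k ≥ 1`).  Apply to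
`p = ∑_c (x_c - pp x c)²`, whose value at `X = XX g` is `∑ τ (g_c g_c) = N` (`pp_XX`, `SemiMom`).  So with `y = x - coord (pp (herm x))`,
`∑ y² ≤ k (N + η)` (`sum_sq_herm`), `rho k y ≥ √(k/2π)^(N k²) exp (-k² (N+η)/2)`, and `shear_pp (-1)`, `lintegral_rho` bound `vol`
(`lintegral_indicator_one_le` is not needed: use `le_meas`-type Markov `mul_meas_ge_le_lintegral`, the set `{y | ∑ y² ≤ c}` is measurable).
Then `ent ≤ (N/2) log (2π e) + η / 2` for `k ≥ 1`. -/

namespace Vale.Agent.P087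

open MeasureTheory ProbabilityTheory Filter
open scoped ENNReal NNReal Topology

variable {κ : Type} [Fintype κ] [DecidableEq κ] {A : Type*} [Ring A] [Algebra ℂ A]

theorem Upper_span {ι : Type} (p : FreeAlgebra ℂ ι) :
    p ∈ Submodule.span ℂ (Set.range (word (FreeAlgebra.ι ℂ : ι → FreeAlgebra ℂ ι))) := by
  have h : p ∈ (Algebra.adjoin ℂ (Set.range (FreeAlgebra.ι ℂ : ι → _))).toSubmodule := by
    rw [FreeAlgebra.adjoin_range_ι]; trivial
  rw [Algebra.adjoin_eq_span] at h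
  refine Submodule.span_mono (fun x hx => ?_) h
  induction hx using Submonoid.closure_induction with
  | mem x hx => obtain ⟨c, rfl⟩ := hx; exact ⟨[c], by simp⟩
  | one => exact ⟨[], rfl⟩
  | mul x y _ _ hx hy =>
    obtain ⟨u, rfl⟩ := hx
    obtain ⟨w, rfl⟩ := hy
    exact ⟨u ++ w, word_append _ _ _⟩

theorem Upper_poly {ι : Type} (τ : A →ₗ[ℂ] ℂ) (h1 : τ 1 = 1) (X : ι → A) (p : FreeAlgebra ℂ ι) :
    ∃ (m : ℕ) (C : ℝ), 0 ≤ C ∧ ∀ (k : ℕ) (ε : ℝ) (M : ι → Matrix (Fin k) (Fin k) ℂ), 0 < k → 0 ≤ ε →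
      (∀ w : List ι, 1 ≤ w.length → w.length ≤ m →
        ‖(word M w).trace / k - τ (word X w)‖ < ε) →
      ‖(FreeAlgebra.lift ℂ M p).trace / k - τ (FreeAlgebra.lift ℂ X p)‖ ≤ C * ε := by
  induction Upper_span p using Submodule.span_induction with
  | mem x hx =>
    obtain ⟨w, rfl⟩ := hx
    refine ⟨w.length, 1, zero_le_one, fun k ε M hk hε h => ?_⟩
    simp only [map_word, FreeAlgebra.lift_ι_apply, one_mul]
    rcases w with _ | ⟨c, w⟩
    · simpa [h1, hk.ne'] using hε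
    · exact (h _ (by simp) le_rfl).le
  | zero => exact ⟨0, 0, le_rfl, fun k ε M _ _ _ => by simp⟩
  | add x y _ _ hx hy =>
    obtain ⟨m, C, hC, hx⟩ := hx
    obtain ⟨m', C', hC', hy⟩ := hy
    refine ⟨max m m', C + C', add_nonneg hC hC', fun k ε M hk hε h => ?_⟩
    rw [map_add, map_add, map_add, Matrix.trace_add, add_div, add_sub_add_comm, add_mul]
    exact (norm_add_le _ _).trans (add_le_add
      (hx k ε M hk hε fun w h1 h2 => h w h1 (h2.trans (le_max_left _ _)))
      (hy k ε M hk hε fun w h1 h2 => h w h1 (h2.trans (le_max_right _ _))))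
  | smul r x _ hx =>
    obtain ⟨m, C, hC, hx⟩ := hx
    refine ⟨m, ‖r‖ * C, mul_nonneg (norm_nonneg _) hC, fun k ε M hk hε h => ?_⟩
    rw [map_smul, map_smul, map_smul, Matrix.trace_smul, smul_eq_mul, smul_eq_mul, mul_div_assoc,
      ← mul_sub, norm_mul, mul_assoc]
    exact mul_le_mul_of_nonneg_left (hx k ε M hk hε h) (norm_nonneg _)

theorem Upper_ball {α : Type} [Fintype α] {k : ℕ} (hk : 0 < k) (B : ℝ) :
    volume {y : α → ℝ | ∑ a, y a ^ 2 ≤ B} ≤ ENNReal.ofReal (Real.exp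
      (k / 2 * B - Fintype.card α / 2 * Real.log (k / (2 * Real.pi)))) := by
  have h0 : 0 < (k : ℝ) / (2 * Real.pi) := by positivity
  have h1 : √(k / (2 * Real.pi)) ^ Fintype.card α
      = Real.exp (Fintype.card α / 2 * Real.log (k / (2 * Real.pi))) := by
    rw [← Real.exp_log (pow_pos (Real.sqrt_pos.2 h0) _), Real.log_pow, Real.log_sqrt h0.le]
    congr 1
    ring
  have h2 := mul_meas_ge_le_lintegral (μ := volume)
    (f := fun x : α → ℝ => ENNReal.ofReal (rho k x)) (by unfold rho; fun_prop)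
    (ENNReal.ofReal (Real.exp (-(k / 2 * B - Fintype.card α / 2 * Real.log (k / (2 * Real.pi))))))
  rw [lintegral_rho hk, Real.exp_neg, ENNReal.ofReal_inv_of_pos (Real.exp_pos _),
    ENNReal.inv_mul_le_iff (by simp [Real.exp_pos]) ENNReal.ofReal_ne_top, mul_one] at h2
  refine (measure_mono fun y hy => ?_).trans h2
  rw [Set.mem_ofPred_eq, ← ENNReal.ofReal_inv_of_pos (Real.exp_pos _), ← Real.exp_neg, rho, h1,
    ← Real.exp_add]
  refine ENNReal.ofReal_le_ofReal (Real.exp_le_exp.2 ?_)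
  linarith [mul_le_mul_of_nonneg_left (show ∑ a, y a ^ 2 ≤ B from hy)
    (show (0 : ℝ) ≤ k / 2 by positivity)]

omit [DecidableEq κ] in
theorem Upper_vol {k : ℕ} {B : ℝ} {Γ : Set (Ix κ → Matrix (Fin k) (Fin k) ℂ)}
    (h : ∀ M ∈ Γ, ∑ c, ((M c - pp M c) * (M c - pp M c)).trace.re ≤ B) :
    vol Γ ≤ volume {y : Ix κ × Fin k × Fin k → ℝ | ∑ a, y a ^ 2 ≤ B} := by
  rw [← (shear_pp (κ := κ) (k := k) (-1)).measure_preimage
    (measurableSet_le (by fun_prop) measurable_const).nullMeasurableSet]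
  refine measure_mono fun x hx => ?_
  rw [Set.mem_preimage, Set.mem_ofPred_eq, sum_sq_herm, neg_one_smul, herm_add, herm_neg,
    herm_coord fun c => star_pp (fun c => herm_isHermitian x c) c, ← sub_eq_add_neg]
  exact h _ hx

omit [DecidableEq κ] in
theorem Upper_ent {μ : List (Ix κ) → ℂ} {R ε η : ℝ} {m k : ℕ} (hk : 0 < k)
    (h : ∀ M ∈ Gam μ R m k ε, ∑ c, ((M c - pp M c) * (M c - pp M c)).trace.re
      ≤ k * (Fintype.card (Ix κ) + η)) :
    ent μ R m k ε ≤
      ((Fintype.card (Ix κ) / 2 * Real.log (2 * Real.pi * Real.exp 1) + η / 2 : ℝ) : EReal) := by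
  have h1 := ENNReal.log_monotone ((Upper_vol h).trans (Upper_ball hk _))
  rw [ENNReal.log_ofReal_of_pos (Real.exp_pos _), Real.log_exp] at h1
  refine (add_le_add_left (mul_le_mul_of_nonneg_left h1 (EReal.coe_nonneg.2 (by positivity)))
    _).trans (le_of_eq ?_)
  have h2 : (k : ℝ) ≠ 0 := by positivity
  rw [← EReal.coe_mul, ← EReal.coe_add, Real.log_div h2 (by positivity),
    Real.log_mul (x := 2 * Real.pi) (by positivity) (Real.exp_pos _).ne', Real.log_exp]
  simp only [Fintype.card_prod (Ix κ), Fintype.card_prod (Fin k), Fintype.card_fin, Nat.cast_mul]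
  congr 1
  field_simp
  ring

theorem chi_upper (τ : A →ₗ[ℂ] ℂ) (g : Ix κ → A) (hm : SemiMom fun w => τ (word g w)) :
    (chiMom fun w => τ (word (XX g) w)) ≤
      ((Fintype.card (Ix κ) / 2 * Real.log (2 * Real.pi * Real.exp 1) : ℝ) : EReal) := by
  refine iSup₂_le fun R _ => le_of_forall_gt_imp_ge_of_dense fun a ha => ?_
  obtain ⟨b, hb, hb'⟩ := EReal.lt_iff_exists_real_btwn.1 ha
  obtain ⟨η, hη, rfl⟩ := exists_pos_add_of_lt' (EReal.coe_lt_coe_iff.1 hb)
  let x : Ix κ → FreeAlgebra ℂ (Ix κ) := FreeAlgebra.ι ℂ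
  obtain ⟨m, C, hC, h⟩ := Upper_poly τ hm.1 (XX g) (∑ c, (x c - pp x c) * (x c - pp x c))
  have h1 : τ (FreeAlgebra.lift ℂ (XX g) (∑ c, (x c - pp x c) * (x c - pp x c)))
      = Fintype.card (Ix κ) := by
    have h2 : ∀ c, τ (g c * g c) = 1 := fun c => by
      have h3 : τ 1 = 1 := hm.1
      simpa [dsum_cons, h3] using hm.2 c [c]
    simp only [map_sum, map_mul, map_sub, map_pp, x, FreeAlgebra.lift_ι_apply, pp_XX]
    simp [XX, h2]
  have hε : 0 < 2 * η / (C + 1) := by positivity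
  refine (iInf_le_of_le m (iInf₂_le_of_le _ hε (limsup_le_of_le (by isBoundedDefault) ?_))).trans
    hb'.le
  filter_upwards [eventually_gt_atTop 0] with k hk
  refine (Upper_ent (η := 2 * η) hk fun M hM => ?_).trans (le_of_eq (by congr 1; ring))
  have h2 := (Complex.re_le_norm _).trans (h k _ M hk hε.le hM.2)
  have h3 : C * (2 * η / (C + 1)) ≤ 2 * η := by
    rw [mul_comm, div_mul_eq_mul_div, div_le_iff₀ (by positivity)]
    nlinarith
  have h4 : (0 : ℝ) < k := Nat.cast_pos.2 hk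
  rw [h1, Complex.sub_re, Complex.div_natCast_re, Complex.natCast_re, sub_le_iff_le_add,
    div_le_iff₀ h4] at h2
  simp only [map_sum, map_mul, map_sub, map_pp, x, FreeAlgebra.lift_ι_apply, Matrix.trace_sum,
    Complex.re_sum] at h2
  nlinarith

end Vale.Agent.P087
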