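import Vale.Agent.P087.Lower
import Vale.Agent.P087.Upper
import Vale.Agent.P087.Integ
import Vale.Agent.P087.Mom
import Vale.Agent.P087.ConjA
import Vale.Agent.P087.Cum

/-! # P087: assembly -/

namespace Vale.Agent.P087

open InnerProductSpace ContinuousLinearMap

variable {H : Type} [NormedAddCommGroup H] [InnerProductSpace ℂ H] [CompleteSpace H]

namespace Fk

variable {κ : Type} [Fintype κ] [DecidableEq κ] (F : Fk H (Ix κ ⊕ Ix κ))

omit [Fintype κ] in
theorem freeSemi : IsFreeSemicircular (tau F.Ω) (XX F.g) F.S := by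
  refine ⟨fun j => F.isSemicircular _, F.isFree
    (fun o : Option (Ix κ) => o.elim (Set.range .inl) fun j => {.inr j}) ?_ ?_⟩
  · rintro (_ | i) (_ | j) h a ha hb
    · exact h rfl
    · obtain ⟨c, rfl⟩ := ha
      cases hb
    · obtain ⟨c, rfl⟩ := hb
      cases ha
    · obtain rfl : a = .inr i := ha
      exact h (congrArg some (Sum.inr.inj hb))
  · rintro (_ | j)
    · let T : Subalgebra ℂ (H →L[ℂ] H) :=
        Subalgebra.centralizer ℂ (F.s '' Set.range .inl).centralizer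
      have hg : ∀ c, F.g c ∈ T := fun c => Set.subset_centralizer_centralizer ⟨_, ⟨c, rfl⟩, rfl⟩
      have hX : ∀ c, XX F.g c ∈ T := fun c => add_mem (hg c) (pp_mem (fun _ => hg _) c)
      refine wStar_subset ?_
      rintro _ (⟨c, rfl⟩ | ⟨_, ⟨c, rfl⟩, rfl⟩)
      · exact hX c
      · rw [star_XX F.star_g]; exact hX c
    · refine wStar_subset (Set.Subset.trans ?_ Set.subset_centralizer_centralizer)
      rintro _ (rfl | ⟨_, rfl, rfl⟩)
      · exact ⟨_, rfl, rfl⟩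
      · exact ⟨_, rfl, (F.star_s _).symm⟩

theorem proj_le {q t : ℝ} (hq : 1 ≤ q) (hκ : (Fintype.card κ : ℝ) = q ^ 2)
    (ht : 80 * 512 * (268 * q ^ 3) ≤ t) (c : Ix κ) :
    ‖(KK F.Ω (F.Z t)).starProjection (pp F.g c F.Ω)‖ ≤ 1 := by
  have hρ : 0 < 268 * q ^ 3 := by positivity
  have ht0 : 0 < t := by linarith
  rw [← star_pp F.star_g]
  refine cum (a := sig F.g) (R := F.R t) (σ := fun c => eps c + t) (B := F.B) F.norm_Ω
    (F.RZ ht0.le) (F.RΩ t) (fun c => by rw [Z_eq, add_sub_cancel_left, star_N, NΩ]) (F.RR ht0.le)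
    (fun c => le_add_of_nonneg_left (by cases c <;> simp [eps])) ht0 (one_mem _)
    (fun c b hb => mul_mem (F.sig_mem_B c) hb) (fun c b hb => F.R_comm t c hb)
    (fun c b hb w => F.tr (mul_mem (F.B_M hb) (word_mem (F.Z_mem t) w)) (F.Z_mem t c)) hρ.le
    (F.mom_one hq hκ) (F.pp_mem_B c) (F.mom_pp hq hκ c) (F.tau_pp c) (by linarith) ht

theorem fisher_aux {q t a b : ℝ} (hκ : (Fintype.card κ : ℝ) = q ^ 2)
    (ha : ∀ y, ∃ η, Rel F.Ω (F.Z t) (.inl y) η ∧ ‖η‖ ^ 2 ≤ a)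
    (hb : ∀ p, ∃ η, Rel F.Ω (F.Z t) (.inr p) η ∧
      ‖(KK F.Ω (F.Z t)).starProjection η‖ ^ 2 ≤ b) :
    fisher F.Ω (F.Z t) ≤ ENNReal.ofReal (3 * q ^ 2 * a + 2 * q ^ 6 * b) := by
  refine (fisher_le (F.star_Z t) (φ := Sum.elim (fun _ => a) fun _ => b) ?_).trans_eq ?_
  · rintro (y | p)
    · obtain ⟨η, h1, h2⟩ := ha y
      exact ⟨η, h1, le_trans (by gcongr; exact Submodule.norm_starProjection_apply_le _ _) h2⟩
    · exact hb p
  · simp only [Fintype.sum_sum_type, Sum.elim_inl, Sum.elim_inr, Finset.sum_const, Finset.card_univ,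
      Fintype.card_prod, Fintype.card_fin, Fintype.card_bool, nsmul_eq_mul, Nat.cast_mul, hκ]
    congr 1
    push_cast
    ring

theorem gap {q : ℝ} (hq : q = 2 ^ 40) (hκ : (Fintype.card κ : ℝ) = q ^ 2) :
    0 < intDiff (fun t => ENNReal.ofReal (Fintype.card (Ix κ) / (1 + t)))
      (fun t => fisher F.Ω (F.Z t)) := by
  have hq1 : 1 ≤ q := by rw [hq]; norm_num
  have hc : (Fintype.card (Ix κ) : ℝ) = 3 * q ^ 2 + 2 * q ^ 6 := by
    simp only [Fintype.card_sum, Fintype.card_prod, Fintype.card_fin, Fintype.card_bool]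
    push_cast
    rw [hκ]
    ring
  have hq3 : 1 ≤ q ^ 3 := one_le_pow₀ hq1
  have hY : ∀ {t}, 0 < t → ∀ y, ∃ η, Rel F.Ω (F.Z t) (.inl y) η ∧ ‖η‖ ^ 2 ≤ 1 / t :=
    fun ht y => by simpa [eps] using F.conjN ht (.inl y)
  rw [hc]
  refine intDiff_pos (by positivity) (one_le_pow₀ (le_add_of_nonneg_right (by positivity)))
    (by linarith) (fun t ht => ?_) (fun t ht => ?_) (numeric hq)
  · rw [← mul_one_div (2 * q ^ 6)]
    refine F.fisher_aux hκ (fun y => ?_) fun p => ?_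
    · rcases le_total ((1 + 48 * q ^ 6) ^ 2) (1 / t) with h | h
      · obtain ⟨η, h1, h2⟩ := F.conjY t y
        rw [hκ, ← pow_mul] at h2
        exact ⟨η, h1, by rw [min_eq_left h]; gcongr⟩
      · rw [min_eq_right h]; exact hY ht y
    · obtain ⟨η, h1, h2⟩ := F.conjN ht (.inr p)
      exact ⟨η, h1, le_trans (by gcongr; exact Submodule.norm_starProjection_apply_le _ _) h2⟩
  · have ht0 : 0 < t := by linarith
    rw [← mul_one_div (3 * q ^ 2)]
    exact F.fisher_aux hκ (hY ht0) fun p => F.conjA ht0 p (F.proj_le hq1 hκ ht _)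

end Fk

theorem main : ∃ (H : Type) (_ : NormedAddCommGroup H) (_ : InnerProductSpace ℂ H)
    (_ : CompleteSpace H) (M : VonNeumannAlgebra H) (Ω : H) (ι : Type) (_ : Fintype ι)
    (_ : DecidableEq ι) (_ : Nonempty ι) (X S : ι → H →L[ℂ] H),
    IsTraceVector (M : Set (H →L[ℂ] H)) Ω ∧ (∀ j, X j ∈ M ∧ IsSelfAdjoint (X j) ∧ S j ∈ M) ∧
      IsFreeSemicircular (tau Ω) X S ∧
      ⊥ < chi Ω X ∧ chi Ω X < chiStar Ω X S ∧ chiStar Ω X S < ⊤ := by
  classical
  obtain ⟨κ, _, hκ⟩ : ∃ (κ : Type) (_ : Fintype κ), (Fintype.card κ : ℝ) = (2 ^ 40) ^ 2 :=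
    ⟨Fin (2 ^ 80), inferInstance, by rw [Fintype.card_fin]; norm_num⟩
  have hne : Nonempty κ := Fintype.card_pos_iff.1 (by
    have : (0 : ℝ) < Fintype.card κ := by rw [hκ]; norm_num
    exact_mod_cast this)
  let F := FockC.fk (Ix κ ⊕ Ix κ)
  have hm := F.semiMom (j := Sum.inl) Sum.inl_injective
  refine ⟨_, _, _, inferInstance, F.M, F.Ω, Ix κ, inferInstance, inferInstance, inferInstance,
    XX F.g, F.S, F.isTraceVector, fun j => ⟨F.X_mem j, star_XX F.star_g j, F.s_mem _⟩, F.freeSemi,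
    chi_lower (tauL F.Ω) F.g hm, (chi_upper (tauL F.Ω) F.g hm).trans_lt ?_, ?_⟩
  · have h := EReal.mul_pos (a := ((1 / 2 : ℝ) : EReal)) (by norm_num) (F.gap rfl hκ)
    have := EReal.add_lt_add_right_coe h
      (Fintype.card (Ix κ) / 2 * Real.log (2 * Real.pi * Real.exp 1))
    rwa [zero_add] at this
  · have h := intDiff_lt_top (φ := fun t => fisher F.Ω (F.Z t)) (Nat.cast_nonneg _)
      fun t ht => le_fisher F.norm_Ω (F.star_Z t) (F.norm_ZΩ ht.le)
    refine EReal.add_lt_top (ne_of_lt ?_) (EReal.coe_ne_top _)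
    refine lt_top_iff_ne_top.2 ((EReal.mul_ne_top _ _).2 ?_)
    exact ⟨Or.inl (EReal.coe_ne_bot _), Or.inl (by norm_num), Or.inl (EReal.coe_ne_top _),
      Or.inr h.ne⟩

end Vale.Agent.P087
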