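import Vale.Agent.P087.Free

/-! # P087: the concrete system on the Fock space over `Ix κ ⊕ Ix κ` -/

namespace Vale.Agent.P087

open InnerProductSpace ContinuousLinearMap

instance instDecIx {κ : Type} [DecidableEq κ] : DecidableEq (Ix κ) := inferInstance

/-- `Λ f (b) = ∑_c f (a_c b)` -/
def Lam {ι A : Type*} [Fintype ι] [Mul A] (a : ι → A) (f : A → ℝ) (b : A) : ℝ := ∑ c, f (a c * b)

/-- the signal part of the variables -/
noncomputable def sig {κ : Type} {A : Type*} [Ring A] [Algebra ℂ A] (g : Ix κ → A) : Ix κ → A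
  | .inl y => g (.inl y)
  | .inr p => pp g (.inr p)

/-- weight of the built-in noise -/
def eps {κ : Type} : Ix κ → ℝ
  | .inl _ => 0
  | .inr _ => 1

variable {H : Type} [NormedAddCommGroup H] [InnerProductSpace ℂ H] [CompleteSpace H]

/-- closed span of the vectors `Z_w Ω` -/
noncomputable def KK {ι : Type} (Ω : H) (Z : ι → H →L[ℂ] H) : Submodule ℂ H :=
  (Submodule.span ℂ (Set.range fun w => word Z w Ω)).topologicalClosure

instance {ι : Type} (Ω : H) (Z : ι → H →L[ℂ] H) : (KK Ω Z).HasOrthogonalProjection :=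
  haveI : CompleteSpace (KK Ω Z) := (Submodule.isClosed_topologicalClosure _).completeSpace_coe
  inferInstance

omit [CompleteSpace H] in
theorem mem_KK {ι : Type} (Ω : H) (Z : ι → H →L[ℂ] H) (w : List ι) : word Z w Ω ∈ KK Ω Z :=
  Submodule.le_topologicalClosure _ (Submodule.subset_span ⟨w, rfl⟩)

/-- the conjugate relations for a vector `η` -/
def Rel {ι : Type} [DecidableEq ι] (Ω : H) (Z : ι → H →L[ℂ] H) (j : ι) (η : H) : Prop :=
  ∀ w : List ι,
    inner ℂ Ω (word Z w η) = dsum j w fun g h => tau Ω (word Z g) * tau Ω (word Z h)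

namespace Fk

variable {κ : Type} [DecidableEq κ] (F : Fk H (Ix κ ⊕ Ix κ))

/-- the base semicirculars -/
noncomputable def g (c : Ix κ) : H →L[ℂ] H := F.s (.inl c)
/-- the noise semicirculars -/
noncomputable def S (c : Ix κ) : H →L[ℂ] H := F.s (.inr c)
/-- `X + √t S` -/
noncomputable def Z (t : ℝ) : Ix κ → H →L[ℂ] H := flow (XX F.g) F.S t
/-- the noise part of `Z` -/
noncomputable def N (t : ℝ) (c : Ix κ) : H →L[ℂ] H :=
  ((eps c : ℝ) : ℂ) • F.g c + ((√t : ℝ) : ℂ) • F.S c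
/-- right annihilation operator of the noise -/
noncomputable def R (t : ℝ) (c : Ix κ) : H →L[ℂ] H :=
  ((eps c : ℝ) : ℂ) • star (F.r (.inl c)) + ((√t : ℝ) : ℂ) • star (F.r (.inr c))
/-- an algebra containing the signals and commuting with the noise annihilators -/
noncomputable def B : StarSubalgebra ℂ (H →L[ℂ] H) :=
  F.M.toStarSubalgebra ⊓ StarSubalgebra.centralizer ℂ (F.r '' {x | ∀ y, x ≠ .inl (.inl y)})

theorem B_M {b : H →L[ℂ] H} (hb : b ∈ F.B) : b ∈ F.M := hb.1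
theorem B_comm {b : H →L[ℂ] H} (hb : b ∈ F.B) {x : Ix κ ⊕ Ix κ} (hx : ∀ y, x ≠ .inl (.inl y)) :
    F.r x * b = b * F.r x :=
  ((StarSubalgebra.mem_centralizer_iff ℂ).1 hb.2 _ ⟨x, hx, rfl⟩).1
theorem B_comm' {b : H →L[ℂ] H} (hb : b ∈ F.B) {x : Ix κ ⊕ Ix κ} (hx : ∀ y, x ≠ .inl (.inl y)) :
    star (F.r x) * b = b * star (F.r x) :=
  ((StarSubalgebra.mem_centralizer_iff ℂ).1 hb.2 _ ⟨x, hx, rfl⟩).2
theorem g_mem_B (y : Fin 3 × κ) : F.g (.inl y) ∈ F.B := by
  refine ⟨F.s_mem _, (StarSubalgebra.mem_centralizer_iff ℂ).2 ?_⟩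
  rintro _ ⟨x, hx, rfl⟩
  exact ⟨by rw [g, sr, if_neg (hx y).symm, add_zero], by rw [g, rs, if_neg (hx y), add_zero]⟩
theorem pp_mem_B (c : Ix κ) : pp F.g c ∈ F.B := pp_mem F.g_mem_B c
theorem sig_mem_B (c : Ix κ) : sig F.g c ∈ F.B := by
  rcases c with y | p
  · exact F.g_mem_B y
  · exact F.pp_mem_B _
theorem star_g (c : Ix κ) : star (F.g c) = F.g c := F.star_s _
theorem star_sig (c : Ix κ) : star (sig F.g c) = sig F.g c := by
  rcases c with y | p
  · exact F.star_g _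
  · exact star_pp F.star_g _
theorem X_mem (c : Ix κ) : XX F.g c ∈ F.M := add_mem (F.s_mem _) (F.B_M (F.pp_mem_B c))
theorem Z_eq (t : ℝ) (c : Ix κ) : F.Z t c = sig F.g c + F.N t c := by
  rcases c with y | p
  · simp [Z, flow, XX, pp, sig, N, eps]
  · simp only [Z, flow, XX, sig, N, eps, Complex.ofReal_one, one_smul]; abel
theorem star_N (t : ℝ) (c : Ix κ) : star (F.N t c) = F.N t c := by
  simp [N, star_g, S, star_s]
theorem star_Z (t : ℝ) (c : Ix κ) : star (F.Z t c) = F.Z t c := by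
  rw [Z_eq, star_add, star_N, star_sig]
theorem Z_mem (t : ℝ) (c : Ix κ) : F.Z t c ∈ F.M :=
  add_mem (F.X_mem c) (F.smul_mem _ (F.s_mem _))
theorem R_comm (t : ℝ) (c : Ix κ) {b : H →L[ℂ] H} (hb : b ∈ F.B) : F.R t c * b = b * F.R t c := by
  have h2 := F.B_comm' hb (x := .inr c) (by simp)
  rcases c with y | p
  · simp [R, eps, h2]
  · have h1 := F.B_comm' hb (x := .inl (.inr p)) (by simp)
    simp [R, eps, h1, h2, mul_add, add_mul]
theorem RΩ (t : ℝ) (c : Ix κ) : F.R t c F.Ω = 0 := by simp [R, F.rΩ]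
theorem NΩ (t : ℝ) (c : Ix κ) : F.N t c F.Ω = star (F.R t c) F.Ω := by
  simp [N, R, g, S, sΩ]
omit [DecidableEq κ] in
theorem eps_sq (c : Ix κ) : ((eps c : ℝ) : ℂ) * (eps c : ℝ) = (eps c : ℝ) := by
  rcases c with y | p <;> simp [eps]
theorem RR {t : ℝ} (ht : 0 ≤ t) (c c' : Ix κ) :
    F.R t c * star (F.R t c') = if c = c' then ((eps c + t : ℝ) : ℂ) • 1 else 0 := by
  have h : ((√t : ℝ) : ℂ) * (√t : ℝ) = t := by exact_mod_cast Real.mul_self_sqrt ht
  simp only [R, star_add, star_smul, star_star, mul_add, add_mul, smul_mul_smul_comm, F.rr,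
    Complex.star_def, Complex.conj_ofReal]
  split_ifs with e <;> simp_all [eps_sq, add_smul]
theorem RZ {t : ℝ} (ht : 0 ≤ t) (c c' : Ix κ) :
    F.R t c * F.Z t c' = F.Z t c' * F.R t c +
      if c' = c then ((eps c + t : ℝ) : ℂ) • F.P else 0 := by
  have h : ((√t : ℝ) : ℂ) * (√t : ℝ) = t := by exact_mod_cast Real.mul_self_sqrt ht
  rw [Z_eq, mul_add, add_mul, F.R_comm t c (F.sig_mem_B c'), add_assoc]
  congr 1
  simp only [R, N, g, S, mul_add, add_mul, smul_mul_smul_comm, F.rs, smul_add]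
  split_ifs with e <;> simp_all [eps_sq, add_smul, mul_comm] <;> abel

end Fk

end Vale.Agent.P087
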