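import Vale.Agent.P087.Defs

/-! # P087: words, `dsum`, and the polynomial model -/

namespace Vale.Agent.P087

section
variable {ι A B : Type*}

@[simp] theorem word_nil [Monoid A] (X : ι → A) : word X [] = 1 := rfl
@[simp] theorem word_cons [Monoid A] (X : ι → A) (c : ι) (w : List ι) :
    word X (c :: w) = X c * word X w := by simp [word]
@[simp] theorem word_append [Monoid A] (X : ι → A) (u w : List ι) :
    word X (u ++ w) = word X u * word X w := by simp [word]
theorem word_map {κ : Type*} [Monoid A] (X : ι → A) (f : κ → ι) (w : List κ) :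
    word X (w.map f) = word (fun c => X (f c)) w := by simp [word, Function.comp_def]
theorem map_word [Monoid A] [Monoid B] {F : Type*} [FunLike F A B] [MonoidHomClass F A B] (f : F)
    (X : ι → A) (w : List ι) : f (word X w) = word (fun c => f (X c)) w := by
  induction w with
  | nil => simp
  | cons c w ih => simp [ih]
theorem star_word [Monoid A] [StarMul A] {X : ι → A} (h : ∀ c, star (X c) = X c) (w : List ι) :
    star (word X w) = word X w.reverse := by
  induction w with
  | nil => simp
  | cons c w ih => simp [ih, h]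
theorem word_mem [Monoid A] {S : Type*} [SetLike S A] [SubmonoidClass S A] {s : S} {X : ι → A}
    (h : ∀ c, X c ∈ s) (w : List ι) : word X w ∈ s := by
  induction w with
  | nil => exact one_mem _
  | cons c w ih => rw [word_cons]; exact mul_mem (h c) ih

variable [DecidableEq ι] [AddCommMonoid B]

@[simp] theorem dsum_nil (j : ι) (F : List ι → List ι → B) : dsum j [] F = 0 := by simp [dsum]
theorem dsum_cons (j c : ι) (w : List ι) (F : List ι → List ι → B) :
    dsum j (c :: w) F = (if c = j then F [] w else 0) + dsum j w fun g h => F (c :: g) h := by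
  simp [dsum, Finset.sum_range_succ', add_comm]
theorem dsum_congr {j : ι} {w : List ι} {F G : List ι → List ι → B}
    (h : ∀ g k, w = g ++ j :: k → F g k = G g k) : dsum j w F = dsum j w G := by
  induction w generalizing F G with
  | nil => simp
  | cons c w ih =>
    rw [dsum_cons, dsum_cons, ih fun g k e => h (c :: g) k (by rw [e]; rfl)]
    split_ifs with e
    · rw [h [] w (by rw [e]; rfl)]
    · rfl
theorem map_dsum {C F : Type*} [AddCommMonoid C] [FunLike F B C] [AddMonoidHomClass F B C] (f : F)
    (j : ι) (w : List ι) (G : List ι → List ι → B) :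
    f (dsum j w G) = dsum j w fun g h => f (G g h) := by
  simp only [dsum, map_sum, apply_ite f, map_zero]
theorem dsum_add (j : ι) (w : List ι) (F G : List ι → List ι → B) :
    dsum j w (fun g h => F g h + G g h) = dsum j w F + dsum j w G := by
  simp only [dsum, ← Finset.sum_add_distrib]
  exact Finset.sum_congr rfl fun l _ => by split_ifs <;> simp
theorem dsum_sum {κ : Type*} (s : Finset κ) (j : ι) (w : List ι) (F : κ → List ι → List ι → B) :
    dsum j w (fun g h => ∑ i ∈ s, F i g h) = ∑ i ∈ s, dsum j w (F i) := by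
  simp only [dsum]
  rw [Finset.sum_comm]
  exact Finset.sum_congr rfl fun l _ => by split_ifs <;> simp
@[simp] theorem dsum_zero (j : ι) (w : List ι) : dsum j w (fun _ _ => (0 : B)) = 0 := by
  simp [dsum]
/-- induction principle: a property closed under `0`, `+` holds for `dsum` -/
theorem dsum_induction {P : B → Prop} (h0 : P 0) (ha : ∀ a b, P a → P b → P (a + b)) {j : ι}
    {w : List ι} {F : List ι → List ι → B} (h : ∀ g k, w = g ++ j :: k → P (F g k)) :
    P (dsum j w F) := by
  induction w generalizing F with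
  | nil => simpa
  | cons c w ih =>
    rw [dsum_cons]
    refine ha _ _ ?_ (ih fun g k e => h (c :: g) k (by rw [e]; rfl))
    split_ifs with e
    · exact h [] w (by rw [e]; rfl)
    · exact h0

/-- Leibniz rule for a map `D` with `D (X c) = δ_{c j} e` -/
theorem deriv_word {A : Type*} [Ring A] (D : A → A) (h1 : D 1 = 0)
    (hm : ∀ a b, D (a * b) = D a * b + a * D b) {X : ι → A} {j : ι} {e : A}
    (h : ∀ c, D (X c) = if c = j then e else 0) (w : List ι) :
    D (word X w) = dsum j w fun g k => word X g * e * word X k := by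
  induction w with
  | nil => simpa
  | cons c w ih =>
    rw [word_cons, hm, ih, dsum_cons, h]
    congr 1
    · split_ifs <;> simp
    · rw [← AddMonoidHom.coe_mulLeft, map_dsum]
      simp [mul_assoc]

end

/-- the moments of a free semicircular family -/
def SemiMom {ι : Type*} [DecidableEq ι] (m : List ι → ℂ) : Prop :=
  m [] = 1 ∧ ∀ j w, m (j :: w) = dsum j w fun g h => m g * m h

/-- index set of the variables -/
abbrev Ix (κ : Type) : Type := (Fin 3 × κ) ⊕ (Bool × κ × κ × κ)

section
variable {κ : Type} {A B : Type*} [Ring A] [Algebra ℂ A] [Ring B] [Algebra ℂ B]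

/-- `U_a V_b W_c` -/
def m1 (g : Ix κ → A) (p : κ × κ × κ) : A :=
  g (.inl (0, p.1)) * g (.inl (1, p.2.1)) * g (.inl (2, p.2.2))
/-- `W_c V_b U_a` -/
def m2 (g : Ix κ → A) (p : κ × κ × κ) : A :=
  g (.inl (2, p.2.2)) * g (.inl (1, p.2.1)) * g (.inl (0, p.1))
/-- the polynomial part -/
noncomputable def pp (g : Ix κ → A) : Ix κ → A
  | .inl _ => 0
  | .inr (true, p) => m1 g p + m2 g p
  | .inr (false, p) => Complex.I • (m1 g p - m2 g p)
/-- the variables `X` -/
noncomputable def XX (g : Ix κ → A) (c : Ix κ) : A := g c + pp g c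

theorem pp_congr {g g' : Ix κ → A} (h : ∀ y, g (.inl y) = g' (.inl y)) : pp g = pp g' := by
  funext c
  rcases c with y | ⟨_ | _, p⟩ <;> simp [pp, m1, m2, h]
theorem pp_XX (g : Ix κ → A) : pp (XX g) = pp g := pp_congr fun y => by simp [XX, pp]
theorem map_pp (f : A →ₐ[ℂ] B) (g : Ix κ → A) (c : Ix κ) :
    f (pp g c) = pp (fun c => f (g c)) c := by
  rcases c with y | ⟨_ | _, p⟩ <;> simp [pp, m1, m2]
theorem map_XX (f : A →ₐ[ℂ] B) (g : Ix κ → A) (c : Ix κ) :
    f (XX g c) = XX (fun c => f (g c)) c := by simp [XX, map_pp]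
theorem star_pp [StarRing A] [StarModule ℂ A] {g : Ix κ → A} (h : ∀ c, star (g c) = g c)
    (c : Ix κ) : star (pp g c) = pp g c := by
  rcases c with y | ⟨_ | _, p⟩
  · simp [pp]
  · simp [pp, m1, m2, h, mul_assoc, ← smul_neg]
  · simp [pp, m1, m2, h, mul_assoc, add_comm]
theorem star_XX [StarRing A] [StarModule ℂ A] {g : Ix κ → A} (h : ∀ c, star (g c) = g c)
    (c : Ix κ) : star (XX g c) = XX g c := by rw [XX, star_add, h, star_pp h]
theorem pp_mem {S : Type*} [SetLike S A] [SubringClass S A] [SMulMemClass S ℂ A] {s : S}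
    {g : Ix κ → A} (h : ∀ y, g (.inl y) ∈ s) (c : Ix κ) : pp g c ∈ s := by
  have h1 : ∀ p, m1 g p ∈ s := fun p => mul_mem (mul_mem (h _) (h _)) (h _)
  have h2 : ∀ p, m2 g p ∈ s := fun p => mul_mem (mul_mem (h _) (h _)) (h _)
  rcases c with y | ⟨_ | _, p⟩
  · exact zero_mem _
  · exact SMulMemClass.smul_mem _ (sub_mem (h1 p) (h2 p))
  · exact add_mem (h1 p) (h2 p)

end

theorem norm_pp_le {κ : Type} {A : Type*} [NormedRing A] [NormedAlgebra ℂ A] {g : Ix κ → A}
    {R : ℝ} (hR : 0 ≤ R) (h : ∀ c, ‖g c‖ ≤ R) (c : Ix κ) : ‖pp g c‖ ≤ 2 * R ^ 3 := by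
  have h3 : ∀ a b c, ‖g a * g b * g c‖ ≤ R ^ 3 := fun a b c => by
    refine (norm_mul_le _ _).trans ?_
    rw [pow_succ, pow_two]
    exact mul_le_mul ((norm_mul_le _ _).trans (mul_le_mul (h _) (h _) (norm_nonneg _) hR)) (h _)
      (norm_nonneg _) (by positivity)
  rcases c with y | ⟨_ | _, p⟩
  · simp only [pp, norm_zero]; positivity
  · simp only [pp, norm_smul, Complex.norm_I, one_mul]
    exact (norm_sub_le _ _).trans (by rw [two_mul]; exact add_le_add (h3 _ _ _) (h3 _ _ _))
  · exact (norm_add_le _ _).trans (by rw [two_mul]; exact add_le_add (h3 _ _ _) (h3 _ _ _))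

end Vale.Agent.P087
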